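import Vale.Agent.P240.R2.H613.I1a
import Vale.Agent.P240.R2.H296.Cen
import Vale.Agent.P240.R2.H281.H90b

/-!
The projective orthogonal group in odd dimension over a finite field is the special orthogonal group
of the antidiagonal form `JJ` (P240, row I5').
-/

set_option autoImplicit false

namespace Vale.Agent.P240.R2.H613.I5

open Matrix Finset
open Vale.Agent.P240.R2.H487.CG
open Vale.Agent.P240.R2.AS
open Vale.Agent.P240.R2.H613.I1
open scoped Classical

universe u

noncomputable section

variable {K : Type u} [Field K] {n : ℕ}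

/-- the diagonal coefficients of the change of basis -/
def xa (K : Type u) [Field K] (n : ℕ) (j : Fin n) : K :=
  if Fin.rev j < j then -((-1) ^ j.val / 2) else 1

/-- the antidiagonal coefficients of the change of basis -/
def xb (K : Type u) [Field K] (n : ℕ) (j : Fin n) : K :=
  if j < Fin.rev j then (-1) ^ j.val / 2 else if Fin.rev j < j then 1 else 0

/-- the diagonal form -/
def dd (K : Type u) [Field K] (n : ℕ) (j : Fin n) : K :=
  if j < Fin.rev j then 1 else if Fin.rev j < j then -1 else (-1) ^ j.val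

/-- the change of basis -/
def RM (K : Type u) [Field K] (n : ℕ) : Matrix (Fin n) (Fin n) K :=
  Matrix.of fun i j => (if i = j then xa K n j else 0) + (if i = Fin.rev j then xb K n j else 0)

lemma RM_form (i j : Fin n) : ((RM K n)ᵀ * JJ n K * RM K n) i j =
    (if j = Fin.rev i then xa K n i * (-1) ^ i.val * xa K n j +
      xb K n i * (-1) ^ (Fin.rev i).val * xb K n j else 0) +
    (if i = j then xa K n i * (-1) ^ i.val * xb K n j +
      xb K n i * (-1) ^ (Fin.rev i).val * xa K n j else 0) := by
  have h1 : ∀ l, ((RM K n)ᵀ * JJ n K) i l =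
      (if l = Fin.rev i then xa K n i * (-1) ^ i.val else 0) +
      (if l = i then xb K n i * (-1) ^ (Fin.rev i).val else 0) := by
    intro l
    rw [Matrix.mul_apply]
    have h2 : ∀ k, (RM K n)ᵀ i k * JJ n K k l =
        (if k = i then (if l = Fin.rev i then xa K n i * (-1) ^ i.val else 0) else 0) +
        (if k = Fin.rev i then (if l = i then xb K n i * (-1) ^ (Fin.rev i).val else 0) else 0) := by
      intro k
      rw [Matrix.transpose_apply, JJ_apply]
      simp only [RM, Matrix.of_apply]
      by_cases h3 : k = i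
      · subst h3
        by_cases h4 : k = Fin.rev k
        · rw [if_pos rfl, if_pos h4, if_pos rfl, if_pos h4]
          by_cases h5 : l = Fin.rev k
          · have h6 : l = k := h5.trans h4.symm
            rw [if_pos h5, if_pos h5, if_pos h6, ← h4]
            ring
          · have h6 : l ≠ k := fun h => h5 (h.trans h4)
            rw [if_neg h5, if_neg h5, if_neg h6]
            ring
        · rw [if_pos rfl, if_neg h4, if_pos rfl, if_neg h4]
          split_ifs <;> ring
      · by_cases h4 : k = Fin.rev i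
        · subst h4
          rw [if_neg h3, if_pos rfl, if_neg h3, if_pos rfl, Fin.rev_rev]
          split_ifs <;> ring
        · rw [if_neg h3, if_neg h4, if_neg h3, if_neg h4]
          ring
    rw [Finset.sum_congr rfl (fun k _ => h2 k), Finset.sum_add_distrib, Finset.sum_ite_eq',
      Finset.sum_ite_eq', if_pos (Finset.mem_univ _), if_pos (Finset.mem_univ _)]
  rw [Matrix.mul_apply]
  have h2 : ∀ l, ((RM K n)ᵀ * JJ n K) i l * RM K n l j =
      (if l = Fin.rev i then xa K n i * (-1) ^ i.val *
        ((if Fin.rev i = j then xa K n j else 0) + (if Fin.rev i = Fin.rev j then xb K n j else 0))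
        else 0) +
      (if l = i then xb K n i * (-1) ^ (Fin.rev i).val *
        ((if i = j then xa K n j else 0) + (if i = Fin.rev j then xb K n j else 0)) else 0) := by
    intro l
    rw [h1]
    simp only [RM, Matrix.of_apply]
    by_cases h3 : l = Fin.rev i
    · by_cases h4 : l = i
      · rw [if_pos h3, if_pos h4, if_pos h3, if_pos h4]
        have h5 : Fin.rev i = i := h3.symm.trans h4
        rw [h5, h4]
        ring
      · rw [if_pos h3, if_neg h4, if_pos h3, if_neg h4, h3]
        ring
    · by_cases h4 : l = i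
      · rw [if_neg h3, if_pos h4, if_neg h3, if_pos h4, h4]
        ring
      · rw [if_neg h3, if_neg h4, if_neg h3, if_neg h4]
        ring
  rw [Finset.sum_congr rfl (fun l _ => h2 l), Finset.sum_add_distrib, Finset.sum_ite_eq',
    Finset.sum_ite_eq', if_pos (Finset.mem_univ _), if_pos (Finset.mem_univ _)]
  have e1 : (Fin.rev i = Fin.rev j) ↔ (i = j) := Fin.rev_inj
  have e2 : (i = Fin.rev j) ↔ (j = Fin.rev i) :=
    ⟨fun h => by rw [h, Fin.rev_rev], fun h => by rw [h, Fin.rev_rev]⟩
  have e3 : (Fin.rev i = j) ↔ (j = Fin.rev i) := ⟨Eq.symm, Eq.symm⟩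
  simp only [e1, e2, e3]
  split_ifs <;> ring

/-- the form is congruent to a diagonal form with entries `1`, `-1` -/
theorem RM_diag (h2 : (2 : K) ≠ 0) (hno : Odd n) :
    (RM K n)ᵀ * JJ n K * RM K n = diagonal (dd K n) := by
  have hep : ep n K = 1 := by
    obtain ⟨m, rfl⟩ := hno
    unfold ep
    rw [Nat.add_sub_cancel, pow_mul]
    simp
  have hsr : ∀ i : Fin n, (-1 : K) ^ (Fin.rev i).val = (-1) ^ i.val := by
    intro i
    rw [sg_rev, hep, one_mul]
  have hsq : ∀ k : ℕ, (-1 : K) ^ k * (-1) ^ k = 1 := by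
    intro k
    rw [← pow_add, ← two_mul, pow_mul]
    simp
  ext i j
  rw [RM_form, diagonal_apply, hsr]
  rcases lt_trichotomy i (Fin.rev i) with h | h | h
  · have hr : Fin.rev (Fin.rev i) = i := Fin.rev_rev i
    have ha : xa K n i = 1 := by unfold xa; rw [if_neg (not_lt.2 h.le)]
    have hb : xb K n i = (-1) ^ i.val / 2 := by unfold xb; rw [if_pos h]
    have ha' : xa K n (Fin.rev i) = -((-1) ^ i.val / 2) := by
      unfold xa; rw [hr, if_pos h, hsr]
    have hb' : xb K n (Fin.rev i) = 1 := by
      unfold xb; rw [hr, if_neg (not_lt.2 h.le), if_pos h]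
    have hd : dd K n i = 1 := by unfold dd; rw [if_pos h]
    by_cases h3 : i = j
    · subst h3
      rw [if_neg (ne_of_lt h), if_pos rfl, if_pos rfl, ha, hb, hd]
      have := hsq i.val
      field_simp
      linear_combination 2 * this
    · rw [if_neg h3, if_neg h3, add_zero]
      by_cases h4 : j = Fin.rev i
      · subst h4
        rw [if_pos rfl, ha, hb, ha', hb']
        ring
      · rw [if_neg h4]
  · have ha : xa K n i = 1 := by
      unfold xa; rw [if_neg (fun h1 => absurd h.symm (ne_of_lt h1))]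
    have hb : xb K n i = 0 := by
      unfold xb; rw [if_neg (fun h1 => absurd h (ne_of_lt h1)),
        if_neg (fun h1 => absurd h.symm (ne_of_lt h1))]
    have hd : dd K n i = (-1) ^ i.val := by
      unfold dd; rw [if_neg (fun h1 => absurd h (ne_of_lt h1)),
        if_neg (fun h1 => absurd h.symm (ne_of_lt h1))]
    by_cases h3 : i = j
    · subst h3
      rw [if_pos h, if_pos rfl, if_pos rfl, ha, hb, hd]
      ring
    · have h4 : j ≠ Fin.rev i := fun h5 => h3 (h.trans h5.symm)
      rw [if_neg h3, if_neg h3, if_neg h4, add_zero]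
  · have hr : Fin.rev (Fin.rev i) = i := Fin.rev_rev i
    have ha : xa K n i = -((-1) ^ i.val / 2) := by unfold xa; rw [if_pos h]
    have hb : xb K n i = 1 := by unfold xb; rw [if_neg (not_lt.2 h.le), if_pos h]
    have ha' : xa K n (Fin.rev i) = 1 := by
      unfold xa; rw [hr, if_neg (not_lt.2 h.le)]
    have hb' : xb K n (Fin.rev i) = (-1) ^ i.val / 2 := by
      unfold xb; rw [hr, if_pos h, hsr]
    have hd : dd K n i = -1 := by unfold dd; rw [if_neg (not_lt.2 h.le), if_pos h]
    by_cases h3 : i = j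
    · subst h3
      rw [if_neg (ne_of_gt h), if_pos rfl, if_pos rfl, ha, hb, hd]
      have := hsq i.val
      field_simp
      linear_combination (-2) * this
    · rw [if_neg h3, if_neg h3, add_zero]
      by_cases h4 : j = Fin.rev i
      · subst h4
        rw [if_pos rfl, ha, hb, ha', hb']
        ring
      · rw [if_neg h4]

lemma dd_sq (i : Fin n) : dd K n i * dd K n i = 1 := by
  unfold dd
  split_ifs
  · ring
  · ring
  · rw [← pow_add, ← two_mul, pow_mul]; simp

variable [Fintype K]

/-- in odd dimension the form is congruent to plus or minus the unit matrix -/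
theorem exists_congr (h2 : (2 : K) ≠ 0) (hno : Odd n) :
    ∃ (P : Matrix (Fin n) (Fin n) K) (D : K), D * D = 1 ∧ Pᵀ * JJ n K * P = D • 1 := by
  set D : K := ∏ i, dd K n i with hD
  have hDD : D * D = 1 := by
    rw [hD, ← Finset.prod_mul_distrib]
    exact Finset.prod_eq_one fun i _ => dd_sq i
  have hD0 : D ≠ 0 := left_ne_zero_of_mul_eq_one hDD
  have hd0 : ∀ i, D * dd K n i ≠ 0 := fun i =>
    mul_ne_zero hD0 (left_ne_zero_of_mul_eq_one (dd_sq i))
  have hprod : ∏ i, D * dd K n i = 1 := by
    rw [Finset.prod_mul_distrib, Finset.prod_const, Finset.card_univ, Fintype.card_fin, ← hD]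
    obtain ⟨m, rfl⟩ := hno
    have e1 : D ^ (2 * m + 1) * D = (D * D) ^ (m + 1) := by ring
    rw [e1, hDD, one_pow]
  obtain ⟨M, hM⟩ := H281.exists_orthonormal h2 _ (fun i => D * dd K n i) hd0
    (by rw [hprod]; exact ⟨1, by ring⟩) rfl
  refine ⟨RM K n * M, D, hDD, ?_⟩
  have h3 : diagonal (fun i => D * dd K n i) = D • diagonal (dd K n) := by
    rw [← diagonal_smul]; rfl
  rw [h3, ← RM_diag h2 hno] at hM
  have h4 : D • ((RM K n * M)ᵀ * JJ n K * (RM K n * M)) = 1 := by
    rw [← hM, transpose_mul, Matrix.mul_smul, Matrix.smul_mul]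
    simp only [Matrix.mul_assoc]
  calc (RM K n * M)ᵀ * JJ n K * (RM K n * M)
      = (D * D) • ((RM K n * M)ᵀ * JJ n K * (RM K n * M)) := by rw [hDD, one_smul]
    _ = D • 1 := by rw [mul_smul, h4]

variable [StarRing K]

/-- (I5' a) -/
theorem pgu_equiv (hs : ∀ x : K, star x = x) (h2 : (2 : K) ≠ 0) (hno : Odd n) :
    Nonempty (PGU K n ≃* GJ n (RingEquiv.refl K)) := by
  obtain ⟨P, D, hDD, hP⟩ := exists_congr (K := K) h2 hno
  have hD0 : D ≠ 0 := left_ne_zero_of_mul_eq_one hDD
  obtain ⟨Q, hQP⟩ : ∃ Q : Matrix (Fin n) (Fin n) K, Q * P = 1 :=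
    ⟨D • (Pᵀ * JJ n K), by rw [Matrix.smul_mul, hP, smul_smul, hDD, one_smul]⟩
  have hPQ : P * Q = 1 := mul_eq_one_comm.1 hQP
  have hT1 : Pᵀ * Qᵀ = 1 := by rw [← transpose_mul, hQP, transpose_one]
  have hT2 : Qᵀ * Pᵀ = 1 := by rw [← transpose_mul, hPQ, transpose_one]
  have hJ : Qᵀ * (D • (1 : Matrix (Fin n) (Fin n) K)) * Q = JJ n K := by
    rw [← hP]
    calc Qᵀ * (Pᵀ * JJ n K * P) * Q = (Qᵀ * Pᵀ) * JJ n K * (P * Q) := by
          simp only [Matrix.mul_assoc]
      _ = JJ n K := by rw [hT2, hPQ, Matrix.one_mul, Matrix.mul_one]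
  have hst : ∀ B : Matrix (Fin n) (Fin n) K, star B = Bᵀ := by
    intro B
    ext i j
    rw [Matrix.star_apply, hs]
    rfl
  have hmap : ∀ B : Matrix (Fin n) (Fin n) K, B.map (RingEquiv.refl K) = B := by
    intro B
    ext i j
    rfl
  have hA : ∀ A : GJ n (RingEquiv.refl K), (A.1.1)ᵀ * JJ n K * A.1.1 = JJ n K := by
    intro A
    have := A.2
    change ((A.1.1).map (RingEquiv.refl K))ᵀ * JJ n K * A.1.1 = JJ n K at this
    rwa [hmap] at this
  -- the orthogonal matrix
  have hmem : ∀ A : GJ n (RingEquiv.refl K), Q * A.1.1 * P ∈ Matrix.unitaryGroup (Fin n) K := by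
    intro A
    rw [mem_unitaryGroup_iff', hst]
    have h3 : D • ((Q * A.1.1 * P)ᵀ * (Q * A.1.1 * P)) = D • 1 := by
      calc D • ((Q * A.1.1 * P)ᵀ * (Q * A.1.1 * P))
          = Pᵀ * ((A.1.1)ᵀ * (Qᵀ * (D • (1 : Matrix (Fin n) (Fin n) K)) * Q) * A.1.1) * P := by
            rw [transpose_mul, transpose_mul]
            simp only [Matrix.mul_assoc, Matrix.mul_smul, Matrix.smul_mul, Matrix.one_mul]
        _ = D • 1 := by rw [hJ, hA, hP]
    exact smul_right_injective _ hD0 h3
  let g : GJ n (RingEquiv.refl K) →* GU K n := MonoidHom.mk' (fun A => ⟨Q * A.1.1 * P, hmem A⟩) (by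
    intro A B
    apply Subtype.ext
    show Q * (A.1.1 * B.1.1) * P = (Q * A.1.1 * P) * (Q * B.1.1 * P)
    calc Q * (A.1.1 * B.1.1) * P = Q * A.1.1 * (1 * B.1.1 * P) := by
          rw [Matrix.one_mul]; simp only [Matrix.mul_assoc]
      _ = Q * A.1.1 * ((P * Q) * B.1.1 * P) := by rw [hPQ]
      _ = _ := by simp only [Matrix.mul_assoc])
  have hg : ∀ A, (g A).1 = Q * A.1.1 * P := fun A => rfl
  have hz1 : (-1 : K) ≠ 1 := by
    intro h
    apply h2
    linear_combination -h
  have hz2 : (-1 : K) * star (-1) = 1 := by simp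
  let f : GJ n (RingEquiv.refl K) →* PGU K n := (QuotientGroup.mk' _).comp g
  have hf : Function.Bijective f := by
    constructor
    · rw [injective_iff_map_eq_one]
      intro A hA1
      have h3 : g A ∈ Subgroup.center (GU K n) := (QuotientGroup.eq_one_iff _).1 hA1
      obtain ⟨c, hc⟩ := (H296.mem_center_iff hz1 hz2 _).1 h3
      rw [hg] at hc
      have h4 : A.1.1 = c • (1 : Matrix (Fin n) (Fin n) K) := by
        calc A.1.1 = (P * Q) * A.1.1 * (P * Q) := by rw [hPQ, Matrix.one_mul, Matrix.mul_one]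
          _ = P * (Q * A.1.1 * P) * Q := by simp only [Matrix.mul_assoc]
          _ = c • 1 := by rw [hc, Matrix.mul_smul, Matrix.mul_one, Matrix.smul_mul, hPQ]
      have h5 : c ^ n = 1 := by
        have h6 := A.1.2
        rw [h4, det_smul, det_one, mul_one, Fintype.card_fin] at h6
        exact h6
      have h6 : c * c = 1 := by
        have h7 : g A * (g A)⁻¹ = 1 := mul_inv_cancel _
        have h8 := congrArg (fun x : GU K n => x.1) h7
        have h9 : (g A).1 * star (g A).1 = 1 := h8
        rw [hg, hc, star_smul, hs, star_one, smul_mul_smul_comm, Matrix.one_mul] at h9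
        obtain ⟨m, hm⟩ := hno
        have i0 : Fin n := ⟨0, by omega⟩
        have h10 := congrFun (congrFun h9 i0) i0
        rw [Matrix.smul_apply, one_apply_eq, smul_eq_mul, mul_one] at h10
        exact h10
      have h7 : c = 1 := by
        obtain ⟨m, hm⟩ := hno
        rw [hm] at h5
        have e1 : c ^ (2 * m + 1) = (c * c) ^ m * c := by ring
        rw [e1, h6, one_pow, one_mul] at h5
        exact h5
      apply Subtype.ext
      apply Subtype.ext
      rw [h4, h7, one_smul]
      rfl
    · intro y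
      obtain ⟨B, rfl⟩ := QuotientGroup.mk_surjective y
      have hB : (B.1)ᵀ * B.1 = 1 := by
        rw [← hst]
        exact (mem_unitaryGroup_iff').1 B.2
      set δ : K := B.1.det with hδ
      have hδδ : δ * δ = 1 := by
        have h3 := congrArg Matrix.det hB
        rw [det_mul, det_transpose, det_one] at h3
        exact h3
      have hdet : (P * (δ • B.1) * Q).det = 1 := by
        have h3 : P.det * Q.det = 1 := by rw [← det_mul, hPQ, det_one]
        have h4 : δ ^ n * δ = 1 := by
          obtain ⟨m, hm⟩ := hno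
          have h5 : ∀ x : K, x * x = 1 → x ^ n * x = 1 := by
            intro x hx
            rw [hm]
            calc x ^ (2 * m + 1) * x = (x * x) ^ (m + 1) := by ring
              _ = 1 := by rw [hx, one_pow]
          exact h5 δ hδδ
        rw [det_mul, det_mul, det_smul, Fintype.card_fin, ← hδ, h4, mul_one, h3]
      have hδB : (δ • B.1)ᵀ * (D • (1 : Matrix (Fin n) (Fin n) K)) * (δ • B.1) =
          D • ((δ * δ) • ((B.1)ᵀ * B.1)) := by
        rw [transpose_smul]
        simp only [Matrix.mul_smul, Matrix.smul_mul, Matrix.mul_one]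
        module
      have hJA : (P * (δ • B.1) * Q)ᵀ * JJ n K * (P * (δ • B.1) * Q) = JJ n K := by
        calc (P * (δ • B.1) * Q)ᵀ * JJ n K * (P * (δ • B.1) * Q)
            = Qᵀ * ((δ • B.1)ᵀ * (Pᵀ * JJ n K * P) * (δ • B.1)) * Q := by
              rw [transpose_mul, transpose_mul]; simp only [Matrix.mul_assoc]
          _ = Qᵀ * (D • ((δ * δ) • ((B.1)ᵀ * B.1))) * Q := by
              rw [hP, hδB]
          _ = JJ n K := by rw [hδδ, one_smul, hB, hJ]
      have hmemA : ((P * (δ • B.1) * Q).map (RingEquiv.refl K))ᵀ * JJ n K * (P * (δ • B.1) * Q) =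
          JJ n K := by rw [hmap]; exact hJA
      refine ⟨⟨⟨P * (δ • B.1) * Q, hdet⟩, hmemA⟩, ?_⟩
      show (QuotientGroup.mk (g ⟨⟨P * (δ • B.1) * Q, hdet⟩, hmemA⟩) : PGU K n) = QuotientGroup.mk B
      rw [QuotientGroup.eq, H296.mem_center_iff hz1 hz2]
      refine ⟨δ, ?_⟩
      have h3 : (g ⟨⟨P * (δ • B.1) * Q, hdet⟩, hmemA⟩).1 = δ • B.1 := by
        rw [hg]
        show Q * (P * (δ • B.1) * Q) * P = δ • B.1
        calc Q * (P * (δ • B.1) * Q) * P = (Q * P) * (δ • B.1) * (Q * P) := by
              simp only [Matrix.mul_assoc]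
          _ = _ := by rw [hQP, Matrix.one_mul, Matrix.mul_one]
      show star (g ⟨⟨P * (δ • B.1) * Q, hdet⟩, hmemA⟩).1 * B.1 = δ • 1
      rw [h3, hst, transpose_smul, Matrix.smul_mul, hB]
  exact ⟨(MulEquiv.ofBijective f hf).symm⟩

end

end Vale.Agent.P240.R2.H613.I5
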