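import Vale.Agent.P240.R2.H401.DDefs

/-!
(DT): the frames over the quadratic extension are the images of the standard frame (P240, even
orthogonal groups, nonsquare discriminant).
-/

set_option autoImplicit false
set_option linter.all false

namespace Vale.Agent.P240.R2.H613.DT

open Matrix Vale.Agent.P240.R2.AS Vale.Agent.P240.R2.H38
open Vale.Agent.P240.R2.H145.EO (B ac OD)
open Vale.Agent.P240.R2.H401.D
open scoped Classical

universe u

noncomputable section

variable {K : Type u} [Field K] {K' : Type u} [Field K'] {m : ℕ} {j : K →+* K'} {d : K} {δ : K'}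

/-- the scaling -/
def dl (m : ℕ) (δ : K') (i : Fin (m + 1)) : K' := if i = Fin.last m then δ else 1

/-- the inverse scaling -/
def dl' (m : ℕ) (δ : K') (i : Fin (m + 1)) : K' := if i = Fin.last m then δ⁻¹ else 1

lemma dl_mul (h : δ ≠ 0) (i : Fin (m + 1)) : dl m δ i * dl' m δ i = 1 := by
  unfold dl dl'
  split_ifs
  · exact mul_inv_cancel₀ h
  · exact one_mul 1

lemma dl_sq (h : δ ^ 2 = j d) (i : Fin (m + 1)) : dl m δ i * dl m δ i = j (fd m d i) := by
  unfold dl fd
  split_ifs
  · rw [← pow_two, h]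
  · rw [map_one, one_mul]

lemma vd_apply (y : Fin (m + 1) → K) (i : Fin (m + 1)) : vd j δ y i = dl m δ i * j (y i) := by
  unfold vd dl
  split_ifs
  · rfl
  · rw [one_mul]

lemma vd_dot (h : δ ^ 2 = j d) (x y : Fin (m + 1) → K) :
    vd j δ x ⬝ᵥ vd j δ y = j (B (fd m d) x y) := by
  unfold B dotProduct
  rw [map_sum]
  refine Finset.sum_congr rfl fun i _ => ?_
  rw [vd_apply, vd_apply, map_mul, map_mul, ← dl_sq h]
  ring

/-- the matrix in the coordinates of `K'` -/
def mm (j : K →+* K') (δ : K') (A : Matrix (Fin (m + 1)) (Fin (m + 1)) K) :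
    Matrix (Fin (m + 1)) (Fin (m + 1)) K' :=
  Matrix.of fun i k => dl m δ i * j (A i k) * dl' m δ k

lemma mm_eq (A : Matrix (Fin (m + 1)) (Fin (m + 1)) K) :
    mm j δ A = diagonal (dl m δ) * A.map j * diagonal (dl' m δ) := by
  ext i k
  rw [mul_diagonal, diagonal_mul]
  rfl

lemma mm_mul (h : δ ≠ 0) (A C : Matrix (Fin (m + 1)) (Fin (m + 1)) K) :
    mm j δ (A * C) = mm j δ A * mm j δ C := by
  have h1 : diagonal (dl' m δ) * diagonal (dl m δ) = 1 := by
    rw [diagonal_mul_diagonal, ← diagonal_one]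
    congr 1
    funext i
    rw [mul_comm, dl_mul h]
  have h2 : (A * C).map j = A.map j * C.map j := Matrix.map_mul
  rw [mm_eq, mm_eq, mm_eq, h2]
  calc diagonal (dl m δ) * (A.map j * C.map j) * diagonal (dl' m δ)
      = diagonal (dl m δ) * A.map j * (1 * (C.map j * diagonal (dl' m δ))) := by
        rw [one_mul]; simp only [mul_assoc]
    _ = diagonal (dl m δ) * A.map j * ((diagonal (dl' m δ) * diagonal (dl m δ)) *
          (C.map j * diagonal (dl' m δ))) := by rw [h1]
    _ = _ := by simp only [mul_assoc]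

lemma mm_one (h : δ ≠ 0) : mm j δ (1 : Matrix (Fin (m + 1)) (Fin (m + 1)) K) = 1 := by
  rw [mm_eq, Matrix.map_one j (map_zero j) (map_one j), mul_one, diagonal_mul_diagonal,
    ← diagonal_one]
  congr 1
  funext i
  exact dl_mul h i

/-- the columns -/
lemma mm_col (A : Matrix (Fin (m + 1)) (Fin (m + 1)) K) (k : Fin (m + 1)) :
    (fun i => mm j δ A i k) = dl' m δ k • vd j δ (fun i => A i k) := by
  funext i
  rw [Pi.smul_apply, smul_eq_mul, vd_apply]
  show dl m δ i * j (A i k) * dl' m δ k = _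
  ring

lemma B_eq (a : Fin (m + 1) → K) (x y : Fin (m + 1) → K) : B a x y = x ⬝ᵥ (diagonal a *ᵥ y) := by
  unfold B dotProduct
  refine Finset.sum_congr rfl fun i _ => ?_
  rw [mulVec_diagonal]
  ring

section
variable [Fintype K'] [StarRing K']

lemma star_mat (hst : ∀ x : K', star x = x) (A : Matrix (Fin (m + 1)) (Fin (m + 1)) K') :
    star A = Aᵀ := by
  ext i k
  rw [Matrix.star_apply, hst]
  rfl

lemma mm_mem (hst : ∀ x : K', star x = x) (h : δ ^ 2 = j d) (h0 : δ ≠ 0)
    {g : GL (Fin (m + 1)) K} (hg : g ∈ OD (fd m d)) :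
    mm j δ g.1 ∈ Matrix.unitaryGroup (Fin (m + 1)) K' := by
  rw [mem_unitaryGroup_iff', star_mat hst]
  ext i k
  rw [mul_apply]
  have h1 : ∑ l, (mm j δ g.1)ᵀ i l * mm j δ g.1 l k =
      (fun l => mm j δ g.1 l i) ⬝ᵥ (fun l => mm j δ g.1 l k) := rfl
  rw [h1, mm_col, mm_col, smul_dotProduct, dotProduct_smul, vd_dot h]
  have h2 : B (fd m d) (fun l => g.1 l i) (fun l => g.1 l k) =
      B (fd m d) (Pi.single i 1) (Pi.single k 1) := by
    rw [← hg (Pi.single i 1) (Pi.single k 1)]
    unfold ac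
    rw [mulVec_single_one, mulVec_single_one]
    rfl
  rw [h2, H145.EO.B_single, mul_one]
  by_cases hik : i = k
  · subst hik
    rw [Pi.single_eq_same, mul_one, one_apply_eq, ← dl_sq h, smul_eq_mul, smul_eq_mul]
    have := dl_mul (m := m) h0 i
    linear_combination (dl' m δ i * dl m δ i + 1) * this
  · rw [Pi.single_eq_of_ne hik, mul_zero, map_zero, smul_zero, smul_zero, one_apply_ne hik]

/-- the homomorphism -/
def phi (hst : ∀ x : K', star x = x) (h : δ ^ 2 = j d) (h0 : δ ≠ 0) :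
    ↥(OD (fd m d)) →* GU K' (m + 1) :=
  MonoidHom.mk' (fun g => ⟨mm j δ g.1.1, mm_mem hst h h0 g.2⟩) (by
    intro g g'
    apply Subtype.ext
    exact mm_mul h0 g.1.1 g'.1.1)

lemma phi_coe (hst : ∀ x : K', star x = x) (h : δ ^ 2 = j d) (h0 : δ ≠ 0) (g : ↥(OD (fd m d))) :
    (phi hst h h0 g).1 = mm j δ g.1.1 := rfl

lemma phi_inj (hst : ∀ x : K', star x = x) (h : δ ^ 2 = j d) (h0 : δ ≠ 0) :
    Function.Injective (phi (m := m) hst h h0) := by
  intro g g' hgg
  have h1 : mm j δ g.1.1 = mm j δ g'.1.1 := congrArg Subtype.val hgg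
  apply Subtype.ext
  apply Units.ext
  ext i k
  have h2 := congrFun (congrFun h1 i) k
  have h3 : dl m δ i * j (g.1.1 i k) * dl' m δ k = dl m δ i * j (g'.1.1 i k) * dl' m δ k := h2
  have h4 : dl m δ i ≠ 0 := left_ne_zero_of_mul_eq_one (dl_mul h0 i)
  have h5 : dl' m δ k ≠ 0 := right_ne_zero_of_mul_eq_one (dl_mul h0 k)
  exact j.injective (mul_left_cancel₀ h4 (mul_right_cancel₀ h5 h3))

omit [Fintype K'] in
lemma orth_comm (P Q : Ln K' (m + 1)) (h : P.1 * Q.1 = 0) : Q.1 * P.1 = 0 := by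
  have h1 : ∀ P : Ln K' (m + 1), star P.1 = P.1 := by
    intro P
    obtain ⟨x, _, hx⟩ := P.2
    rw [hx, star_eq_conjTranspose, conjTranspose_vecMulVec, star_star]
  have h2 := congrArg star h
  rw [star_mul, star_zero, h1, h1] at h2
  exact h2

omit [Fintype K'] [StarRing K'] in
lemma B_zero (h : δ ^ 2 = j d) {x y : Fin (m + 1) → K} (hx : B (fd m d) x x ≠ 0)
    (hy : B (fd m d) y y ≠ 0) {b c : K'} (hb : b ≠ 0) (hc : c ≠ 0)
    (hxy : (b • vecMulVec (vd j δ x) (vd j δ x)) * (c • vecMulVec (vd j δ y) (vd j δ y)) = 0) :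
    B (fd m d) x y = 0 := by
  rw [smul_mul_smul_comm, vecMulVec_mul_vecMulVec] at hxy
  have h1 := (smul_eq_zero.1 hxy).resolve_left (mul_ne_zero hb hc)
  have h2 := congrArg (fun A : Matrix (Fin (m + 1)) (Fin (m + 1)) K' =>
    vd j δ x ⬝ᵥ (A *ᵥ vd j δ y)) h1
  simp only [vecMulVec_mulVec, zero_mulVec, dotProduct_zero, vd_dot h, smul_dotProduct,
    dotProduct_smul] at h2
  have hx' : j (B (fd m d) x x) ≠ 0 := (map_ne_zero j).2 hx
  have hy' : j (B (fd m d) y y) ≠ 0 := (map_ne_zero j).2 hy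
  have h3 : j (B (fd m d) x y) = 0 := by
    simp only [MulOpposite.smul_eq_mul_unop, MulOpposite.unop_op, smul_eq_mul, mul_eq_zero] at h2
    tauto
  exact (map_eq_zero j).1 h3

end

/-- an orthogonal basis with values `1, .., 1, d` gives an isometry -/
theorem exists_iso (hd : d ≠ 0) (y : Fin (m + 1) → Fin (m + 1) → K)
    (hy : ∀ i k, B (fd m d) (y i) (y k) = if i = k then fd m d i else 0) :
    ∃ u : ↥(OD (fd m d)), ∀ i k, u.1.1 i k = y k i := by
  set U : Matrix (Fin (m + 1)) (Fin (m + 1)) K := Matrix.of fun i k => y k i with hU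
  have h1 : Uᵀ * diagonal (fd m d) * U = diagonal (fd m d) := by
    ext i k
    rw [mul_assoc, mul_apply]
    have h2 : ∑ l, Uᵀ i l * (diagonal (fd m d) * U) l k = B (fd m d) (y i) (y k) := by
      unfold B
      refine Finset.sum_congr rfl fun l _ => ?_
      rw [diagonal_mul]
      show y i l * (fd m d l * y k l) = _
      ring
    rw [h2, hy, diagonal_apply]
  have h0 : ∀ i, fd m d i ≠ 0 := by
    intro i
    unfold fd
    split_ifs
    · exact hd
    · exact one_ne_zero
  have h3 : (diagonal (fun i => (fd m d i)⁻¹) * Uᵀ * diagonal (fd m d)) * U = 1 := by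
    rw [mul_assoc, mul_assoc, ← mul_assoc Uᵀ, h1, diagonal_mul_diagonal, ← diagonal_one]
    congr 1
    funext i
    exact inv_mul_cancel₀ (h0 i)
  refine ⟨⟨⟨U, _, mul_eq_one_comm.1 h3, h3⟩, ?_⟩, fun i k => rfl⟩
  intro x z
  show B (fd m d) (U *ᵥ x) (U *ᵥ z) = B (fd m d) x z
  have key : ∀ w, (U *ᵥ x) ⬝ᵥ w = x ⬝ᵥ (Uᵀ *ᵥ w) := by
    intro w
    rw [dotProduct_mulVec, vecMul_transpose]
  rw [B_eq, B_eq, key, mulVec_mulVec, mulVec_mulVec, h1]

/-- (DT) -/
theorem stmtDT : StmtDT.{u} := by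
  intro K _ _ m d hN K' _ _ _ j δ hst h
  have hd : d ≠ 0 := by
    rintro rfl
    exact hN.ns ⟨0, by ring⟩
  have hjd : j d ≠ 0 := (map_ne_zero j).2 hd
  have h0 : δ ≠ 0 := by
    rintro rfl
    apply hjd
    rw [← h]; ring
  refine ⟨phi hst h h0, phi_inj hst h h0, fun g i k => ?_, ?_⟩
  · rw [phi_coe]
    rfl
  intro w hw
  obtain ⟨hwF, v, P, v', rfl, hP, hQ⟩ := Finset.mem_filter.1 hw
  obtain ⟨hlen, horth⟩ := (mem_Fr K').1 hwF
  -- the list of the other letters
  have hlen' : (v ++ v').length = m := by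
    rw [List.length_append, List.length_cons] at hlen
    rw [List.length_append]
    omega
  obtain ⟨Q, hQl⟩ : ∃ Q : Fin m → Ln K' (m + 1), v ++ v' = List.ofFn Q := by
    refine ⟨fun i => (v ++ v').get ⟨i, by rw [hlen']; exact i.2⟩, ?_⟩
    apply List.ext_getElem
    · rw [List.length_ofFn, hlen']
    · intro i h1 h2
      simp
  have hor2 : (P :: List.ofFn Q).Pairwise (fun P Q => P.1 * Q.1 = 0) := by
    rw [← hQl]
    have hp : (v ++ P :: v').Perm (P :: (v ++ v')) := List.perm_middle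
    exact (hp.pairwise_iff (fun {x y} hxy => orth_comm x y hxy)).1 horth
  rw [List.pairwise_cons] at hor2
  obtain ⟨hor3, hor4⟩ := hor2
  rw [List.pairwise_ofFn] at hor4
  have hQ' : ∀ i, LS j d δ (Q i) := by
    intro i
    apply hQ
    rw [hQl]
    exact List.mem_ofFn.2 ⟨i, rfl⟩
  choose y hy1 hy2 using hQ'
  obtain ⟨yP, hyP1, hyP2⟩ := hP
  -- the basis
  set Y : Fin (m + 1) → Fin (m + 1) → K := Fin.snoc (α := fun _ => Fin (m + 1) → K) y yP with hY
  have hYc : ∀ i : Fin m, Y i.castSucc = y i := fun i => Fin.snoc_castSucc _ _ _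
  have hYl : Y (Fin.last m) = yP := Fin.snoc_last _ _
  have hz : ∀ {x z : Fin (m + 1) → K} {b c : K'}, B (fd m d) x x ≠ 0 → B (fd m d) z z ≠ 0 →
      b ≠ 0 → c ≠ 0 → ∀ {R S : Ln K' (m + 1)}, R.1 = b • vecMulVec (vd j δ x) (vd j δ x) →
      S.1 = c • vecMulVec (vd j δ z) (vd j δ z) → R.1 * S.1 = 0 → B (fd m d) x z = 0 := by
    intro x z b c e1 e2 e3 e4 R S e5 e6 e7
    rw [e5, e6] at e7
    exact B_zero h e1 e2 e3 e4 e7
  have hne1 : ∀ i, B (fd m d) (y i) (y i) ≠ 0 := fun i => by rw [hy1]; exact one_ne_zero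
  have hneP : B (fd m d) yP yP ≠ 0 := by rw [hyP1]; exact hd
  have hlt : ∀ i k : Fin m, i < k → B (fd m d) (y i) (y k) = 0 := by
    intro i k hik
    refine hz (hne1 i) (hne1 k) (one_ne_zero (α := K')) (one_ne_zero (α := K')) (R := Q i)
      (S := Q k) ?_ ?_ (hor4 hik)
    · rw [one_smul, hy2]
    · rw [one_smul, hy2]
  have hPk : ∀ k : Fin m, B (fd m d) yP (y k) = 0 := by
    intro k
    refine hz hneP (hne1 k) (inv_ne_zero hjd) (one_ne_zero (α := K')) (R := P) (S := Q k) hyP2 ?_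
      (hor3 _ (List.mem_ofFn.2 ⟨k, rfl⟩))
    rw [one_smul, hy2]
  have hfc : ∀ i : Fin m, fd m d i.castSucc = 1 := by
    intro i
    unfold fd
    rw [if_neg (Fin.castSucc_lt_last i).ne]
  have hfl : fd m d (Fin.last m) = d := by
    unfold fd
    rw [if_pos rfl]
  obtain ⟨u, hu⟩ := exists_iso hd Y (by
    intro i k
    induction i using Fin.lastCases with
    | last =>
      induction k using Fin.lastCases with
      | last => rw [hYl, hyP1, if_pos rfl, hfl]
      | cast k => rw [hYl, hYc, hPk, if_neg (Fin.castSucc_lt_last k).ne']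
    | cast i =>
      induction k using Fin.lastCases with
      | last => rw [hYl, hYc, H145.EO.B_comm, hPk, if_neg (Fin.castSucc_lt_last i).ne]
      | cast k =>
        rw [hYc, hYc]
        rcases lt_trichotomy i k with hik | hik | hik
        · rw [hlt i k hik, if_neg (fun h => hik.ne (Fin.castSucc_injective m h))]
        · subst hik
          rw [hy1, if_pos rfl, hfc]
        · rw [H145.EO.B_comm, hlt k i hik, if_neg (fun h => hik.ne' (Fin.castSucc_injective m h))])
  -- the action on the standard letters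
  have hE : ∀ i : Fin (m + 1), (lnU (phi hst h h0 u) (E1 i)).1 =
      (dl' m δ i * dl' m δ i) • vecMulVec (vd j δ (Y i)) (vd j δ (Y i)) := by
    intro i
    have h1 : mm j δ u.1.1 *ᵥ Pi.single i 1 = dl' m δ i • vd j δ (Y i) := by
      rw [mulVec_single_one]
      have h2 := mm_col (j := j) (δ := δ) u.1.1 i
      have h3 : (fun l => u.1.1 l i) = Y i := by
        funext l
        exact hu l i
      rw [h3] at h2
      exact h2
    have hsv : ∀ x : Fin (m + 1) → K', star x = x := fun x => funext fun i => hst _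
    rw [lnU_coe, phi_coe, E1_coe, ← vec_e1, mul_vecMulVec, vecMulVec_mul, star_eq_conjTranspose,
      ← star_mulVec, h1, hsv, smul_vecMulVec, vecMulVec_smul, smul_smul]
  have hEP : lnU (phi hst h h0 u) (E1 (Fin.last m)) = P := by
    apply Subtype.ext
    rw [hE, hYl, hyP2]
    congr 1
    unfold dl'
    rw [if_pos rfl, ← h, pow_two, mul_inv]
  have hEQ : ∀ i : Fin m, lnU (phi hst h h0 u) (E1 i.castSucc) = Q i := by
    intro i
    apply Subtype.ext
    rw [hE, hYc, hy2]
    unfold dl'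
    rw [if_neg (Fin.castSucc_lt_last i).ne, one_mul, one_smul]
  set std : List (Ln K' (m + 1)) := List.ofFn (fun i : Fin m => E1 i.castSucc) with hstd
  have hmap : std.map (lnU (phi hst h h0 u)) = v ++ v' := by
    rw [hstd, List.map_ofFn, hQl]
    congr 1
    funext i
    exact hEQ i
  refine ⟨u, std.take v.length ++ E1 (Fin.last m) :: std.drop v.length, ?_, ?_⟩
  · have h1 : (std.take v.length ++ E1 (Fin.last m) :: std.drop v.length).Perm
        (E1 (Fin.last m) :: (std.take v.length ++ std.drop v.length)) := List.perm_middle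
    rw [List.take_append_drop] at h1
    refine h1.trans ?_
    have h2 : w0 K' (m + 1) = std ++ [E1 (Fin.last m)] := by
      rw [w0, List.ofFn_succ', List.concat_eq_append]
    rw [h2]
    exact (List.perm_append_singleton _ _).symm
  · rw [List.map_append, List.map_cons, List.map_take, List.map_drop, hmap, hEP,
      List.take_left' rfl, List.drop_left' rfl]

end

end Vale.Agent.P240.R2.H613.DT
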