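import Vale.Agent.P240.R2.H613.I1a
import Vale.Agent.P240.R2.H296.Cen
import Vale.Agent.P240.R2.H472.Nrm
import Vale.Agent.P240.R2.H986.A5c

/-!
The projective special unitary group for the standard form and for the antidiagonal form `JJ` are
isomorphic (P240, module I1).
-/

set_option autoImplicit false

namespace Vale.Agent.P240.R2.H613.I1

open Matrix Finset
open Vale.Agent.P240.R2.H487.CG
open Vale.Agent.P240.R2.AS

universe u

section

variable {K : Type u} [Field K] [StarRing K] {n : ℕ}

/-- the diagonal coefficients -/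
def ca (c' s x : K) (p : Fin n → K) (j : Fin n) : K :=
  if j < Fin.rev j then 1 else if Fin.rev j < j then
    (c' * (-1) ^ (Fin.rev j).val / (1 - x)) * (s * x) else p j

/-- the antidiagonal coefficients -/
def cb (c' x s : K) (j : Fin n) : K :=
  if j < Fin.rev j then s else if Fin.rev j < j then c' * (-1) ^ (Fin.rev j).val / (1 - x) else 0

/-- the matrix with two coefficients in each column -/
def PM (a b : Fin n → K) : Matrix (Fin n) (Fin n) K :=
  Matrix.of fun i j => (if i = j then a j else 0) + (if i = Fin.rev j then b j else 0)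

lemma PM_mul (a b : Fin n → K) (i j : Fin n) : ((PM a b)ᴴ * PM a b) i j =
    (if i = j then star (a i) * a i + star (b i) * b i else 0) +
    (if j = Fin.rev i then star (a i) * b j + star (b i) * a j else 0) := by
  rw [Matrix.mul_apply]
  have h1 : ∀ k, (PM a b)ᴴ i k * PM a b k j =
      (if k = i then star (a i) * ((if k = j then a j else 0) + (if k = Fin.rev j then b j else 0))
        else 0) +
      (if k = Fin.rev i then star (b i) *
        ((if k = j then a j else 0) + (if k = Fin.rev j then b j else 0)) else 0) := by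
    intro k
    rw [Matrix.conjTranspose_apply]
    simp only [PM, Matrix.of_apply, star_add]
    by_cases h2 : k = i <;> by_cases h3 : k = Fin.rev i
    · rw [if_pos h2, if_pos h3, if_pos h2, if_pos h3, add_mul]
    · rw [if_pos h2, if_neg h3, if_pos h2, if_neg h3, star_zero]
      ring
    · rw [if_neg h2, if_pos h3, if_neg h2, if_pos h3, star_zero]
      ring
    · rw [if_neg h2, if_neg h3, if_neg h2, if_neg h3, star_zero]
      ring
  rw [Finset.sum_congr rfl (fun k _ => h1 k), Finset.sum_add_distrib, Finset.sum_ite_eq',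
    Finset.sum_ite_eq', if_pos (Finset.mem_univ _), if_pos (Finset.mem_univ _)]
  have e1 : (Fin.rev i = Fin.rev j) ↔ (i = j) := Fin.rev_inj
  have e2 : (i = Fin.rev j) ↔ (j = Fin.rev i) :=
    ⟨fun h => by rw [h, Fin.rev_rev], fun h => by rw [h, Fin.rev_rev]⟩
  have e3 : (Fin.rev i = j) ↔ (j = Fin.rev i) := ⟨Eq.symm, Eq.symm⟩
  simp only [e1, e2, e3]
  by_cases h2 : i = j
  · subst h2
    by_cases h3 : i = Fin.rev i
    · simp only [if_true, if_pos h3]
      ring
    · simp only [if_true, if_neg h3]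
      ring
  · rw [if_neg h2]
    by_cases h3 : j = Fin.rev i
    · simp only [if_pos h3, if_neg h2]
      ring
    · simp only [if_neg h3, if_neg h2]
      ring

/-- the form is congruent to a multiple of the antidiagonal form -/
theorem exists_P {c' s x : K} (hc' : star c' = ep n K * c') (hs : star s * s = -1)
    (hx : star x * x = 1) (hx1 : x ≠ 1) (p : Fin n → K)
    (hp : ∀ i, Fin.rev i = i → star (p i) * p i = c' * (-1) ^ i.val) :
    ∃ P : Matrix (Fin n) (Fin n) K, Pᴴ * P = c' • JJ n K := by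
  have hx2 : (1 : K) - x ≠ 0 := sub_ne_zero.2 (Ne.symm hx1)
  have hx3 : (1 : K) - star x ≠ 0 := by
    intro h
    apply hx1
    have h1 : star x = 1 := (sub_eq_zero.1 h).symm
    rw [← star_star x, h1, star_one]
  refine ⟨PM (ca c' s x p) (cb c' x s), ?_⟩
  ext i j
  rw [PM_mul, Matrix.smul_apply, JJ_apply, smul_eq_mul]
  have hq : ∀ k : ℕ, star ((-1 : K) ^ k) = (-1) ^ k := star_sg
  rcases lt_trichotomy i (Fin.rev i) with h | h | h
  · -- `i < rev i`
    have hr : Fin.rev (Fin.rev i) = i := Fin.rev_rev i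
    have ha : ca c' s x p i = 1 := by unfold ca; rw [if_pos h]
    have hb : cb c' x s i = s := by unfold cb; rw [if_pos h]
    have ha' : ca c' s x p (Fin.rev i) = (c' * (-1) ^ i.val / (1 - x)) * (s * x) := by
      unfold ca; rw [hr, if_neg (not_lt.2 h.le), if_pos h]
    have hb' : cb c' x s (Fin.rev i) = c' * (-1) ^ i.val / (1 - x) := by
      unfold cb; rw [hr, if_neg (not_lt.2 h.le), if_pos h]
    have e1 : star (ca c' s x p i) * ca c' s x p i + star (cb c' x s i) * cb c' x s i = 0 := by
      rw [ha, hb, star_one, hs]; ring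
    rw [e1]
    by_cases h3 : j = Fin.rev i
    · subst h3
      rw [if_pos rfl, if_pos rfl, ha, hb, ha', hb', star_one, ite_self, zero_add]
      have e2 : 1 * (c' * (-1) ^ i.val / (1 - x)) + star s * (c' * (-1) ^ i.val / (1 - x) * (s * x))
          = (c' * (-1) ^ i.val / (1 - x)) * (1 + (star s * s) * x) := by ring
      rw [e2, hs]
      have e3 : (1 : K) + -1 * x = 1 - x := by ring
      rw [e3, div_mul_cancel₀ _ hx2]
    · rw [if_neg h3, if_neg h3, ite_self, mul_zero, add_zero]
  · -- the middle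
    have ha : ca c' s x p i = p i := by
      unfold ca; rw [if_neg (fun h1 => absurd h (ne_of_lt h1)),
        if_neg (fun h1 => absurd h.symm (ne_of_lt h1))]
    have hb : cb c' x s i = 0 := by
      unfold cb; rw [if_neg (fun h1 => absurd h (ne_of_lt h1)),
        if_neg (fun h1 => absurd h.symm (ne_of_lt h1))]
    by_cases h3 : j = Fin.rev i
    · have h4 : i = j := h.trans h3.symm
      subst h4
      rw [if_pos rfl, if_pos h3, if_pos h3, ha, hb, hp i h.symm, star_zero]
      ring
    · have h4 : i ≠ j := fun h5 => h3 (h5.symm.trans h)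
      rw [if_neg h3, if_neg h3, if_neg h4, mul_zero, add_zero]
  · -- `rev i < i`
    have hr : Fin.rev (Fin.rev i) = i := Fin.rev_rev i
    have ha : ca c' s x p i = (c' * (-1) ^ (Fin.rev i).val / (1 - x)) * (s * x) := by
      unfold ca; rw [if_neg (not_lt.2 h.le), if_pos h]
    have hb : cb c' x s i = c' * (-1) ^ (Fin.rev i).val / (1 - x) := by
      unfold cb; rw [if_neg (not_lt.2 h.le), if_pos h]
    have ha' : ca c' s x p (Fin.rev i) = 1 := by
      unfold ca; rw [hr, if_pos h]
    have hb' : cb c' x s (Fin.rev i) = s := by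
      unfold cb; rw [hr, if_pos h]
    set B : K := c' * (-1) ^ (Fin.rev i).val / (1 - x) with hB
    have e1 : star (ca c' s x p i) * ca c' s x p i + star (cb c' x s i) * cb c' x s i = 0 := by
      rw [ha, hb, star_mul', star_mul']
      linear_combination (star B * B) * (star x * x) * hs - (star B * B) * hx
    rw [e1]
    by_cases h3 : j = Fin.rev i
    · subst h3
      rw [if_pos rfl, if_pos rfl, ha, hb, ha', hb', ite_self, zero_add, star_mul', star_mul']
      have e2 : star B * (1 - star x) = c' * (-1) ^ i.val := by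
        have h5 : B * (1 - x) = c' * (-1) ^ (Fin.rev i).val := div_mul_cancel₀ _ hx2
        have h6 := congrArg star h5
        rw [star_mul', star_mul', star_sub, star_one, hq, hc', sg_rev] at h6
        rw [h6]
        linear_combination (c' * (-1) ^ i.val) * ep_sq (n := n) (K := K)
      linear_combination e2 + (star B * star x) * hs
    · rw [if_neg h3, if_neg h3, ite_self, mul_zero, add_zero]

end

section fin

variable {K : Type u} [Field K] [Fintype K] [StarRing K] {q n : ℕ}

/-- the data -/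
theorem exists_data (hK : Fintype.card K = q ^ 2) (hs : ∀ x : K, star x = x ^ q) :
    ∃ (c c' : K) (P : Matrix (Fin n) (Fin n) K), c ≠ 0 ∧ c' ≠ 0 ∧ c + ep n K * star c = 0 ∧
      (∃ b : K, b + star b = 1) ∧ Pᴴ * P = c' • JJ n K := by
  have hq : 2 ≤ q := H472.one_lt hK
  obtain ⟨a, ha⟩ := H986.A5.exists_star_ne hq (by rw [Nat.card_eq_fintype_card]; exact hK) hs
  have ha0 : a ≠ 0 := by
    rintro rfl
    exact ha (star_zero K)
  have hsa0 : star a ≠ 0 := by
    intro h
    apply ha0
    rw [← star_star a, h, star_zero]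
  have htr : ∃ b : K, b + star b = 1 := by
    by_cases h1 : ∃ y : K, y + star y ≠ 0
    · obtain ⟨y, hy⟩ := h1
      have h2 : star (y + star y) = y + star y := by rw [star_add, star_star, add_comm]
      refine ⟨y / (y + star y), ?_⟩
      rw [star_div₀, h2, ← add_div, div_self hy]
    · push Not at h1
      exfalso
      have h2 := h1 1
      rw [star_one] at h2
      have h3 := h1 a
      apply ha
      linear_combination h3 - a * h2
  set d : K := a - star a with hd
  have hd0 : d ≠ 0 := sub_ne_zero.2 (Ne.symm ha)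
  have hsd : star d = -d := by rw [hd, star_sub, star_star]; ring
  obtain ⟨s, hs1⟩ := H472.exists_norm hK hs (c := (-1 : K)) (neg_ne_zero.2 one_ne_zero)
    (by rw [star_neg, star_one])
  set x : K := star a / a with hx
  have hx1 : star x * x = 1 := by
    rw [hx, star_div₀, star_star]
    field_simp
  have hx2 : x ≠ 1 := by
    intro h
    exact ha ((div_eq_one_iff_eq ha0).1 h)
  have hep2 := ep_sq (n := n) (K := K)
  have hep : ep n K = 1 ∨ ep n K = -1 := by
    have : (ep n K - 1) * (ep n K + 1) = 0 := by linear_combination hep2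
    rcases mul_eq_zero.1 this with h | h
    · exact Or.inl (sub_eq_zero.1 h)
    · exact Or.inr (eq_neg_of_add_eq_zero_left h)
  by_cases h1 : ep n K = 1
  · have hp : ∀ i : Fin n, ∃ p : K, star p * p = (-1) ^ i.val := fun i =>
      H472.exists_norm hK hs (sg_ne _) (star_sg _)
    choose p hp using hp
    obtain ⟨P, hP⟩ := exists_P (n := n) (c' := (1 : K)) (s := s) (x := x)
      (by rw [h1, star_one, mul_one]) hs1 hx1 hx2 p (fun i _ => by rw [hp i, one_mul])
    exact ⟨d, 1, P, hd0, one_ne_zero, by rw [h1, hsd]; ring, htr, hP⟩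
  · have h2 : ep n K = -1 := hep.resolve_left h1
    obtain ⟨P, hP⟩ := exists_P (n := n) (c' := d) (s := s) (x := x)
      (by rw [h2, hsd]; ring) hs1 hx1 hx2 (fun _ => 1) (fun i hi => by
        exfalso
        apply h1
        have h3 := sg_rev (K := K) i
        rw [hi] at h3
        apply mul_right_cancel₀ (sg_ne (K := K) i.val)
        rw [← h3, one_mul])
    exact ⟨1, d, P, one_ne_zero, hd0, by rw [h2, star_one]; ring, htr, hP⟩

omit [Fintype K] [StarRing K] in
lemma JJ_mul_transpose : JJ n K * (JJ n K)ᵀ = 1 := by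
  ext i j
  rw [Matrix.mul_apply, Finset.sum_eq_single (Fin.rev i)]
  · rw [Matrix.transpose_apply, JJ_apply, JJ_apply, if_pos rfl]
    by_cases h : i = j
    · subst h
      rw [if_pos rfl, one_apply_eq, ← pow_add, ← two_mul, pow_mul]
      simp
    · rw [if_neg (fun h1 => h (Fin.rev_injective h1)), one_apply_ne h, mul_zero]
  · intro k _ hk
    rw [JJ_apply, if_neg hk, zero_mul]
  · intro h; exact absurd (Finset.mem_univ _) h

omit [Fintype K] [StarRing K] in
lemma transpose_mul_JJ : (JJ n K)ᵀ * JJ n K = 1 := mul_eq_one_comm.1 JJ_mul_transpose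

/-- conjugation by `P` -/
theorem iso_aux {σ : K ≃+* K} (hσ : ∀ x, σ x = star x) {c' : K} (hc' : c' ≠ 0)
    {P : Matrix (Fin n) (Fin n) K} (hP : Pᴴ * P = c' • JJ n K) :
    ∃ (Q : Matrix (Fin n) (Fin n) K) (f : SU K n →* GJ n σ), Q * P = 1 ∧ P * Q = 1 ∧
      Function.Surjective f ∧ ∀ A, (f A).1.1 = Q * A.1.1 * P := by
  obtain ⟨Q, h1⟩ : ∃ Q : Matrix (Fin n) (Fin n) K, Q * P = 1 :=
    ⟨c'⁻¹ • ((JJ n K)ᵀ * Pᴴ), by
      rw [smul_mul_assoc, Matrix.mul_assoc, hP, mul_smul_comm, transpose_mul_JJ, smul_smul,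
        inv_mul_cancel₀ hc', one_smul]⟩
  have h2 : P * Q = 1 := mul_eq_one_comm.1 h1
  have hQP : Qᴴ * Pᴴ = 1 := by rw [← conjTranspose_mul, h2, conjTranspose_one]
  have hPQ : Pᴴ * Qᴴ = 1 := by rw [← conjTranspose_mul, h1, conjTranspose_one]
  have h3 : Qᴴ * (c' • JJ n K) * Q = 1 := by
    rw [← hP, ← Matrix.mul_assoc, hQP, Matrix.one_mul, h2]
  have hm : ∀ B : Matrix (Fin n) (Fin n) K, (B.map σ)ᵀ = Bᴴ := by
    intro B
    ext i j
    rw [Matrix.transpose_apply, Matrix.map_apply, hσ]
    rfl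
  -- membership
  have hmem : ∀ A : SU K n, ((Q * A.1.1 * P).map σ)ᵀ * JJ n K * (Q * A.1.1 * P) = JJ n K := by
    intro A
    have hA : (A.1.1)ᴴ * A.1.1 = 1 := (mem_unitaryGroup_iff').1 A.1.2
    rw [hm]
    have h4 : c' • ((Q * A.1.1 * P)ᴴ * JJ n K * (Q * A.1.1 * P)) = c' • JJ n K := by
      calc c' • ((Q * A.1.1 * P)ᴴ * JJ n K * (Q * A.1.1 * P))
          = Pᴴ * ((A.1.1)ᴴ * (Qᴴ * (c' • JJ n K) * Q) * A.1.1) * P := by
            rw [conjTranspose_mul, conjTranspose_mul]
            simp only [Matrix.mul_assoc, mul_smul_comm, smul_mul_assoc]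
        _ = c' • JJ n K := by rw [h3, Matrix.mul_one, hA, Matrix.mul_one, hP]
    exact smul_right_injective _ hc' h4
  have hdet : ∀ A : SU K n, (Q * A.1.1 * P).det = 1 := by
    intro A
    have hA : A.1.1.det = 1 := A.2
    rw [det_mul, det_mul, hA, mul_one, ← det_mul, h1, det_one]
  let f : SU K n →* GJ n σ := MonoidHom.mk' (fun A => ⟨⟨Q * A.1.1 * P, hdet A⟩, hmem A⟩) (by
    intro A B
    apply Subtype.ext
    apply Subtype.ext
    show Q * (A.1.1 * B.1.1) * P = (Q * A.1.1 * P) * (Q * B.1.1 * P)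
    calc Q * (A.1.1 * B.1.1) * P = Q * A.1.1 * (1 * B.1.1 * P) := by
          rw [Matrix.one_mul]; simp only [Matrix.mul_assoc]
      _ = Q * A.1.1 * ((P * Q) * B.1.1 * P) := by rw [h2]
      _ = _ := by simp only [Matrix.mul_assoc])
  refine ⟨Q, f, h1, h2, ?_, fun A => rfl⟩
  intro B
  have hB : (B.1.1)ᴴ * JJ n K * B.1.1 = JJ n K := by
    rw [← hm]
    exact B.2
  have hu : P * B.1.1 * Q ∈ Matrix.unitaryGroup (Fin n) K := by
    rw [mem_unitaryGroup_iff']
    show (P * B.1.1 * Q)ᴴ * (P * B.1.1 * Q) = 1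
    calc (P * B.1.1 * Q)ᴴ * (P * B.1.1 * Q)
        = Qᴴ * ((B.1.1)ᴴ * (Pᴴ * P) * B.1.1) * Q := by
          rw [conjTranspose_mul, conjTranspose_mul]; simp only [Matrix.mul_assoc]
      _ = Qᴴ * (c' • ((B.1.1)ᴴ * JJ n K * B.1.1)) * Q := by
          rw [hP, Matrix.mul_smul, Matrix.smul_mul]
      _ = 1 := by rw [hB, h3]
  have hd : (P * B.1.1 * Q).det = 1 := by
    rw [det_mul, det_mul, B.1.2, mul_one, ← det_mul, h2, det_one]
  refine ⟨⟨⟨P * B.1.1 * Q, hu⟩, hd⟩, ?_⟩
  apply Subtype.ext
  apply Subtype.ext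
  show Q * (P * B.1.1 * Q) * P = B.1.1
  calc Q * (P * B.1.1 * Q) * P = (Q * P) * B.1.1 * (Q * P) := by simp only [Matrix.mul_assoc]
    _ = B.1.1 := by rw [h1, Matrix.one_mul, Matrix.mul_one]

/-- (I1) -/
theorem psu_equiv (hK : Fintype.card K = q ^ 2) (hs : ∀ x : K, star x = x ^ q) {σ : K ≃+* K}
    (hσ : ∀ x, σ x = star x) : Nonempty (PSU K n ≃* PGJ n σ) := by
  have hq : 2 ≤ q := H472.one_lt hK
  have hK' : Nat.card K = q ^ 2 := by rw [Nat.card_eq_fintype_card]; exact hK
  obtain ⟨c, c', P, hc0, hc'0, hc, htr, hP⟩ := exists_data (n := n) hK hs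
  obtain ⟨Q, f, hQP, hPQ, hf, hfA⟩ := iso_aux hσ hc'0 hP
  obtain ⟨ζ, _, hz1, hz2⟩ := H296.exists_zeta hK' hs (Nat.minFac_prime (by omega : q + 1 ≠ 1))
    (Nat.minFac_dvd (q + 1))
  -- the two projections
  let f1 : SU K n →* PSU K n :=
    ((QuotientGroup.mk' (Subgroup.center (GU K n))).subgroupMap (SU K n))
  have hf1 : Function.Surjective f1 := MonoidHom.subgroupMap_surjective _ _
  let f2 : SU K n →* PGJ n σ := (QuotientGroup.mk' (Subgroup.center (GJ n σ))).comp f
  have hf2 : Function.Surjective f2 := (QuotientGroup.mk'_surjective _).comp hf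
  have hk1 : ∀ A : SU K n, A ∈ f1.ker ↔ ∃ a : K, A.1.1 = a • (1 : Matrix (Fin n) (Fin n) K) := by
    intro A
    rw [← H296.mem_center_iff hz1 hz2 A.1, MonoidHom.mem_ker]
    constructor
    · intro h
      have h1 := congrArg Subtype.val h
      exact (QuotientGroup.eq_one_iff _).1 h1
    · intro h
      apply Subtype.ext
      exact (QuotientGroup.eq_one_iff _).2 h
  have hk2 : ∀ A : SU K n, A ∈ f2.ker ↔ ∃ a : K, A.1.1 = a • (1 : Matrix (Fin n) (Fin n) K) := by
    intro A
    rw [MonoidHom.mem_ker]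
    have h0 : f2 A = 1 ↔ f A ∈ Subgroup.center (GJ n σ) := QuotientGroup.eq_one_iff _
    rw [h0]
    constructor
    · intro h
      obtain ⟨a, ha⟩ := center_scalar hσ hc hc0 htr h
      refine ⟨a, ?_⟩
      rw [hfA] at ha
      calc A.1.1 = (P * Q) * A.1.1 * (P * Q) := by rw [hPQ, Matrix.one_mul, Matrix.mul_one]
        _ = P * (Q * A.1.1 * P) * Q := by simp only [Matrix.mul_assoc]
        _ = a • 1 := by rw [ha, mul_smul_comm, Matrix.mul_one, smul_mul_assoc, hPQ]
    · rintro ⟨a, ha⟩
      rw [Subgroup.mem_center_iff]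
      intro B
      apply Subtype.ext
      apply Subtype.ext
      show B.1.1 * (f A).1.1 = (f A).1.1 * B.1.1
      rw [hfA, ha, mul_smul_comm, Matrix.mul_one, smul_mul_assoc, hQP, mul_smul_comm,
        Matrix.mul_one, smul_mul_assoc, Matrix.one_mul]
  have hker : f1.ker = f2.ker := by
    ext A
    rw [hk1, hk2]
  exact ⟨(QuotientGroup.quotientKerEquivOfSurjective f1 hf1).symm.trans
    ((QuotientGroup.quotientMulEquivOfEq hker).trans
      (QuotientGroup.quotientKerEquivOfSurjective f2 hf2))⟩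

end fin

end Vale.Agent.P240.R2.H613.I1
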