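import Vale.Agent.P240.R2.H613.A5
import Vale.Agent.P240.R2.H281.H90b
import Vale.Agent.P240.R2.H195.RelCyc
import Vale.Agent.P240.R2.H296.StmtsB

/-!
StmtB5: all involutions in the coset of the field automorphism of order `2` of `PΓU_n(q)` are
conjugate, `n` odd (P240, `p = 2`).
-/

set_option autoImplicit false

namespace Vale.Agent.P240.R2.H613

open Matrix Finset
open Vale.Agent.P240.R2.AS
open Vale.Agent.P240.R2.H986.A5 (hm hm_add_left hm_add_right hm_smul_left hm_smul_right hm_star
  hm_sum_left hm_sum_right sl sl_add sl_smul hm_sl it T sl_T exists_T_right exists_T_left hm_T it_eq)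

universe u

section

variable {K : Type u} [Field K] [StarRing K] {n : ℕ}

/-- a fixed anisotropic vector orthogonal to given fixed orthogonal vectors -/
lemma exists_fixed2 {σ : SA K} {g : GU K n} (hp : orderOf σ.1 = 2) (h2 : (2 : K) ≠ 0)
    (hst : ∀ y : K, σ.1 y = star y) (hit : ∀ v, it σ g 2 v = v)
    {k : ℕ} (hk : k < n) (b : Fin k → Fin n → K) (d : Fin k → K) (hd : ∀ i, d i ≠ 0)
    (hb : ∀ i, sl σ g (b i) = b i)
    (ho : ∀ i j, hm (b i) (b j) = if i = j then d i else 0) :
    ∃ z : Fin n → K, sl σ g z = z ∧ (∀ i, hm (b i) z = 0) ∧ hm z z ≠ 0 := by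
  classical
  have hp0 : 0 < 2 := by norm_num
  let f : (Fin n → K) →ₗ[K] (Fin k → K) :=
    { toFun := fun v i => hm (b i) v
      map_add' := by intro u v; ext i; exact hm_add_right _ _ _
      map_smul' := by intro a v; ext i; exact hm_smul_right _ _ _ }
  have hf : LinearMap.ker f ≠ ⊥ := by
    apply LinearMap.ker_ne_bot_of_finrank_lt
    simpa using hk
  obtain ⟨v, hv, hv0⟩ := (Submodule.ne_bot_iff _).1 hf
  have hv1 : ∀ i, hm (b i) v = 0 := by
    intro i
    exact congrFun (LinearMap.mem_ker.1 hv) i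
  obtain ⟨j, hj⟩ := Function.ne_iff.1 hv0
  have hw0 : hm (Pi.single j 1) v = v j := by
    unfold hm
    rw [← Pi.single_star, star_one, single_one_dotProduct]
  set w0 : Fin n → K := Pi.single j 1 with hw0def
  let w : Fin n → K := w0 + (-1 : K) • ∑ i, ((d i)⁻¹ * hm (b i) w0) • b i
  have hw1 : ∀ i, hm (b i) w = 0 := by
    intro i
    show hm (b i) (w0 + (-1 : K) • ∑ i, ((d i)⁻¹ * hm (b i) w0) • b i) = 0
    rw [hm_add_right, hm_smul_right, hm_sum_right]
    have : ∑ x, hm (b i) (((d x)⁻¹ * hm (b x) w0) • b x) = hm (b i) w0 := by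
      rw [Finset.sum_eq_single i]
      · rw [hm_smul_right, ho, if_pos rfl]
        have := hd i
        field_simp
      · intro x _ hx
        rw [hm_smul_right, ho, if_neg (Ne.symm hx), mul_zero]
      · intro h; exact absurd (Finset.mem_univ _) h
    rw [this]; ring
  have hwv : hm w v ≠ 0 := by
    have : hm w v = v j := by
      show hm (w0 + (-1 : K) • ∑ i, ((d i)⁻¹ * hm (b i) w0) • b i) v = v j
      rw [hm_add_left, hm_smul_left, hm_sum_left, hw0]
      have : ∑ i, hm (((d i)⁻¹ * hm (b i) w0) • b i) v = 0 := by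
        apply Finset.sum_eq_zero
        intro i _
        rw [hm_smul_left, hv1, mul_zero]
      rw [this, mul_zero, add_zero]
    rw [this]; exact hj
  obtain ⟨a, ha⟩ := exists_T_right (g := g) hp hp0 hwv
  obtain ⟨c, hc⟩ := exists_T_left (g := g) hp hp0 ha
  set u := T 2 σ g (c • w) with hu
  set u' := T 2 σ g (a • v) with hu'
  have hus : sl σ g u = u := sl_T hit _
  have hus' : sl σ g u' = u' := sl_T hit _
  have hub : ∀ i, hm (b i) u = 0 := fun i => hm_T (hb i) (by rw [hm_smul_right, hw1, mul_zero])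
  have hub' : ∀ i, hm (b i) u' = 0 := fun i => hm_T (hb i) (by rw [hm_smul_right, hv1, mul_zero])
  by_cases h1 : hm u u ≠ 0
  · exact ⟨u, hus, hub, h1⟩
  by_cases h3 : hm u' u' ≠ 0
  · exact ⟨u', hus', hub', h3⟩
  push Not at h1 h3
  refine ⟨u + u', by rw [sl_add, hus, hus'], fun i => by rw [hm_add_right, hub, hub', add_zero], ?_⟩
  have h4 : hm u' u = hm u u' := by
    rw [← hm_star u u', ← hst, ← hm_sl σ g, hus, hus']
  rw [hm_add_left, hm_add_right, hm_add_right, h1, h3, h4, zero_add, add_zero, ← two_mul]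
  exact mul_ne_zero h2 hc

/-- orthogonal fixed vectors -/
lemma exists_basis2 {σ : SA K} {g : GU K n} (hp : orderOf σ.1 = 2) (h2 : (2 : K) ≠ 0)
    (hst : ∀ y : K, σ.1 y = star y) (hit : ∀ v, it σ g 2 v = v) (k : ℕ) (hk : k ≤ n) :
    ∃ (b : Fin k → Fin n → K) (d : Fin k → K), (∀ i, d i ≠ 0) ∧ (∀ i, sl σ g (b i) = b i) ∧
      (∀ i j, hm (b i) (b j) = if i = j then d i else 0) := by
  induction k with
  | zero => exact ⟨Fin.elim0, Fin.elim0, fun i => i.elim0, fun i => i.elim0, fun i => i.elim0⟩
  | succ k ih =>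
    obtain ⟨b, d, hd, hb, ho⟩ := ih (by omega)
    obtain ⟨z, hz, hbz, hzz⟩ := exists_fixed2 hp h2 hst hit (by omega) b d hd hb ho
    refine ⟨Fin.snoc b z, Fin.snoc d (hm z z), ?_, ?_, ?_⟩
    · intro i
      refine Fin.lastCases ?_ (fun i => ?_) i
      · rw [Fin.snoc_last]; exact hzz
      · rw [Fin.snoc_castSucc]; exact hd i
    · intro i
      refine Fin.lastCases ?_ (fun i => ?_) i
      · rw [Fin.snoc_last, hz]
      · rw [Fin.snoc_castSucc, hb]
    · intro i j
      refine Fin.lastCases ?_ (fun i => ?_) i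
      · refine Fin.lastCases ?_ (fun j => ?_) j
        · rw [Fin.snoc_last, if_pos rfl, Fin.snoc_last]
        · rw [Fin.snoc_last, Fin.snoc_castSucc, if_neg (Fin.castSucc_lt_last j).ne']
          rw [← hm_star, hbz, star_zero]
      · refine Fin.lastCases ?_ (fun j => ?_) j
        · rw [Fin.snoc_last, Fin.snoc_castSucc, if_neg (Fin.castSucc_lt_last i).ne]
          rw [hbz]
        · rw [Fin.snoc_castSucc, Fin.snoc_castSucc, Fin.snoc_castSucc, ho]
          congr 1
          simp

lemma conj_of' {σ : SA K} {g B : GU K n}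
    (h : (QuotientGroup.mk (g * mapGU σ B) : PGU K n) = QuotientGroup.mk B) :
    (SemidirectProduct.inl (QuotientGroup.mk g) * SemidirectProduct.inr σ : PGamU K n)
      = SemidirectProduct.inl (QuotientGroup.mk B) * SemidirectProduct.inr σ *
        (SemidirectProduct.inl (QuotientGroup.mk B))⁻¹ := by
  rw [eq_mul_inv_iff_mul_eq, mul_assoc]
  have := SemidirectProduct.inl_aut (φ := act n) σ (QuotientGroup.mk B)
  rw [map_inv, eq_mul_inv_iff_mul_eq] at this
  rw [← this, ← mul_assoc, ← map_mul]
  congr 2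

/-- Hilbert 90 modulo scalars for the automorphism `star`, `n` odd -/
theorem h90_two [Fintype K] {q : ℕ} (hq : Odd q) (hK : Nat.card K = q ^ 2)
    (hs : ∀ x : K, star x = x ^ q) (hn : Odd n) {σ : SA K} (hst : ∀ y : K, σ.1 y = star y)
    (hp : orderOf σ.1 = 2) {g : GU K n} (hN : H986.A5.ng σ g 2 = 1) :
    ∃ (B : GU K n) (c : K) (h : c * star c = 1), g * mapGU σ B = sc c h * B := by
  classical
  have h2 : (2 : K) ≠ 0 := by
    intro h
    have hodd : Odd (Nat.card K) := by rw [hK]; exact hq.pow
    have hch : ringChar K = 2 := by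
      have h1 : ringChar K ∣ 2 := by
        apply ringChar.dvd
        exact_mod_cast h
      rcases (Nat.dvd_prime Nat.prime_two).mp h1 with h1 | h1
      · exact absurd h1 (CharP.ringChar_ne_one)
      · exact h1
    have h3 := FiniteField.even_card_iff_char_two.mp hch
    rw [← Nat.card_eq_fintype_card] at h3
    rw [Nat.odd_iff] at hodd
    omega
  have hσ : σ.1 ^ 2 = 1 := by rw [← hp]; exact pow_orderOf_eq_one σ.1
  have hit : ∀ v, it σ g 2 v = v := by
    intro v
    rw [it_eq, hN, hσ]
    show (1 : Matrix (Fin n) (Fin n) K) *ᵥ _ = _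
    rw [one_mulVec]
    rfl
  obtain ⟨b, d', hd', hb, ho⟩ := exists_basis2 hp h2 hst hit n le_rfl
  -- the values lie in the fixed field
  have hdf : ∀ i, d' i ∈ H281.fx K := by
    intro i
    have h1 := ho i i
    rw [if_pos rfl] at h1
    rw [H281.mem_fx, ← h1, hm_star]
  let d : Fin n → H281.fx K := fun i => ⟨d' i, hdf i⟩
  have hd0 : ∀ i, d i ≠ 0 := fun i h => hd' i (congrArg Subtype.val h)
  have h2' : (2 : H281.fx K) ≠ 0 := by
    intro h
    apply h2
    have h3 := congrArg (H281.fx K).subtype h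
    rwa [map_ofNat, map_zero] at h3
  set D := ∏ i, d i with hD
  have hD0 : D ≠ 0 := Finset.prod_ne_zero_iff.mpr fun i _ => hd0 i
  have : Fintype (H281.fx K) := Fintype.ofFinite _
  obtain ⟨M, hM⟩ := H281.exists_orthonormal (F := H281.fx K) h2' _ (fun i => D⁻¹ * d i)
    (fun i => mul_ne_zero (inv_ne_zero hD0) (hd0 i)) (by
      rw [Finset.prod_mul_distrib, ← hD, Finset.prod_const, Finset.card_univ, Fintype.card_fin]
      obtain ⟨k, rfl⟩ := hn
      refine ⟨D⁻¹ ^ k, ?_⟩
      rw [pow_succ, mul_assoc, inv_mul_cancel₀ hD0, mul_one]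
      ring) rfl
  obtain ⟨s, hs1⟩ := H472.exists_norm (c := ((D⁻¹ : H281.fx K) : K)) (q := q)
    (by rw [← Nat.card_eq_fintype_card]; exact hK) hs (by
      intro h
      exact inv_ne_zero hD0 (Subtype.ext h)) (D⁻¹).2
  have hs0 : s ≠ 0 := by
    rintro rfl
    rw [mul_zero] at hs1
    exact inv_ne_zero hD0 (Subtype.ext hs1.symm)
  have hss0 : star s ≠ 0 := fun h => hs0 (by rw [← star_star s, h, star_zero])
  let N : Matrix (Fin n) (Fin n) K := M.map (H281.fx K).subtype
  have hN' : Nᵀ * diagonal (fun i => ((D⁻¹ * d i : H281.fx K) : K)) * N = 1 := by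
    have h1 := congrArg (fun A => (H281.fx K).subtype.mapMatrix A) hM
    simp only [map_mul, map_one, RingHom.mapMatrix_apply] at h1
    rw [← h1]
    congr 2
    rw [diagonal_map (map_zero _)]
    rfl
  have hNs : N.map star = N := by
    ext i j
    simp only [N, map_apply, Subfield.coe_subtype]
    exact (M i j).2
  let B0 : Matrix (Fin n) (Fin n) K := Matrix.of fun i j => b j i
  have hB0 : star B0 * B0 = diagonal d' := by
    ext i j
    have h1 : (star B0 * B0) i j = hm (b i) (b j) := by
      rw [Matrix.mul_apply]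
      rfl
    rw [h1, ho, Matrix.diagonal_apply]
  have hgB : g.1 * B0.map star = B0 := by
    ext i j
    have h1 := congrFun (hb j) i
    unfold sl at h1
    have h3 : (g.1 * B0.map star) i j = (g.1 *ᵥ fun i => σ.1 (b j i)) i := by
      rw [Matrix.mul_apply]
      apply Finset.sum_congr rfl
      intro x _
      show g.1 i x * star (b j x) = g.1 i x * σ.1 (b j x)
      rw [hst]
    rw [h3, h1]
    rfl
  have hU : s • (B0 * N) ∈ Matrix.unitaryGroup (Fin n) K := by
    rw [Matrix.mem_unitaryGroup_iff', star_smul, star_mul, smul_mul_smul_comm, hs1]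
    have h1 : star N = Nᵀ := by
      rw [star_eq_conjTranspose, conjTranspose, transpose_map, hNs]
    rw [h1, mul_assoc, ← mul_assoc (star B0), hB0, ← hN', ← mul_assoc, ← smul_mul_assoc,
      ← mul_smul_comm]
    congr 2
    ext i j
    rw [Matrix.smul_apply, diagonal_apply, diagonal_apply]
    by_cases h : i = j
    · rw [if_pos h, if_pos h]; rfl
    · rw [if_neg h, if_neg h, smul_zero]
  have hc : (star s / s) * star (star s / s) = 1 := by
    rw [star_div₀, star_star]
    field_simp
  refine ⟨⟨_, hU⟩, star s / s, hc, ?_⟩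
  apply Subtype.ext
  show g.1 * (s • (B0 * N)).map σ.1 = ((star s / s) • (1 : Matrix (Fin n) (Fin n) K)) * (s • (B0 * N))
  have h3 : (s • (B0 * N)).map σ.1 = star s • (B0.map star * N) := by
    have h4 : B0.map star * N = (B0 * N).map star := by
      conv_lhs => rw [← hNs]
      ext i j
      rw [Matrix.mul_apply, Matrix.map_apply, Matrix.mul_apply]
      rw [show star (∑ k, B0 i k * N k j) = ∑ k, star (B0 i k * N k j) from
        map_sum (starRingEnd K) _ _]
      apply Finset.sum_congr rfl
      intro k _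
      rw [star_mul']
      rfl
    rw [h4]
    ext i j
    rw [Matrix.map_apply, Matrix.smul_apply, Matrix.smul_apply, Matrix.map_apply, hst, smul_eq_mul,
      smul_eq_mul, star_mul']
  rw [h3, mul_smul_comm, ← mul_assoc, hgB, smul_mul_smul_comm, one_mul, div_mul_cancel₀ _ hs0]

/-- the involutory automorphism of a finite field is unique -/
lemma eq_star [Finite K] (hne : ∃ a : K, star a ≠ a) {σ : RingAut K} (h1 : σ ^ 2 = 1) (h0 : σ ≠ 1)
    (y : K) : σ y = star y := by
  classical
  have hcy := H195.cyc_aut K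
  have : Finite (RingAut K) := Finite.of_injective (fun s : RingAut K => (s : K → K))
    (fun a b h => RingEquiv.ext (fun x => congrFun h x))
  have : Fintype (RingAut K) := Fintype.ofFinite _
  have hst0 : (H986.A5.stA : RingAut K) ≠ 1 := by
    obtain ⟨a, ha⟩ := hne
    intro h
    exact ha (DFunLike.congr_fun h a)
  by_contra hcon
  have hne' : σ ≠ H986.A5.stA := by
    rintro rfl
    exact hcon rfl
  have hle := IsCyclic.card_pow_eq_one_le (α := RingAut K) (n := 2) (by norm_num)
  have hsub : ({1, σ, H986.A5.stA} : Finset (RingAut K)) ⊆ univ.filter (fun a => a ^ 2 = 1) := by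
    intro a ha
    simp only [Finset.mem_insert, Finset.mem_singleton] at ha
    simp only [Finset.mem_filter, Finset.mem_univ, true_and]
    rcases ha with rfl | rfl | rfl
    · exact one_pow 2
    · exact h1
    · exact H986.A5.stA_sq
  have hc3 : ({1, σ, H986.A5.stA} : Finset (RingAut K)).card = 3 := by
    rw [Finset.card_insert_of_notMem, Finset.card_pair hne']
    simp only [Finset.mem_insert, Finset.mem_singleton, not_or]
    exact ⟨Ne.symm h0, Ne.symm hst0⟩
  have := (Finset.card_le_card hsub).trans hle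
  omega

end

theorem stmtB5 : StmtB5.{u} := by
  intro K _ _ _ q hqo hq hK hs n hn x hx hxr
  have hn1 : 1 ≤ n := hn.pos
  obtain ⟨g, hg⟩ := QuotientGroup.mk_surjective x.left
  have hxe : x = SemidirectProduct.inl (QuotientGroup.mk g) * SemidirectProduct.inr x.right := by
    rw [hg]
    exact (SemidirectProduct.inl_left_mul_inr_right x).symm
  set σ : SA K := x.right with hσd
  have hpow := hx
  rw [hxe, pow_eq] at hpow
  have hr : σ ^ 2 = 1 := by
    have := congrArg SemidirectProduct.right hpow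
    simpa only [SemidirectProduct.mul_right, SemidirectProduct.right_inl,
      SemidirectProduct.right_inr, one_mul, SemidirectProduct.one_right] using this
  have hl : (QuotientGroup.mk (ng σ g 2) : PGU K n) = 1 := by
    rw [hr, map_one, mul_one] at hpow
    have := congrArg SemidirectProduct.left hpow
    simpa using this
  have hord : orderOf σ = 2 := orderOf_eq_prime hr hxr
  have hord1 : orderOf σ.1 = 2 := by rw [← hord]; exact Subgroup.orderOf_coe σ
  have hst : ∀ y : K, σ.1 y = star y := by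
    apply eq_star (H986.A5.exists_star_ne (by omega) hK hs)
    · rw [← hord1]; exact pow_orderOf_eq_one σ.1
    · intro h
      rw [h, orderOf_one] at hord1
      omega
  have hcen : ng σ g 2 ∈ Subgroup.center (GU K n) := (QuotientGroup.eq_one_iff _).1 hl
  have hpq : 2 ∣ q + 1 := by
    obtain ⟨k, rfl⟩ := hqo
    exact ⟨k + 1, by ring⟩
  obtain ⟨ζ, _, hζ1, hζ2⟩ := H296.exists_zeta hK hs Nat.prime_two hpq
  obtain ⟨c, hc⟩ := (H296.mem_center_iff hζ1 hζ2 _).1 hcen
  have hcc : c * star c = 1 := by
    have h1 := mem_unitaryGroup_iff.1 (ng σ g 2).2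
    rw [hc, star_smul, star_one, smul_mul_smul_comm, mul_one] at h1
    have h2 := congrFun (congrFun h1 ⟨0, hn1⟩) ⟨0, hn1⟩
    simpa using h2
  have hNc : ng σ g 2 = sc c hcc := Subtype.ext hc
  have hσc : σ.1 c = c := by
    have h1 : g * mapGU σ (ng σ g 2) = ng σ g 2 * mapGU (σ ^ 2) g := by
      rw [← ng_succ, ng_succ']
    rw [hr, mapGU_one, hNc, mapGU_sc, sc_comm c hcc g] at h1
    have h3 : (sc (σ.1 c) (map_norm σ hcc) : GU K n) = sc c hcc := mul_left_cancel h1
    have h2 := congrFun (congrFun (congrArg Subtype.val h3) ⟨0, hn1⟩) ⟨0, hn1⟩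
    rw [sc_val, sc_val] at h2
    simpa using h2
  have hc2 : c * c = 1 := by
    rw [hst] at hσc
    rw [hσc] at hcc
    exact hcc
  -- determinants
  have hcn : c ^ n = 1 := by
    have h1 : ng σ g 2 = g * mapGU σ g := by
      rw [ng_succ, ng_succ, ng_zero, map_one, mul_one]
    have h3 : g.1 * g.1.map σ.1 = c • 1 := by
      rw [← hc, h1]
      rfl
    have h4 := congrArg Matrix.det h3
    rw [Matrix.det_mul, Matrix.det_smul, Matrix.det_one, mul_one, Fintype.card_fin] at h4
    have h5 : (g.1.map σ.1).det = star g.1.det := by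
      rw [← hst]
      exact (RingHom.map_det (σ.1 : K →+* K) g.1).symm
    have h6 : g.1.det * star g.1.det = 1 := by
      have h7 := congrArg Matrix.det (mem_unitaryGroup_iff.1 g.2)
      rwa [Matrix.det_mul, star_eq_conjTranspose, Matrix.det_conjTranspose, Matrix.det_one] at h7
    rw [h5, h6] at h4
    exact h4.symm
  have hc1 : c = 1 := by
    obtain ⟨m, rfl⟩ := hn
    rw [pow_succ, pow_mul, pow_two, hc2, one_pow, one_mul] at hcn
    exact hcn
  have hN1 : H986.A5.ng σ g 2 = 1 := by
    rw [ng_eq, hNc]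
    apply Subtype.ext
    show c • (1 : Matrix (Fin n) (Fin n) K) = 1
    rw [hc1, one_smul]
  obtain ⟨B, e, he, hB⟩ := h90_two hqo hK hs hn hst hord1 hN1
  refine ⟨hst, QuotientGroup.mk B, ?_⟩
  rw [← conj_of' (g := g) (B := B) (by rw [hB, QuotientGroup.mk_mul, mk_sc, one_mul])]
  exact hxe

end Vale.Agent.P240.R2.H613
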