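import Vale.Agent.P240.R2.H487.TF

/-!
`TopFac` for the simple groups `L` such that the Sylow `p`-subgroups of `Aut(L)` are cyclic.
-/

set_option autoImplicit false
set_option linter.all false

namespace Vale.Agent.P240.R2.H613

open Finsupp hiding cons
open Subgroup Vale.Agent.P240.K Vale.Agent.P240.H195 Vale.Agent.P240.R2.H487

universe u v

section
variable {G : Type u} [Group G] {p : ℕ} [hp : Fact p.Prime]

/-- a nontrivial elementary abelian `p`-group has at least `p` elements -/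
lemma le_card_ApS [Finite G] {A : Subgroup G} (hA : A ∈ ApS p G) : p ≤ Nat.card A := by
  obtain ⟨h1, -, h3⟩ := hA
  obtain ⟨x, hx, hx1⟩ := (Subgroup.ne_bot_iff_exists_ne_one.1 h1 : _) |>.elim fun a ha =>
    (⟨a.1, a.2, fun h => ha (Subtype.ext h)⟩ : ∃ x, x ∈ A ∧ x ≠ 1)
  have h4 : orderOf x = p := orderOf_eq_prime (h3 x hx) hx1
  have h5 : orderOf (⟨x, hx⟩ : A) ∣ Nat.card A := orderOf_dvd_natCard _
  rw [Subgroup.orderOf_mk, h4] at h5
  exact Nat.le_of_dvd Nat.card_pos h5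

/-- conjugates in a nonabelian simple group -/
lemma exists_conj_ne {M A : Subgroup G} (hs : IsSimpleGroup M) (hn : ∃ x y : M, x * y ≠ y * x)
    (hA : A ∈ ApS p G) (hAM : A ≤ M) : ∃ m ∈ M, A.map (MulAut.conj m).toMonoidHom ≠ A := by
  by_contra hcon
  push Not at hcon
  have hnorm : (A.subgroupOf M).Normal := by
    refine ⟨fun n hn g => ?_⟩
    have h1 : (g : G) * n * (g : G)⁻¹ ∈ A.map (MulAut.conj (g : G)).toMonoidHom :=
      ⟨n, hn, rfl⟩
    rw [hcon g g.2] at h1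
    exact h1
  rcases hs.eq_bot_or_eq_top_of_normal _ hnorm with h | h
  · apply hA.1
    rw [eq_bot_iff]
    intro a ha
    have h1 : (⟨a, hAM ha⟩ : M) ∈ A.subgroupOf M := ha
    rw [h, mem_bot] at h1
    rw [mem_bot]
    exact congrArg Subtype.val h1
  · obtain ⟨x, y, hxy⟩ := hn
    have h1 : ∀ z : M, (z : G) ∈ A := by
      intro z
      have : z ∈ A.subgroupOf M := by rw [h]; trivial
      exact this
    exact hxy (Subtype.ext (hA.2.1 _ (h1 x) _ (h1 y)))

lemma bd_one {𝕜 : Type v} [Field 𝕜] {α : Type*} (a : α) :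
    bd (single [a] (1 : 𝕜)) = single ([] : List α) (1 : 𝕜) := by
  simp [bd, Finsupp.linearCombination_single]

/-- rank one -/
theorem locTopF_of_rank [Finite G] {M : Subgroup G} (hs : IsSimpleGroup M)
    (hn : ∃ x y : M, x * y ≠ y * x) (hd : p ∣ Nat.card M)
    (h : ∀ E : Subgroup (MulAut M), (∀ x ∈ E, ∀ y ∈ E, x * y = y * x) → (∀ x ∈ E, x ^ p = 1) →
      Nat.card E ≤ p) (𝕜 : Type v) [Field 𝕜] : LocTopF 𝕜 p M := by
  classical
  refine ⟨{A | A ≤ M ∧ A ∈ ApS p G}, ?_, fun A hA => hA, ?_⟩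
  · obtain ⟨x, hx⟩ := exists_prime_orderOf_dvd_card' p hd
    have hxp : (x : G) ^ p = 1 := by
      have h1 := pow_orderOf_eq_one x
      rw [hx] at h1
      exact congrArg Subtype.val h1
    have hx1 : (x : G) ≠ 1 := by
      intro h0
      have h1 : x = 1 := Subtype.ext h0
      rw [h1, orderOf_one] at hx
      exact hp.out.one_lt.ne hx
    refine ⟨zpowers (x : G), (zpowers_le).2 x.2, ?_, ?_, ?_⟩
    · intro h0
      exact hx1 (zpowers_eq_bot.1 h0)
    · rintro _ ⟨i, rfl⟩ _ ⟨j, rfl⟩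
      change (x : G) ^ i * (x : G) ^ j = (x : G) ^ j * (x : G) ^ i
      rw [← zpow_add, ← zpow_add, add_comm]
    · rintro _ ⟨i, rfl⟩
      change ((x : G) ^ i) ^ p = 1
      rw [← zpow_natCast, ← zpow_mul, mul_comm, zpow_mul, zpow_natCast, hxp, one_zpow]
  intro E hE hEN E₁ hE₁ ⟨A, ⟨hAM, hA⟩, hAE⟩ hEC
  -- the image in the automorphism group
  let ψ : normalizer (M : Set G) →* MulAut M := M.normalizerMonoidHom
  have hker : ∀ (a e : G) (ha : a ∈ normalizer (M : Set G)) (he : e ∈ normalizer (M : Set G)),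
      ψ ⟨a, ha⟩ = ψ ⟨e, he⟩ → a⁻¹ * e ∈ centralizer (M : Set G) := by
    intro a e ha he hae
    have h1 : (⟨a, ha⟩ : normalizer (M : Set G))⁻¹ * ⟨e, he⟩ ∈ ψ.ker := by
      rw [MonoidHom.mem_ker, map_mul, map_inv, hae, inv_mul_cancel]
    have h2 : ψ.ker = (centralizer (M : Set G)).subgroupOf (normalizer (M : Set G)) :=
      normalizerMonoidHom_ker M
    rw [h2] at h1
    exact h1
  have hAE' : A ≤ E := hAE.trans hE₁
  let YE : Subgroup (MulAut M) := (E.subgroupOf (normalizer (M : Set G))).map ψ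
  let YA : Subgroup (MulAut M) := (A.subgroupOf (normalizer (M : Set G))).map ψ
  have hYE : Nat.card YE ≤ p := by
    refine h YE ?_ ?_
    · rintro _ ⟨x, hx, rfl⟩ _ ⟨y, hy, rfl⟩
      rw [← map_mul, ← map_mul]
      congr 1
      exact Subtype.ext (hE.2.1 _ hx _ hy)
    · rintro _ ⟨x, hx, rfl⟩
      rw [← map_pow]
      have : x ^ p = 1 := Subtype.ext (hE.2.2 _ hx)
      rw [this, map_one]
  have hYle : YA ≤ YE := by
    rintro _ ⟨x, hx, rfl⟩
    exact ⟨x, hAE' hx, rfl⟩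
  have hfin : Finite (MulAut M) := inferInstance
  have hAY : Nat.card A ≤ Nat.card YA := by
    let f : A → YA := fun a => ⟨ψ ⟨a.1, hEN (hAE' a.2)⟩, ⟨⟨a.1, hEN (hAE' a.2)⟩, a.2, rfl⟩⟩
    refine Nat.card_le_card_of_injective f ?_
    intro a b hab
    have h1 : ψ ⟨a.1, hEN (hAE' a.2)⟩ = ψ ⟨b.1, hEN (hAE' b.2)⟩ := congrArg Subtype.val hab
    have h2 := hker _ _ _ _ h1
    have h3 : a.1⁻¹ * b.1 ∈ E₁ ⊓ centralizer (M : Set G) :=
      Subgroup.mem_inf.2 ⟨E₁.mul_mem (E₁.inv_mem (hAE a.2)) (hAE b.2), h2⟩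
    rw [hEC, mem_bot] at h3
    exact Subtype.ext (inv_mul_eq_one.1 h3)
  have hpA := le_card_ApS hA
  have hYcard : Nat.card YA ≤ Nat.card YE := Subgroup.card_le_of_le hYle
  have hYeq : YA = YE := Subgroup.eq_of_le_of_card_ge hYle (by omega)
  have hcardA : Nat.card A = p := by omega
  have hdec : ∀ e ∈ E, ∃ a ∈ A, a⁻¹ * e ∈ centralizer (M : Set G) := by
    intro e he
    have h1 : ψ ⟨e, hEN he⟩ ∈ YE := ⟨⟨e, hEN he⟩, he, rfl⟩
    rw [← hYeq] at h1
    obtain ⟨⟨a, ha⟩, ha', hae⟩ := h1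
    exact ⟨a, ha', hker _ _ _ _ hae⟩
  have hE₁A : E₁ = A := by
    apply le_antisymm _ hAE
    intro e he
    obtain ⟨a, ha, hae⟩ := hdec e (hE₁ he)
    have h3 : a⁻¹ * e ∈ E₁ ⊓ centralizer (M : Set G) :=
      Subgroup.mem_inf.2 ⟨E₁.mul_mem (E₁.inv_mem (hAE ha)) he, hae⟩
    rw [hEC, mem_bot] at h3
    rw [← inv_mul_eq_one.1 h3]
    exact ha
  subst hE₁A
  obtain ⟨m, hm, hmA⟩ := exists_conj_ne hs hn hA hAM
  set A' := E₁.map (MulAut.conj m).toMonoidHom with hA'
  have hA'M : A' ≤ M := by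
    rintro _ ⟨a, ha, rfl⟩
    exact mul_mem (mul_mem hm (hAM ha)) (inv_mem hm)
  have hA'S : A' ∈ ApS p G := by
    refine ⟨fun h0 => hA.1 ?_, ?_, ?_⟩
    · exact (Subgroup.map_eq_bot_iff_of_injective _ (MulAut.conj m).injective).1 h0
    · rintro _ ⟨x, hx, rfl⟩ _ ⟨y, hy, rfl⟩
      rw [← map_mul, ← map_mul, hA.2.1 x hx y hy]
    · rintro _ ⟨x, hx, rfl⟩
      rw [← map_pow, hA.2.2 x hx, map_one]
  have hMB : M ≤ centralizer ((E ⊓ centralizer (M : Set G) : Subgroup G) : Set G) := by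
    intro x hx
    rw [mem_centralizer_iff]
    rintro y ⟨-, hy⟩
    exact ((mem_centralizer_iff.1 hy) x hx).symm
  have hH : ∀ X : Subgroup G, X ≤ M → X ≤ (M ⊔ E₁) ⊓
      centralizer ((E ⊓ centralizer (M : Set G) : Subgroup G) : Set G) := fun X hX =>
    le_inf (hX.trans le_sup_left) (hX.trans hMB)
  refine ⟨E ⊓ centralizer (M : Set G), inf_le_left, ?_, ?_, le_rfl, E₁, hH _ hAM, hA,
    ⟨E₁, ⟨hAM, hA⟩, le_rfl⟩, ?_, rfl, le_rfl, single [E₁] 1 - single [A'] 1, [E₁], ?_⟩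
  · apply le_antisymm (sup_le hE₁ inf_le_left)
    intro e he
    obtain ⟨a, ha, hae⟩ := hdec e he
    have : e = a * (a⁻¹ * e) := by group
    rw [this]
    exact mul_mem_sup ha (Subgroup.mem_inf.2 ⟨E.mul_mem (E.inv_mem (hE₁ ha)) he, hae⟩)
  · rw [eq_bot_iff, ← hEC]
    exact inf_le_inf_left _ inf_le_right
  · rw [sup_eq_left.2 (inf_le_right : E ⊓ centralizer (M : Set G) ≤ centralizer (M : Set G))]
    exact hEC
  · refine ⟨?_, ?_, ?_, Or.inr ⟨[], rfl⟩, by rw [hcardA, List.length_singleton, pow_one]⟩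
    · refine sub_mem (single_mem_Sp ⟨⟨List.pairwise_singleton _ _, ?_⟩, rfl⟩ _)
        (single_mem_Sp ⟨⟨List.pairwise_singleton _ _, ?_⟩, rfl⟩ _)
      · intro a ha
        rw [List.mem_singleton] at ha
        subst ha
        exact ⟨hA, hH _ hAM⟩
      · intro a ha
        rw [List.mem_singleton] at ha
        subst ha
        exact ⟨hA'S, hH _ hA'M⟩
    · rw [map_sub, bd_one, bd_one, sub_self]
    · rw [Finsupp.sub_apply, Finsupp.single_eq_same, Finsupp.single_eq_of_ne, sub_zero]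
      · exact one_ne_zero
      · intro h0
        exact hmA (List.head_eq_of_cons_eq h0).symm

/-- subgroups of cyclic groups -/
lemma card_le_of_cyclic {X : Type*} [Group X] [Finite X] (h : ∀ P : Sylow p X, IsCyclic P)
    {E : Subgroup X} (hE : ∀ x ∈ E, x ^ p = 1) : Nat.card E ≤ p := by
  have hEp : IsPGroup p E := by
    rintro ⟨x, hx⟩
    exact ⟨1, Subtype.ext (by rw [pow_one]; exact hE x hx)⟩
  obtain ⟨P, hP⟩ := hEp.exists_le_sylow
  have := h P
  have hc : IsCyclic E := isCyclic_of_injective (Subgroup.inclusion hP)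
    (Subgroup.inclusion_injective hP)
  obtain ⟨g, hg⟩ := hc.exists_generator
  have h1 : orderOf g = Nat.card E := orderOf_eq_card_of_forall_mem_zpowers hg
  rw [← h1]
  refine orderOf_le_of_pow_eq_one hp.out.pos (Subtype.ext ?_)
  exact hE _ g.2

/-- **groups with cyclic Sylow subgroups** -/
theorem topFac_of_cyc {L : Type u} [Group L] [Finite L] (hs : IsSimpleGroup L)
    (hn : ∃ x y : L, x * y ≠ y * x) (hd : p ∣ Nat.card L)
    (h : ∀ P : Sylow p (MulAut L), IsCyclic P) (𝕜 : Type v) [Field 𝕜] : TopFac 𝕜 p L := by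
  intro G _ _ M ⟨e⟩
  have hs' : IsSimpleGroup M := e.symm.isSimpleGroup
  have hn' : ∃ x y : M, x * y ≠ y * x := by
    obtain ⟨x, y, hxy⟩ := hn
    refine ⟨e x, e y, fun h0 => hxy (e.injective ?_)⟩
    rw [map_mul, map_mul, h0]
  have hd' : p ∣ Nat.card M := by rwa [← Nat.card_congr e.toEquiv]
  refine locTopF_of_rank hs' hn' hd' (fun E _ hE => ?_) 𝕜
  have h1 : Nat.card (E.map (MulAut.congr e.symm).toMonoidHom) ≤ p := by
    refine card_le_of_cyclic h ?_
    rintro _ ⟨x, hx, rfl⟩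
    rw [← map_pow, hE x hx, map_one]
  rwa [Subgroup.card_map_of_injective (MulAut.congr e.symm).injective] at h1

/-- `p ^ 2` does not divide the order of the automorphism group -/
lemma cyclic_of_sq {X : Type*} [Group X] [Finite X] (h : ¬ p ^ 2 ∣ Nat.card X) (P : Sylow p X) :
    IsCyclic P := by
  obtain ⟨k, hk⟩ := (IsPGroup.iff_card.1 P.2)
  have hk1 : k ≤ 1 := by
    by_contra hlt
    apply h
    have h1 : p ^ 2 ∣ Nat.card P := by
      rw [hk]
      exact pow_dvd_pow p (by omega)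
    exact h1.trans (Subgroup.card_subgroup_dvd_card _)
  interval_cases k
  · have : Subsingleton P := (Nat.card_eq_one_iff_unique.1 (by rw [hk, pow_zero])).1
    exact isCyclic_of_subsingleton
  · exact isCyclic_of_prime_card (p := p) (by rw [hk, pow_one])

end

end Vale.Agent.P240.R2.H613
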