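import Vale.Agent.P240.R2.H687.TDefs

/-!
(T3) the prime number
-/

set_option autoImplicit false
set_option linter.all false

namespace Vale.Agent.P240.R2.H613.T

open Vale.Agent.P240.R2.H687.T

/-- an odd number `> 1` prime to `3` has a prime divisor different from `2` and `3` -/
lemma exists_l {m : ℕ} (h1 : m ≠ 1) (h2 : ¬ 2 ∣ m) (h3 : ¬ 3 ∣ m) :
    ∃ l : ℕ, l.Prime ∧ l ≠ 2 ∧ l ≠ 3 ∧ l ∣ m := by
  obtain ⟨l, hl, hd⟩ := Nat.exists_prime_and_dvd h1
  refine ⟨l, hl, ?_, ?_, hd⟩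
  · rintro rfl; exact h2 hd
  · rintro rfl; exact h3 hd

/-- powers modulo a prime divisor of `q ^ 2 + 1` -/
lemma no_dvd4 {l q : ℕ} (hl : l.Prime) (hl2 : l ≠ 2) (h : l ∣ q ^ 2 + 1) (hq : 0 < q) {j : ℕ}
    (h0 : 0 < j) (hj : j < 4) : ¬ l ∣ q ^ j - 1 := by
  haveI := Fact.mk hl
  intro hd
  have e1 : (q : ZMod l) ^ 2 = -1 := by
    have : ((q ^ 2 + 1 : ℕ) : ZMod l) = 0 := (ZMod.natCast_eq_zero_iff _ _).2 h
    push_cast at this
    exact eq_neg_of_add_eq_zero_left this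
  have e2 : (q : ZMod l) ^ j = 1 := by
    have : ((q ^ j - 1 : ℕ) : ZMod l) = 0 := (ZMod.natCast_eq_zero_iff _ _).2 hd
    rw [Nat.cast_sub (Nat.one_le_pow _ _ hq)] at this
    push_cast at this
    exact sub_eq_zero.1 this
  have h2 : (2 : ZMod l) ≠ 0 := by
    intro h
    have : ((2 : ℕ) : ZMod l) = 0 := by exact_mod_cast h
    rw [ZMod.natCast_eq_zero_iff] at this
    exact hl2 ((Nat.prime_dvd_prime_iff_eq hl Nat.prime_two).1 this)
  have hne : (-1 : ZMod l) ≠ 1 := by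
    intro h
    apply h2
    have : (1 : ZMod l) + 1 = 0 := by nth_rw 1 [← h]; ring
    rw [← this]; norm_num
  interval_cases j
  · rw [pow_one] at e2
    rw [e2, one_pow] at e1
    exact hne e1.symm
  · rw [e1] at e2; exact hne e2
  · have e3 : (q : ZMod l) ^ 3 = (q : ZMod l) ^ 2 * q := by ring
    rw [e3, e1] at e2
    have e4 : (q : ZMod l) = -1 := by
      calc (q : ZMod l) = -(-1 * q) := by ring
        _ = -1 := by rw [e2]
    rw [e4] at e1
    apply hne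
    rw [← e1]; ring

/-- powers modulo a prime divisor of `q ^ 4 - q ^ 2 + 1` -/
lemma no_dvd12 {l q : ℕ} (hl : l.Prime) (hl2 : l ≠ 2) (hl3 : l ≠ 3)
    (h : l ∣ q ^ 4 - q ^ 2 + 1) (hq : 0 < q) {j : ℕ}
    (h0 : 0 < j) (hj : j < 12) : ¬ l ∣ q ^ j - 1 := by
  haveI := Fact.mk hl
  intro hd
  have e1 : (q : ZMod l) ^ 4 - (q : ZMod l) ^ 2 + 1 = 0 := by
    have : ((q ^ 4 - q ^ 2 + 1 : ℕ) : ZMod l) = 0 := (ZMod.natCast_eq_zero_iff _ _).2 h
    have h4 : q ^ 2 ≤ q ^ 4 := Nat.pow_le_pow_right hq (by norm_num)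
    rw [Nat.cast_add, Nat.cast_sub h4] at this
    push_cast at this
    exact this
  have e2 : (q : ZMod l) ^ j = 1 := by
    have : ((q ^ j - 1 : ℕ) : ZMod l) = 0 := (ZMod.natCast_eq_zero_iff _ _).2 hd
    rw [Nat.cast_sub (Nat.one_le_pow _ _ hq)] at this
    push_cast at this
    exact sub_eq_zero.1 this
  have h2 : (2 : ZMod l) ≠ 0 := by
    intro h
    have : ((2 : ℕ) : ZMod l) = 0 := by exact_mod_cast h
    rw [ZMod.natCast_eq_zero_iff] at this
    exact hl2 ((Nat.prime_dvd_prime_iff_eq hl Nat.prime_two).1 this)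
  have h3 : (3 : ZMod l) ≠ 0 := by
    intro h
    have : ((3 : ℕ) : ZMod l) = 0 := by exact_mod_cast h
    rw [ZMod.natCast_eq_zero_iff] at this
    exact hl3 ((Nat.prime_dvd_prime_iff_eq hl Nat.prime_three).1 this)
  set x : ZMod l := (q : ZMod l) with hx
  have e6 : x ^ 6 = -1 := by
    have : x ^ 6 + 1 = (x ^ 2 + 1) * (x ^ 4 - x ^ 2 + 1) := by ring
    rw [e1, mul_zero] at this
    exact eq_neg_of_add_eq_zero_left this
  have e12 : x ^ 12 = 1 := by
    have : x ^ 12 = (x ^ 6) ^ 2 := by ring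
    rw [this, e6]; ring
  have hne : (-1 : ZMod l) ≠ 1 := by
    intro h
    apply h2
    have : (1 : ZMod l) + 1 = 0 := by nth_rw 1 [← h]; ring
    rw [← this]; norm_num
  have hx0 : x ≠ 0 := by
    intro h
    rw [h] at e12
    norm_num at e12
  -- the order divides `12`, not `6`, not `4`
  have d12 : orderOf x ∣ 12 := orderOf_dvd_of_pow_eq_one e12
  have dj : orderOf x ∣ j := orderOf_dvd_of_pow_eq_one e2
  have n6 : ¬ orderOf x ∣ 6 := by
    intro h
    rw [orderOf_dvd_iff_pow_eq_one, e6] at h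
    exact hne h
  have n4 : ¬ orderOf x ∣ 4 := by
    intro h
    rw [orderOf_dvd_iff_pow_eq_one] at h
    -- `x ^ 4 = 1`, `x ^ 2 = 2`, so `4 = 1`
    have a1 : x ^ 2 = 2 := by
      rw [h] at e1
      linear_combination -e1
    have a2 : x ^ 4 = (x ^ 2) ^ 2 := by ring
    rw [h, a1] at a2
    apply h3
    linear_combination -a2
  have hle : orderOf x ≤ j := Nat.le_of_dvd h0 dj
  have hlt : orderOf x < 12 := by omega
  have hpos : 0 < orderOf x := Nat.pos_of_dvd_of_pos d12 (by norm_num)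
  generalize orderOf x = o at *
  interval_cases o <;> omega

/-- (T3) -/
theorem stmtPrime : StmtPrime := by
  intro q hodd h5 h3
  by_cases hc : ∃ q0 : ℕ, q = q0 ^ 3
  · obtain ⟨q0, rfl⟩ := hc
    have hodd0 : Odd q0 := by
      rw [Nat.odd_pow_iff (by norm_num)] at hodd
      exact hodd
    have h30 : ¬ 3 ∣ q0 := fun h => h3 (dvd_pow h (by norm_num))
    have hq0 : 0 < q0 := by
      rcases Nat.eq_zero_or_pos q0 with h | h
      · rw [h] at h5; norm_num at h5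
      · exact h
    have h42 : q0 ^ 2 ≤ q0 ^ 4 := Nat.pow_le_pow_right hq0 (by norm_num)
    have hne1 : q0 ^ 4 - q0 ^ 2 + 1 ≠ 1 := by
      intro h
      have h4 : q0 ^ 4 ≤ q0 ^ 2 := by omega
      have hq1 : 1 < q0 := by
        by_contra hcon
        have : q0 = 1 := by omega
        rw [this] at h5; norm_num at h5
      have := Nat.pow_lt_pow_right hq1 (show 2 < 4 by norm_num)
      omega
    have hodd4 : q0 ^ 4 - q0 ^ 2 + 1 = q0 ^ 2 * (q0 ^ 2 - 1) + 1 := by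
      rw [Nat.mul_sub, ← pow_add, mul_one]
    have h2d : ¬ 2 ∣ q0 ^ 4 - q0 ^ 2 + 1 := by
      rw [hodd4]
      have h1 : 2 ∣ q0 ^ 2 - 1 := by
        have := (hodd0.pow (n := 2))
        obtain ⟨k, hk⟩ := this
        rw [hk]; omega
      have h2 : 2 ∣ q0 ^ 2 * (q0 ^ 2 - 1) := Dvd.dvd.mul_left h1 _
      omega
    have h3d : ¬ 3 ∣ q0 ^ 4 - q0 ^ 2 + 1 := by
      rw [hodd4]
      have h1 : 3 ∣ q0 ^ 2 - 1 := by
        have hm : q0 % 3 = 1 ∨ q0 % 3 = 2 := by omega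
        have hm2 : q0 ^ 2 % 3 = 1 := by
          rcases hm with h | h <;> simp [Nat.pow_mod, h]
        omega
      have h2 : 3 ∣ q0 ^ 2 * (q0 ^ 2 - 1) := Dvd.dvd.mul_left h1 _
      omega
    obtain ⟨l, hl, hl2, hl3, hld⟩ := exists_l hne1 h2d h3d
    have hdvd : l ∣ (q0 ^ 3) ^ 2 + 1 := by
      have : (q0 ^ 3) ^ 2 + 1 = (q0 ^ 2 + 1) * (q0 ^ 4 - q0 ^ 2 + 1) := by
        zify [h42]
        ring
      rw [this]
      exact Dvd.dvd.mul_left hld _
    refine ⟨l, hl, hl2, hl3, hdvd, fun j h0 hj => no_dvd4 hl hl2 hdvd (by positivity) h0 hj, ?_⟩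
    intro q1 hq1 j h0 hj
    have : q1 = q0 := Nat.pow_left_injective (n := 3) (by norm_num) hq1.symm
    rw [this]
    exact no_dvd12 hl hl2 hl3 hld hq0 h0 hj
  · have hq2 : q ^ 2 % 4 = 1 := by
      obtain ⟨k, rfl⟩ := hodd
      have : (2 * k + 1) ^ 2 = 4 * (k ^ 2 + k) + 1 := by ring
      omega
    have hm : q % 3 = 1 ∨ q % 3 = 2 := by omega
    have hm2 : q ^ 2 % 3 = 1 := by
      rcases hm with h | h <;> simp [Nat.pow_mod, h]
    have hbig : 25 ≤ q ^ 2 := by nlinarith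
    have hhalf : 2 * ((q ^ 2 + 1) / 2) = q ^ 2 + 1 := by omega
    obtain ⟨l, hl, hl2, hl3, hld⟩ := exists_l (m := (q ^ 2 + 1) / 2) (by omega) (by omega) (by omega)
    have hdvd : l ∣ q ^ 2 + 1 := by
      rw [← hhalf]
      exact Dvd.dvd.mul_left hld _
    refine ⟨l, hl, hl2, hl3, hdvd, fun j h0 hj => no_dvd4 hl hl2 hdvd (by omega) h0 hj, ?_⟩
    intro q1 hq1
    exact absurd ⟨q1, hq1⟩ hc

end Vale.Agent.P240.R2.H613.T
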