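import Vale.Agent.P240.R2.H613.A5b
import Vale.Agent.P240.R2.H986.A5c

/-!
StmtA5: elements of odd prime order `p` in the coset of a field automorphism of order `p` of
`PΓU_n(q)` are conjugate (P240, module A5).
-/

set_option autoImplicit false

namespace Vale.Agent.P240.R2.H613

open Matrix Finset
open Vale.Agent.P240.R2.AS

universe u

lemma ng_eq {K : Type u} [Field K] [StarRing K] {n : ℕ} (σ : SA K) (g : GU K n) (k : ℕ) :
    H986.A5.ng σ g k = ng σ g k := by
  induction k with
  | zero => rfl
  | succ k ih => rw [H986.A5.ng_succ, ih, ng_succ]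

theorem h90 : H90.{u} := by
  intro K _ _ _ q hq hK hs p _ hp2 _ σ hσ n g hN
  refine H986.A5.h90_fin (by omega) hK hs ((Fact.out : p.Prime).odd_of_ne_two hp2)
    ((Subgroup.orderOf_coe σ).trans hσ) ?_
  rw [ng_eq, hN]

theorem stmtA5 : StmtA5.{u} := stmtA5_of h90

end Vale.Agent.P240.R2.H613
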