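import Vale.Agent.P240.R2.H986.A5n
import Vale.Agent.P240.R2.AS.Stmts2

/-!
Descent for field automorphisms of odd prime order in `PΓU_n(q)`: the scalar step and the glue
(P240, module A5).
-/

set_option autoImplicit false

namespace Vale.Agent.P240.R2.H613

open Matrix Finset
open Vale.Agent.P240.R2.AS

universe u

section

variable {K : Type u} [Field K] [StarRing K] {n : ℕ}

/-- `g σ(g) ⋯ σ^(k-1)(g)` -/
def ng (σ : SA K) (g : GU K n) : ℕ → GU K n
  | 0 => 1
  | k + 1 => g * mapGU σ (ng σ g k)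

@[simp] lemma ng_zero (σ : SA K) (g : GU K n) : ng σ g 0 = 1 := rfl

lemma ng_succ (σ : SA K) (g : GU K n) (k : ℕ) : ng σ g (k + 1) = g * mapGU σ (ng σ g k) := rfl

lemma ng_succ' (σ : SA K) (g : GU K n) (k : ℕ) :
    ng σ g (k + 1) = ng σ g k * mapGU (σ ^ k) g := by
  induction k with
  | zero => rw [ng_succ, ng_zero, map_one, mul_one, one_mul, pow_zero, mapGU_one]
  | succ k ih =>
    calc ng σ g (k + 1 + 1) = g * mapGU σ (ng σ g (k + 1)) := rfl
      _ = g * mapGU σ (ng σ g k * mapGU (σ ^ k) g) := by rw [ih]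
      _ = g * mapGU σ (ng σ g k) * mapGU σ (mapGU (σ ^ k) g) := by rw [map_mul, mul_assoc]
      _ = ng σ g (k + 1) * mapGU (σ ^ (k + 1)) g := by rw [← ng_succ, pow_succ', mapGU_mul]

/-- the scalar matrix of a number of norm one -/
def sc (c : K) (h : c * star c = 1) : GU K n :=
  ⟨c • 1, by
    rw [mem_unitaryGroup_iff, star_smul, star_one, smul_mul_smul_comm, mul_one, h, one_smul]⟩

lemma sc_val (c : K) (h : c * star c = 1) : (sc c h : GU K n).1 = c • 1 := rfl

lemma sc_comm (c : K) (h : c * star c = 1) (g : GU K n) : sc c h * g = g * sc c h := by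
  apply Subtype.ext
  show (c • (1 : Matrix (Fin n) (Fin n) K)) * g.1 = g.1 * (c • 1)
  rw [smul_mul_assoc, one_mul, mul_smul_comm, mul_one]

lemma sc_mem_center (c : K) (h : c * star c = 1) :
    (sc c h : GU K n) ∈ Subgroup.center (GU K n) :=
  Subgroup.mem_center_iff.2 (fun g => (sc_comm c h g).symm)

lemma mk_sc (c : K) (h : c * star c = 1) :
    (QuotientGroup.mk (sc c h : GU K n) : PGU K n) = 1 :=
  (QuotientGroup.eq_one_iff _).2 (sc_mem_center c h)

lemma map_norm (σ : SA K) {c : K} (h : c * star c = 1) : σ.1 c * star (σ.1 c) = 1 := by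
  rw [← SA_star, ← map_mul, h, map_one]

lemma mapGU_sc (σ : SA K) {c : K} (h : c * star c = 1) :
    mapGU σ (sc c h : GU K n) = sc (σ.1 c) (map_norm σ h) := by
  apply Subtype.ext
  show (c • (1 : Matrix (Fin n) (Fin n) K)).map σ.1 = σ.1 c • 1
  ext i j
  by_cases hij : i = j
  · subst hij; simp [Matrix.map_apply]
  · simp [Matrix.map_apply, hij]

/-- the norm of a scalar times `g` -/
lemma ng_sc (σ : SA K) (g : GU K n) {c : K} (h : c * star c = 1) (k : ℕ) :
    ∃ h' : (∏ i ∈ range k, (σ.1 ^ i : RingAut K) c) * star (∏ i ∈ range k, (σ.1 ^ i : RingAut K) c) = 1,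
    ng σ (sc c h * g) k = sc (∏ i ∈ range k, (σ.1 ^ i : RingAut K) c) h' * ng σ g k := by
  induction k with
  | zero =>
    refine ⟨by simp, ?_⟩
    apply Subtype.ext
    show (1 : Matrix (Fin n) (Fin n) K) = (∏ i ∈ range 0, (σ.1 ^ i : RingAut K) c) • 1 * 1
    simp
  | succ k ih =>
    obtain ⟨h', ih⟩ := ih
    have e : (∏ i ∈ range (k + 1), (σ.1 ^ i : RingAut K) c)
        = c * σ.1 (∏ i ∈ range k, (σ.1 ^ i : RingAut K) c) := by
      rw [Finset.prod_range_succ', map_prod, mul_comm]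
      congr 1
      apply Finset.prod_congr rfl
      intro i _
      rw [pow_succ']
      rfl
    refine ⟨?_, ?_⟩
    · rw [e, star_mul', mul_mul_mul_comm, h, one_mul]
      exact map_norm σ h'
    · rw [ng_succ, ih, map_mul, mapGU_sc, ng_succ]
      apply Subtype.ext
      show (c • (1 : Matrix (Fin n) (Fin n) K)) * g.1 *
        ((σ.1 (∏ i ∈ range k, (σ.1 ^ i : RingAut K) c) • 1) * (mapGU σ (ng σ g k)).1)
        = ((∏ i ∈ range (k + 1), (σ.1 ^ i : RingAut K) c) • 1) * (g.1 * (mapGU σ (ng σ g k)).1)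
      rw [e]
      simp only [smul_mul_assoc, one_mul, mul_smul_comm, smul_smul]
      rw [mul_comm c]

/-- powers in `PΓU_n(q)` -/
lemma pow_eq (σ : SA K) (g : GU K n) (k : ℕ) :
    ((SemidirectProduct.inl (QuotientGroup.mk g) * SemidirectProduct.inr σ : PGamU K n)) ^ k
      = SemidirectProduct.inl (QuotientGroup.mk (ng σ g k)) * SemidirectProduct.inr (σ ^ k) := by
  induction k with
  | zero =>
    rw [pow_zero, ng_zero, QuotientGroup.mk_one, map_one, pow_zero, map_one, one_mul]
  | succ k ih =>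
    rw [pow_succ', ih, ng_succ, pow_succ' σ k, map_mul]
    have h1 : (SemidirectProduct.inr σ * SemidirectProduct.inl (QuotientGroup.mk (ng σ g k)) :
        PGamU K n) = SemidirectProduct.inl (QuotientGroup.mk (mapGU σ (ng σ g k))) *
          SemidirectProduct.inr σ := by
      have := SemidirectProduct.inl_aut (φ := act n) σ (QuotientGroup.mk (ng σ g k))
      rw [map_inv, eq_mul_inv_iff_mul_eq] at this
      rw [← this]
      rfl
    rw [QuotientGroup.mk_mul, map_mul]
    calc (SemidirectProduct.inl (QuotientGroup.mk g) * SemidirectProduct.inr σ : PGamU K n) *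
          (SemidirectProduct.inl (QuotientGroup.mk (ng σ g k)) * SemidirectProduct.inr (σ ^ k))
        = SemidirectProduct.inl (QuotientGroup.mk g) * (SemidirectProduct.inr σ *
          SemidirectProduct.inl (QuotientGroup.mk (ng σ g k))) * SemidirectProduct.inr (σ ^ k) := by
            simp only [mul_assoc]
      _ = _ := by rw [h1]; simp only [mul_assoc]

/-- a coboundary gives the conjugacy -/
lemma conj_of {σ : SA K} {g B : GU K n} (h : g * mapGU σ B = B) :
    (SemidirectProduct.inl (QuotientGroup.mk g) * SemidirectProduct.inr σ : PGamU K n)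
      = SemidirectProduct.inl (QuotientGroup.mk B) * SemidirectProduct.inr σ *
        (SemidirectProduct.inl (QuotientGroup.mk B))⁻¹ := by
  rw [eq_mul_inv_iff_mul_eq, mul_assoc]
  have := SemidirectProduct.inl_aut (φ := act n) σ (QuotientGroup.mk B)
  rw [map_inv, eq_mul_inv_iff_mul_eq] at this
  rw [← this, ← mul_assoc, ← map_mul]
  congr 2
  show (QuotientGroup.mk (g * mapGU σ B) : PGU K n) = QuotientGroup.mk B
  rw [h]

/-- the scalar step -/
lemma exists_scalar [Finite K] {σ : SA K} {p : ℕ} (hσ : orderOf σ.1 = p) (hp : Odd p) {c : K}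
    (hc : σ.1 c = c) (hcc : c * star c = 1) :
    ∃ a : K, a * star a = 1 ∧ ∏ i ∈ range p, (σ.1 ^ i : RingAut K) a = c := by
  obtain ⟨b, hb⟩ := Vale.Agent.P240.R2.H986.A5.exists_norm_eq σ.1 hσ hc
  have hc0 : c ≠ 0 := by rintro rfl; simp at hcc
  have hp0 : 0 < p := hp.pos
  have hb0 : b ≠ 0 := by
    rintro rfl
    have h0 := Finset.prod_eq_zero (f := fun i => (σ.1 ^ i : RingAut K) (0 : K))
      (Finset.mem_range.2 hp0) (map_zero _)
    exact hc0 (hb.symm.trans h0)
  have hsb : star b ≠ 0 := fun h => hb0 (star_eq_zero.1 h)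
  have hci : ∀ i : ℕ, (σ.1 ^ i : RingAut K) c = c := by
    intro i
    induction i with
    | zero => rfl
    | succ i ih =>
      rw [pow_succ']
      show σ.1 ((σ.1 ^ i : RingAut K) c) = c
      rw [ih, hc]
  have hst : ∀ (i : ℕ) (x : K), (σ.1 ^ i : RingAut K) (star x) = star ((σ.1 ^ i : RingAut K) x) := by
    intro i x
    exact SA_star (σ ^ i) x
  have hstar : ∏ i ∈ range p, (σ.1 ^ i : RingAut K) (star b) = star c := by
    have h0 : star (∏ i ∈ range p, (σ.1 ^ i : RingAut K) b) =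
        ∏ i ∈ range p, star ((σ.1 ^ i : RingAut K) b) := map_prod (starRingEnd K) _ _
    rw [← hb, h0]
    exact Finset.prod_congr rfl (fun i _ => hst i b)
  obtain ⟨m, rfl⟩ := hp
  have hsc : star c = c⁻¹ := eq_inv_of_mul_eq_one_right hcc
  have hss : star (star b) = b := star_star b
  refine ⟨c * ((b / star b) ^ m)⁻¹, ?_, ?_⟩
  · have h1 : star (b / star b) = (b / star b)⁻¹ := by
      rw [star_div₀, hss, inv_div]
    have h2 : (b / star b) * (star b / b) = 1 := by field_simp
    rw [star_mul', star_inv₀, star_pow, h1, hsc, inv_div]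
    have h3 : ((b / star b) ^ m)⁻¹ * ((star b / b) ^ m)⁻¹ = 1 := by
      rw [← mul_inv, ← mul_pow, h2, one_pow, inv_one]
    calc c * ((b / star b) ^ m)⁻¹ * (c⁻¹ * ((star b / b) ^ m)⁻¹)
        = (c * c⁻¹) * (((b / star b) ^ m)⁻¹ * ((star b / b) ^ m)⁻¹) := by ring
      _ = 1 := by rw [h3, mul_inv_cancel₀ hc0, one_mul]
  · simp only [map_mul, map_inv₀, map_pow, map_div₀, Finset.prod_mul_distrib, Finset.prod_inv_distrib,
      Finset.prod_pow, Finset.prod_div_distrib]
    rw [hb, hstar, Finset.prod_congr rfl (fun i _ => hci i), Finset.prod_const, Finset.card_range,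
      hsc, div_inv_eq_mul, ← pow_two, ← pow_mul, pow_succ, mul_comm (c ^ (2 * m)), mul_assoc,
      mul_inv_cancel₀ (pow_ne_zero _ hc0), mul_one]

end

/-- Hilbert 90 for unitary groups, the form proved by helper986 -/
def H90 : Prop :=
  ∀ (K : Type u) [Field K] [Fintype K] [StarRing K] (q : ℕ), 3 ≤ q → Nat.card K = q ^ 2 →
    (∀ x : K, star x = x ^ q) → ∀ (p : ℕ) [Fact p.Prime], p ≠ 2 → p ∣ q + 1 → ∀ σ : SA K,
    orderOf σ = p → ∀ (n : ℕ) (g : GU K n), ng σ g p = 1 → ∃ B : GU K n, g * mapGU σ B = B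

theorem stmtA5_of (h90 : H90.{u}) : StmtA5.{u} := by
  intro K _ _ _ q hq hK hs p _ hp2 hpq n hn x hx hxr
  have hp : p.Prime := Fact.out
  obtain ⟨g, hg⟩ := QuotientGroup.mk_surjective x.left
  have hxe : x = SemidirectProduct.inl (QuotientGroup.mk g) * SemidirectProduct.inr x.right := by
    rw [hg]
    exact (SemidirectProduct.inl_left_mul_inr_right x).symm
  set σ : SA K := x.right with hσd
  have hpow := hx
  rw [hxe, pow_eq] at hpow
  have hr : σ ^ p = 1 := by
    have := congrArg SemidirectProduct.right hpow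
    simpa only [SemidirectProduct.mul_right, SemidirectProduct.right_inl,
      SemidirectProduct.right_inr, one_mul, SemidirectProduct.one_right] using this
  have hl : (QuotientGroup.mk (ng σ g p) : PGU K n) = 1 := by
    rw [hr, map_one, mul_one] at hpow
    have := congrArg SemidirectProduct.left hpow
    simpa using this
  have hord : orderOf σ = p := orderOf_eq_prime hr hxr
  have hord1 : orderOf σ.1 = p := by rw [← hord]; exact Subgroup.orderOf_coe σ
  have hcen : ng σ g p ∈ Subgroup.center (GU K n) := (QuotientGroup.eq_one_iff _).1 hl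
  obtain ⟨ζ, _, hζ1, hζ2⟩ := H296.exists_zeta hK hs hp hpq
  obtain ⟨c, hc⟩ := (H296.mem_center_iff hζ1 hζ2 _).1 hcen
  have hcc : c * star c = 1 := by
    have h1 := mem_unitaryGroup_iff.1 (ng σ g p).2
    rw [hc, star_smul, star_one, smul_mul_smul_comm, mul_one] at h1
    have h2 := congrFun (congrFun h1 ⟨0, hn⟩) ⟨0, hn⟩
    simpa using h2
  have hNc : ng σ g p = sc c hcc := Subtype.ext hc
  have hσc : σ.1 c = c := by
    have h1 : g * mapGU σ (ng σ g p) = ng σ g p * mapGU (σ ^ p) g := by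
      rw [← ng_succ, ng_succ']
    rw [hr, mapGU_one, hNc, mapGU_sc, sc_comm c hcc g] at h1
    have h3 : (sc (σ.1 c) (map_norm σ hcc) : GU K n) = sc c hcc := mul_left_cancel h1
    have h2 := congrFun (congrFun (congrArg Subtype.val h3) ⟨0, hn⟩) ⟨0, hn⟩
    rw [sc_val, sc_val] at h2
    simpa using h2
  have hc0 : c ≠ 0 := by rintro rfl; simp at hcc
  have hsc : star c = c⁻¹ := eq_inv_of_mul_eq_one_right hcc
  have hcc' : c⁻¹ * star c⁻¹ = 1 := by
    rw [star_inv₀, hsc, inv_inv, inv_mul_cancel₀ hc0]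
  obtain ⟨a, ha, hac⟩ := exists_scalar hord1 (hp.odd_of_ne_two hp2) (c := c⁻¹)
    (by rw [map_inv₀, hσc]) hcc'
  obtain ⟨h', e⟩ := ng_sc σ g ha p
  have hN1 : ng σ (sc a ha * g) p = 1 := by
    rw [e, hNc]
    apply Subtype.ext
    show ((∏ i ∈ range p, (σ.1 ^ i : RingAut K) a) • (1 : Matrix (Fin n) (Fin n) K)) * (c • 1) = 1
    rw [hac, smul_mul_smul_comm, mul_one, inv_mul_cancel₀ hc0, one_smul]
  obtain ⟨B, hB⟩ := h90 K q hq hK hs p hp2 hpq σ hord n _ hN1
  refine ⟨QuotientGroup.mk B, ?_⟩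
  rw [← conj_of hB, QuotientGroup.mk_mul, mk_sc, one_mul]
  exact hxe

end Vale.Agent.P240.R2.H613
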