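import Vale.Agent.P240.R2.H938.W2
import Vale.Agent.P240.R2.H472.PH
import Vale.Agent.P240.R2.H38.W1

/-!
EVEN UNITARY LINE: the instances `NumD` and `SHom` for `PSU_n(q)` (P240, row EI).
-/

set_option autoImplicit false
set_option linter.all false

namespace Vale.Agent.P240.R2.H613.EI

open Matrix Vale.Agent.P240.R2.AS Vale.Agent.P240.R2.H38 Vale.Agent.P240.R2.H938
open scoped Classical

universe u v w

noncomputable section

section
variable {K : Type u} [Field K] [Fintype K] [StarRing K] {n q : ℕ} {p : ℕ} {ζ : K}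

/-- a semilinear map with diagonal linear part that fixes `SU` up to scalars is a scalar -/
theorem uniq_SU (hn : 3 ≤ n) (hq : 3 ≤ q) (hK : Nat.card K = q ^ 2) (hs : ∀ x : K, star x = x ^ q)
    (u : GU K n) (σ : K ≃+* K) (hσ : ∀ a, σ (star a) = star (σ a))
    (hd : ∃ d : Fin n → K, u.1 = diagonal d)
    (hu : ∀ k : H38.SU K n, ∃ a : K, u.1 * (mx k).map σ * star u.1 = a • mx k) :
    (∀ x, σ x = x) ∧ ∃ a : K, u.1 = a • (1 : Matrix (Fin n) (Fin n) K) := by
  obtain ⟨d, hd⟩ := hd
  have hdn : ∀ i, d i * star (d i) = 1 := by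
    intro i
    have h3 := gu_star u
    rw [hd, star_eq_conjTranspose, diagonal_conjTranspose, diagonal_mul_diagonal, ← diagonal_one] at h3
    exact congrFun (diagonal_injective h3) i
  have hent : ∀ k : H38.SU K n, ∃ a : K, ∀ r s, d r * σ (mx k r s) * star (d s) = a * mx k r s := by
    intro k
    obtain ⟨a, ha⟩ := hu k
    refine ⟨a, fun r s => ?_⟩
    have h3 := congrFun (congrFun ha r) s
    rw [hd, star_eq_conjTranspose, diagonal_conjTranspose, mul_diagonal, diagonal_mul,
      Matrix.smul_apply] at h3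
    exact h3
  set i0 : Fin n := ⟨0, by omega⟩ with hi0
  set j0 : Fin n := ⟨1, by omega⟩ with hj0
  set l0 : Fin n := ⟨2, by omega⟩ with hl0
  have e1 : i0 ≠ j0 := by intro h; have := congrArg Fin.val h; simp [hi0, hj0] at this
  have e2 : l0 ≠ i0 := by intro h; have := congrArg Fin.val h; simp [hi0, hl0] at this
  have e3 : l0 ≠ j0 := by intro h; have := congrArg Fin.val h; simp [hl0, hj0] at this
  have hσ1 : σ = 1 := by
    refine H401.eq_one_of_norm_one hK hs σ fun x hx => ?_
    obtain ⟨k, k1, -, k3⟩ := H38.exists_rot e1 (α := x) (β := 0) (by rw [hx, zero_mul, add_zero])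
    obtain ⟨a, ha⟩ := hent k
    have h3 := ha l0 l0
    rw [k3 l0 e2 e3, map_one, mul_one, hdn, mul_one] at h3
    have h4 := ha i0 i0
    rw [k1, ← h3, one_mul] at h4
    calc σ x = (d i0 * star (d i0)) * σ x := by rw [hdn, one_mul]
      _ = d i0 * σ x * star (d i0) := by ring
      _ = x := h4
  subst hσ1
  refine ⟨fun x => rfl, d i0, ?_⟩
  obtain ⟨x, hx0, hx1⟩ := H257.exists_norm_ne hq (by rw [← Nat.card_eq_fintype_card]; exact hK) hs
  obtain ⟨y, hy⟩ := H472.exists_norm (K := K) (q := q) (c := 1 - star x * x)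
    (by rw [← Nat.card_eq_fintype_card]; exact hK) hs (by
      intro h; exact hx1 (sub_eq_zero.1 h).symm) (by
      rw [star_sub, star_one, H257.nrm_star])
  have hy0 : y ≠ 0 := by
    rintro rfl
    rw [mul_zero] at hy
    exact hx1 (sub_eq_zero.1 hy.symm).symm
  have hxy : x * star x + y * star y = 1 := by
    rw [mul_comm y, hy]; ring
  rw [hd]
  ext i j
  rw [diagonal_apply, Matrix.smul_apply, one_apply]
  by_cases hij : i = j
  · subst hij
    rw [if_pos rfl, if_pos rfl, smul_eq_mul, mul_one]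
    by_cases hi : i0 = i
    · rw [hi]
    · obtain ⟨k, k1, k2, -⟩ := H38.exists_rot hi hxy
      obtain ⟨a, ha⟩ := hent k
      have h3 := ha i0 i0
      have h4 := ha i0 i
      have e5 : ∀ z : K, (1 : K ≃+* K) z = z := fun z => rfl
      rw [k1, e5] at h3
      rw [k2, e5] at h4
      have h5 : a = 1 := by
        have h6 : a * x = x := by
          rw [← h3]
          calc d i0 * x * star (d i0) = (d i0 * star (d i0)) * x := by ring
            _ = x := by rw [hdn, one_mul]
        exact mul_right_cancel₀ hx0 (h6.trans (one_mul x).symm)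
      rw [h5, one_mul] at h4
      have h6 : d i0 * star (d i) = 1 := by
        have h7 : (d i0 * star (d i)) * (-star y) = 1 * (-star y) := by
          rw [one_mul]
          calc (d i0 * star (d i)) * (-star y) = d i0 * -star y * star (d i) := by ring
            _ = -star y := h4
        exact mul_right_cancel₀ (neg_ne_zero.2 (by simpa using hy0)) h7
      calc d i = (d i0 * star (d i)) * d i := by rw [h6, one_mul]
        _ = d i0 * (d i * star (d i)) := by ring
        _ = d i0 := by rw [hdn, mul_one]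
  · rw [if_neg hij, if_neg hij, smul_zero]

omit [Fintype K] in
/-- a scalar of norm one whose `n`-th power has order `p` does not exist if the `p`-part of `n` is at
least that of `q + 1` -/
theorem no_scalar (hs : ∀ x : K, star x = x ^ q) (hp : p.Prime) (hno : ¬ p * n.gcd (q + 1) ∣ q + 1)
    (hζ : ζ ^ p = 1) (hζ1 : ζ ≠ 1) (b : K) (hb : b * star b = 1) (k : ℕ)
    (h : b ^ n * ζ ^ k = 1) : ζ ^ k = 1 := by
  obtain ⟨m, hm⟩ := Nat.gcd_dvd_right n (q + 1)
  obtain ⟨n', hn'⟩ := Nat.gcd_dvd_left n (q + 1)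
  have hbq : b ^ (q + 1) = 1 := by rw [pow_succ', ← hs]; exact hb
  have h1 : (b ^ n) ^ m = 1 := by
    rw [← pow_mul]
    have h2 : n * m = (q + 1) * n' := by
      calc n * m = (n.gcd (q + 1) * n') * m := by rw [← hn']
        _ = (n.gcd (q + 1) * m) * n' := by ring
        _ = (q + 1) * n' := by rw [← hm]
    rw [h2, pow_mul, hbq, one_pow]
  have h2 : ζ ^ (k * m) = 1 := by
    have h3 := congrArg (fun x => x ^ m) h
    simp only [mul_pow, h1, one_mul, one_pow] at h3
    rw [pow_mul]
    exact h3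
  have hord : orderOf ζ = p := by
    haveI : Fact p.Prime := ⟨hp⟩
    exact orderOf_eq_prime hζ hζ1
  have h3 : p ∣ k * m := by rw [← hord]; exact orderOf_dvd_of_pow_eq_one h2
  have h4 : ¬ p ∣ m := by
    intro h5
    apply hno
    conv_rhs => rw [hm]
    rw [mul_comm]
    exact Nat.mul_dvd_mul_left _ h5
  have h5 : p ∣ k := (hp.dvd_mul.1 h3).resolve_right h4
  obtain ⟨r, rfl⟩ := h5
  rw [pow_mul, hζ, one_pow]

/-- the numbers -/
theorem numD_of (hn : 5 ≤ n) (hq : 3 ≤ q) (hK : Nat.card K = q ^ 2) (hs : ∀ x : K, star x = x ^ q)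
    (hp : p.Prime) (hpn : p ∣ n) (hno : ¬ p * n.gcd (q + 1) ∣ q + 1) (hζ : ζ ^ p = 1)
    (hζ1 : ζ ≠ 1) (hζs : ζ * star ζ = 1) : NumD K p n ζ where
  hn := hn
  pow := hζ
  ne := hζ1
  st := hζs
  dvd := hpn
  no := fun b hb k h => no_scalar hs hp hno hζ hζ1 b hb k h
  uniq := fun u σ hσ hd hu => uniq_SU (by omega) hq hK hs u σ hσ hd hu

/-- the numbers for `p = 2`, `ζ = -1` -/
theorem numD_two (hn : 5 ≤ n) (he : Even n) (hqo : Odd q) (hq : 3 ≤ q) (hK : Nat.card K = q ^ 2)
    (hs : ∀ x : K, star x = x ^ q) (hno : ¬ 2 * n.gcd (q + 1) ∣ q + 1) :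
    NumD K 2 n (-1) := by
  have h2 : (2 : K) ≠ 0 := by
    intro h
    have h4 : ((Nat.card K : ℕ) : K) = 0 := by
      rw [Nat.card_eq_fintype_card]; exact Nat.cast_card_eq_zero K
    rw [hK] at h4
    push_cast at h4
    have h5 : (q : K) = 0 := pow_eq_zero_iff (two_ne_zero) |>.1 h4
    obtain ⟨m, hm⟩ := hqo
    rw [hm] at h5
    push_cast at h5
    rw [h, zero_mul, zero_add] at h5
    exact one_ne_zero h5
  refine numD_of hn hq hK hs Nat.prime_two he.two_dvd hno (by ring) ?_ (by simp)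
  intro h
  apply h2
  linear_combination -h

end

section
variable {K : Type} [Field K] [Fintype K] [StarRing K] {n q : ℕ} {G : Type v} [Group G]

/-- `SHom` for every subgroup isomorphic to `PSU_n(q)` -/
theorem sHom_of (hq : 3 < q) (hK : Nat.card K = q ^ 2) (hs : ∀ x : K, star x = x ^ q)
    (h2 : (2 : K) ≠ 0) (hn : 3 ≤ n) (L : Subgroup G) (e : PSU K n ≃* L) (p : ℕ) :
    ∃ ε : H38.SU K n →* G, SHom p L ε := by
  obtain ⟨ε, _, h3, h4, h5⟩ := H472.exists_psuHom hq hK hs h2 hn L e
  refine ⟨ε, h3, h4, fun u x hx _ _ => ?_⟩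
  obtain ⟨g, σ, h⟩ := h5 x hx
  exact ⟨g, σ, h.1, h.2⟩

end

end

end Vale.Agent.P240.R2.H613.EI
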