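import Vale.Agent.P240.R2.H986.X.Defs
import Mathlib.Tactic.FinCases
import Mathlib.Tactic.Ring

/-!
The root system of type `G_2`: combinatorial data.
-/

set_option autoImplicit false
set_option linter.all false

namespace Vale.Agent.P240.R2.H613.G2

open Vale.Agent.P240.R2.H986.X

/-- heights -/
def tht (i : Fin 12) : ℤ := (![1, 1, 2, 3, 4, 5, -1, -1, -2, -3, -4, -5] : Fin 12 → ℤ) i

/-- negatives -/
def tneg (i : Fin 12) : Fin 12 := i + 6

/-- reflections -/
def ts (i j : Fin 12) : Fin 12 := Fin.ofNat 12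
  ((78390016038032993729213550529172085784155561907415937833415664841711783660524290266379528518253048742875058801306063884964785096238656860758322081683027392041241926876341062 >>> (4 * (12 * i.val + j.val))) &&& 15)

/-- Cartan integers -/
def tpr (j i : Fin 12) : ℤ :=
  (((7772544041324670161016910656691994763858112678004683256966440917496596611072053454668342096252378357884029688340577998669911279765 >>> (3 * (12 * j.val + i.val))) &&& 7 : ℕ) : ℤ) - 3

/-- cones -/
def tcone (i j k : Fin 12) : Prop := Nat.testBit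
  1626981955696345953377176999682534035687169217793808526094986544290602604283807779537660784612329885978942136323162637837707237947935089727856337509670298621891020985353118095845129066355886610526347070164798117407689800352958057548820847957836579932997710533451092945871260316199225702610493641789286866719026981710928942596034345899622517513422344897623543079827349879432508400452685205771369623013434975200786129632850367010698089018320247236915419399255194380640877079787999705391077086158110720
  (144 * i.val + 12 * j.val + k.val) = true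

instance (i j k : Fin 12) : Decidable (tcone i j k) := by unfold tcone; infer_instance

/-- simple roots -/
def tsimp (i : Fin 12) : Prop := i = 0 ∨ i = 1

instance (i : Fin 12) : Decidable (tsimp i) := by unfold tsimp; infer_instance

/-- words in the simple reflections -/
def tw (l : List (Fin 12)) (j : Fin 12) : Fin 12 := l.foldr ts j

/-- the elements of the Weyl group -/
def wds : List (List (Fin 12)) := [[], [0], [1], [0, 1], [1, 0], [0, 1, 0], [1, 0, 1], [0, 1, 0, 1],
  [1, 0, 1, 0], [0, 1, 0, 1, 0], [1, 0, 1, 0, 1], [0, 1, 0, 1, 0, 1]]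

/-- representatives of the pairs of roots -/
def bps : List (Fin 12 × Fin 12) := [(0, 1), (0, 2), (1, 4), (0, 5), (0, 3), (1, 5), (0, 4)]

lemma t_ht_ne : ∀ i, tht i ≠ 0 := by decide +kernel
lemma t_ht_neg : ∀ i, tht (tneg i) = - tht i := by decide +kernel
lemma t_neg_neg : ∀ i, tneg (tneg i) = i := by decide +kernel
lemma t_s_s : ∀ i j, ts i (ts i j) = j := by decide +kernel
lemma t_s_self : ∀ i, ts i i = tneg i := by decide +kernel
lemma t_s_neg : ∀ i j, ts i (tneg j) = tneg (ts i j) := by decide +kernel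
lemma t_neg_s : ∀ i j, ts (tneg i) j = ts i j := by decide +kernel
lemma t_s_conj : ∀ i j k, ts (ts i j) k = ts i (ts j (ts i k)) := by decide +kernel
lemma t_simp_pos : ∀ i, tsimp i → 0 < tht i := by decide +kernel
lemma t_s_pos : ∀ i j, tsimp i → 0 < tht j → j ≠ i → 0 < tht (ts i j) := by decide +kernel
lemma t_cone_ht : ∀ i j k, tcone i j k → 0 < tht i → 0 < tht j → tht i < tht k ∧ tht j < tht k := by
  decide +kernel
lemma t_cone_simp : ∀ i j k, tsimp i → 0 < tht j → j ≠ i → tcone i j k → k ≠ i := by decide +kernel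
lemma t_cone_symm : ∀ i j k, tcone i j k → tcone j i k := by decide +kernel
lemma t_cone_neg : ∀ i j k, tcone i j k → tcone (tneg i) (tneg j) (tneg k) := by decide +kernel
lemma t_cone_mixed : ∀ i j k, tsimp i → tsimp j → i ≠ j → ¬ tcone (tneg i) j k := by decide +kernel
lemma t_pr_self : ∀ i, tpr i i = 2 := by decide +kernel
lemma t_pr_neg : ∀ i j, tpr (tneg j) i = - tpr j i := by decide +kernel
lemma t_neg_pr : ∀ i j, tpr j (tneg i) = - tpr j i := by decide +kernel
lemma t_pr_s : ∀ i j, tpr (ts i j) i = - tpr j i := by decide +kernel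
lemma t_long : ∀ j, 0 < tht j → tht (([0, 1, 0, 1, 0, 1] : List (Fin 12)).foldr ts j) < 0 := by
  decide +kernel
lemma t_adj : ∀ i j, tsimp i → tsimp j → i ≠ j → tpr j i ≠ 0 → ts i j ≠ j ∧
    (tpr j i = -1 ∨ tpr i j = -1) := by decide +kernel
lemma t_pr_bd : ∀ i j, tsimp i → tsimp j → i ≠ j → -3 ≤ tpr j i ∧ tpr j i ≤ 0 := by decide +kernel
lemma t_pr_zero : ∀ i j, tpr j i = 0 ↔ tpr i j = 0 := by decide +kernel
lemma t_s_fix : ∀ i j, tpr j i = 0 → ts i j = j := by decide +kernel
lemma t_pr_inv : ∀ i a b, tpr (ts i a) (ts i b) = tpr a b := by decide +kernel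
lemma t_cone_s : ∀ i a b c, tsimp i → tcone a b c → tcone (ts i a) (ts i b) (ts i c) := by
  decide +kernel
lemma t_cover : ∀ j, ∃ w ∈ wds, ∃ k, tsimp k ∧ tw w k = j := by decide +kernel
lemma t_pairs : ∀ i j, i ≠ j → i ≠ tneg j → ∃ w ∈ wds, ∃ b ∈ bps,
    (tw w b.1 = i ∧ tw w b.2 = j) ∨ (tw w b.2 = i ∧ tw w b.1 = j) := by decide +kernel
lemma t_wds : ∀ w ∈ wds, ∀ i ∈ w, tsimp i := by decide +kernel

/-- the root system of type `G_2` -/
def g2rc : RC (Fin 12) where
  ht := tht
  neg := tneg
  s := ts
  simp := tsimp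
  pr := tpr
  cone := tcone
  ht_ne := t_ht_ne
  ht_neg := t_ht_neg
  neg_neg := t_neg_neg
  s_s := t_s_s
  s_self := t_s_self
  s_neg := t_s_neg
  neg_s := t_neg_s
  s_conj := t_s_conj
  simp_pos := t_simp_pos
  s_pos := t_s_pos
  cone_ht := t_cone_ht
  cone_simp := t_cone_simp
  cone_symm := t_cone_symm
  cone_neg := t_cone_neg
  cone_mixed := t_cone_mixed
  pr_self := t_pr_self
  pr_neg := t_pr_neg
  neg_pr := t_neg_pr
  pr_s := t_pr_s
  long := ⟨[0, 1, 0, 1, 0, 1], by decide, t_long⟩
  gen := by
    intro p h1 h2 j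
    obtain ⟨w, hw, k, hk, rfl⟩ := t_cover j
    have h3 := t_wds w hw
    clear hw
    induction w with
    | nil => exact h1 k hk
    | cons i w ih =>
      refine h2 i _ (h3 i (List.mem_cons_self ..)) (ih fun a ha => h3 a (List.mem_cons_of_mem _ ha))
  conn := by
    intro p ⟨i, hi, hpi⟩ h j hj
    have e01 : tpr 1 0 ≠ 0 := by decide +kernel
    have e10 : tpr 0 1 ≠ 0 := by decide +kernel
    rcases hi with rfl | rfl <;> rcases hj with rfl | rfl
    · exact hpi
    · exact h 0 1 (Or.inl rfl) (Or.inr rfl) hpi e01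
    · exact h 1 0 (Or.inr rfl) (Or.inl rfl) hpi e10
    · exact hpi
  adj := t_adj
  pr_bd := t_pr_bd
  pr_zero := t_pr_zero
  s_fix := t_s_fix
  ex := ⟨0, Or.inl rfl⟩

end Vale.Agent.P240.R2.H613.G2
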