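import Vale.Agent.P240.R2.H38.G5
import Vale.Agent.P240.R2.H613.GT1

/-!
The root elements of `G_2(F)`.
-/

set_option autoImplicit false
set_option linter.all false

namespace Vale.Agent.P240.R2.H613.G2

open Subgroup Matrix Vale.Agent.P240.H195 Vale.Agent.P240.R2.H38.Oct

section
variable {F : Type*} [Field F]

/-- the matrix of a root element -/
def PM0 (t : F) : Matrix (Fin 8) (Fin 8) F :=
  !![1, t, 0, 0, 0, 0, 0, 0;
     0, 1, 0, 0, 0, 0, 0, 0;
     0, 0, 1, t, -t, -t ^ 2, 0, 0;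
     0, 0, 0, 1, 0, -t, 0, 0;
     0, 0, 0, 0, 1, t, 0, 0;
     0, 0, 0, 0, 0, 1, 0, 0;
     0, 0, 0, 0, 0, 0, 1, -t;
     0, 0, 0, 0, 0, 0, 0, 1]

lemma PM0_low (t : F) : ∀ i j : Fin 8, j < i → PM0 t i j = 0 := by
  intro i j h
  fin_cases i <;> fin_cases j <;> first | rfl | exact absurd h (by decide)

lemma PM0_diag (t : F) : ∀ i : Fin 8, PM0 t i i = 1 := by
  intro i
  fin_cases i <;> rfl

lemma PM0_det (t : F) : (PM0 t).det = 1 := by
  rw [Matrix.det_of_isUpperTriangular (M := PM0 t) fun i j hij => PM0_low t i j hij]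
  simp only [PM0_diag, Finset.prod_const_one]

/-- a positive root element -/
def P0 (t : F) : SLm 7 F := ⟨PM0 t, PM0_det t⟩

/-- a negative root element -/
def M0 (t : F) : SLm 7 F := ⟨(PM0 t)ᵀ, by rw [Matrix.det_transpose]; exact PM0_det _⟩

lemma P0_mv (t : F) (v : Fin 8 → F) : (P0 t).1 *ᵥ v = ![v 0 + t * v 1, v 1, v 2 + t * v 3 - t * v 4 - t ^ 2 * v 5, v 3 - t * v 5, v 4 + t * v 5, v 5, v 6 - t * v 7, v 7] := by
  funext i
  fin_cases i <;> simp [P0, PM0, Matrix.mulVec, dotProduct, Fin.sum_univ_succ] <;> ring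

lemma M0_mv (t : F) (v : Fin 8 → F) : (M0 t).1 *ᵥ v = ![v 0, v 1 + t * v 0, v 2, v 3 + t * v 2, v 4 - t * v 2, v 5 - t ^ 2 * v 2 - t * v 3 + t * v 4, v 6, v 7 - t * v 6] := by
  funext i
  fin_cases i <;> simp [M0, PM0, Matrix.mulVec, dotProduct, Fin.sum_univ_succ] <;> ring

lemma P0_mem (t : F) : P0 t ∈ G2 F := by
  intro v w
  rw [P0_mv, P0_mv, P0_mv]
  funext i
  fin_cases i <;> simp [zmul] <;> ring

lemma P0_add (s t : F) : P0 (s + t) = P0 s * P0 t := by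
  refine ext_mv fun v => ?_
  rw [mul_mv, P0_mv, P0_mv, P0_mv]
  funext i
  fin_cases i <;> simp <;> ring

lemma M0_mem (t : F) : M0 t ∈ G2 F := by
  intro v w
  rw [M0_mv, M0_mv, M0_mv]
  funext i
  fin_cases i <;> simp [zmul] <;> ring

lemma M0_add (s t : F) : M0 (s + t) = M0 s * M0 t := by
  refine ext_mv fun v => ?_
  rw [mul_mv, M0_mv, M0_mv, M0_mv]
  funext i
  fin_cases i <;> simp <;> ring

/-- the matrix of a root element -/
def PM1 (t : F) : Matrix (Fin 8) (Fin 8) F :=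
  !![1, 0, 0, 0, 0, 0, 0, 0;
     0, 1, -t, 0, 0, 0, 0, 0;
     0, 0, 1, 0, 0, 0, 0, 0;
     0, 0, 0, 1, 0, 0, 0, 0;
     0, 0, 0, 0, 1, 0, 0, 0;
     0, 0, 0, 0, 0, 1, t, 0;
     0, 0, 0, 0, 0, 0, 1, 0;
     0, 0, 0, 0, 0, 0, 0, 1]

lemma PM1_low (t : F) : ∀ i j : Fin 8, j < i → PM1 t i j = 0 := by
  intro i j h
  fin_cases i <;> fin_cases j <;> first | rfl | exact absurd h (by decide)

lemma PM1_diag (t : F) : ∀ i : Fin 8, PM1 t i i = 1 := by
  intro i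
  fin_cases i <;> rfl

lemma PM1_det (t : F) : (PM1 t).det = 1 := by
  rw [Matrix.det_of_isUpperTriangular (M := PM1 t) fun i j hij => PM1_low t i j hij]
  simp only [PM1_diag, Finset.prod_const_one]

/-- a positive root element -/
def P1 (t : F) : SLm 7 F := ⟨PM1 t, PM1_det t⟩

/-- a negative root element -/
def M1 (t : F) : SLm 7 F := ⟨(PM1 t)ᵀ, by rw [Matrix.det_transpose]; exact PM1_det _⟩

lemma P1_mv (t : F) (v : Fin 8 → F) : (P1 t).1 *ᵥ v = ![v 0, v 1 - t * v 2, v 2, v 3, v 4, v 5 + t * v 6, v 6, v 7] := by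
  funext i
  fin_cases i <;> simp [P1, PM1, Matrix.mulVec, dotProduct, Fin.sum_univ_succ] <;> ring

lemma M1_mv (t : F) (v : Fin 8 → F) : (M1 t).1 *ᵥ v = ![v 0, v 1, v 2 - t * v 1, v 3, v 4, v 5, v 6 + t * v 5, v 7] := by
  funext i
  fin_cases i <;> simp [M1, PM1, Matrix.mulVec, dotProduct, Fin.sum_univ_succ] <;> ring

lemma P1_mem (t : F) : P1 t ∈ G2 F := by
  intro v w
  rw [P1_mv, P1_mv, P1_mv]
  funext i
  fin_cases i <;> simp [zmul] <;> ring

lemma P1_add (s t : F) : P1 (s + t) = P1 s * P1 t := by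
  refine ext_mv fun v => ?_
  rw [mul_mv, P1_mv, P1_mv, P1_mv]
  funext i
  fin_cases i <;> simp <;> ring

lemma M1_mem (t : F) : M1 t ∈ G2 F := by
  intro v w
  rw [M1_mv, M1_mv, M1_mv]
  funext i
  fin_cases i <;> simp [zmul] <;> ring

lemma M1_add (s t : F) : M1 (s + t) = M1 s * M1 t := by
  refine ext_mv fun v => ?_
  rw [mul_mv, M1_mv, M1_mv, M1_mv]
  funext i
  fin_cases i <;> simp <;> ring

/-- the matrix of a root element -/
def PM2 (t : F) : Matrix (Fin 8) (Fin 8) F :=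
  !![1, 0, t, 0, 0, 0, 0, 0;
     0, 1, 0, -t, t, 0, -t ^ 2, 0;
     0, 0, 1, 0, 0, 0, 0, 0;
     0, 0, 0, 1, 0, 0, t, 0;
     0, 0, 0, 0, 1, 0, -t, 0;
     0, 0, 0, 0, 0, 1, 0, -t;
     0, 0, 0, 0, 0, 0, 1, 0;
     0, 0, 0, 0, 0, 0, 0, 1]

lemma PM2_low (t : F) : ∀ i j : Fin 8, j < i → PM2 t i j = 0 := by
  intro i j h
  fin_cases i <;> fin_cases j <;> first | rfl | exact absurd h (by decide)

lemma PM2_diag (t : F) : ∀ i : Fin 8, PM2 t i i = 1 := by
  intro i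
  fin_cases i <;> rfl

lemma PM2_det (t : F) : (PM2 t).det = 1 := by
  rw [Matrix.det_of_isUpperTriangular (M := PM2 t) fun i j hij => PM2_low t i j hij]
  simp only [PM2_diag, Finset.prod_const_one]

/-- a positive root element -/
def P2 (t : F) : SLm 7 F := ⟨PM2 t, PM2_det t⟩

/-- a negative root element -/
def M2 (t : F) : SLm 7 F := ⟨(PM2 t)ᵀ, by rw [Matrix.det_transpose]; exact PM2_det _⟩

lemma P2_mv (t : F) (v : Fin 8 → F) : (P2 t).1 *ᵥ v = ![v 0 + t * v 2, v 1 - t * v 3 + t * v 4 - t ^ 2 * v 6, v 2, v 3 + t * v 6, v 4 - t * v 6, v 5 - t * v 7, v 6, v 7] := by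
  funext i
  fin_cases i <;> simp [P2, PM2, Matrix.mulVec, dotProduct, Fin.sum_univ_succ] <;> ring

lemma M2_mv (t : F) (v : Fin 8 → F) : (M2 t).1 *ᵥ v = ![v 0, v 1, v 2 + t * v 0, v 3 - t * v 1, v 4 + t * v 1, v 5, v 6 - t ^ 2 * v 1 + t * v 3 - t * v 4, v 7 - t * v 5] := by
  funext i
  fin_cases i <;> simp [M2, PM2, Matrix.mulVec, dotProduct, Fin.sum_univ_succ] <;> ring

lemma P2_mem (t : F) : P2 t ∈ G2 F := by
  intro v w
  rw [P2_mv, P2_mv, P2_mv]
  funext i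
  fin_cases i <;> simp [zmul] <;> ring

lemma P2_add (s t : F) : P2 (s + t) = P2 s * P2 t := by
  refine ext_mv fun v => ?_
  rw [mul_mv, P2_mv, P2_mv, P2_mv]
  funext i
  fin_cases i <;> simp <;> ring

lemma M2_mem (t : F) : M2 t ∈ G2 F := by
  intro v w
  rw [M2_mv, M2_mv, M2_mv]
  funext i
  fin_cases i <;> simp [zmul] <;> ring

lemma M2_add (s t : F) : M2 (s + t) = M2 s * M2 t := by
  refine ext_mv fun v => ?_
  rw [mul_mv, M2_mv, M2_mv, M2_mv]
  funext i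
  fin_cases i <;> simp <;> ring

/-- the matrix of a root element -/
def PM3 (t : F) : Matrix (Fin 8) (Fin 8) F :=
  !![1, 0, 0, t, -t, 0, 0, -t ^ 2;
     0, 1, 0, 0, 0, t, 0, 0;
     0, 0, 1, 0, 0, 0, -t, 0;
     0, 0, 0, 1, 0, 0, 0, -t;
     0, 0, 0, 0, 1, 0, 0, t;
     0, 0, 0, 0, 0, 1, 0, 0;
     0, 0, 0, 0, 0, 0, 1, 0;
     0, 0, 0, 0, 0, 0, 0, 1]

lemma PM3_low (t : F) : ∀ i j : Fin 8, j < i → PM3 t i j = 0 := by
  intro i j h
  fin_cases i <;> fin_cases j <;> first | rfl | exact absurd h (by decide)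

lemma PM3_diag (t : F) : ∀ i : Fin 8, PM3 t i i = 1 := by
  intro i
  fin_cases i <;> rfl

lemma PM3_det (t : F) : (PM3 t).det = 1 := by
  rw [Matrix.det_of_isUpperTriangular (M := PM3 t) fun i j hij => PM3_low t i j hij]
  simp only [PM3_diag, Finset.prod_const_one]

/-- a positive root element -/
def P3 (t : F) : SLm 7 F := ⟨PM3 t, PM3_det t⟩

/-- a negative root element -/
def M3 (t : F) : SLm 7 F := ⟨(PM3 t)ᵀ, by rw [Matrix.det_transpose]; exact PM3_det _⟩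

lemma P3_mv (t : F) (v : Fin 8 → F) : (P3 t).1 *ᵥ v = ![v 0 + t * v 3 - t * v 4 - t ^ 2 * v 7, v 1 + t * v 5, v 2 - t * v 6, v 3 - t * v 7, v 4 + t * v 7, v 5, v 6, v 7] := by
  funext i
  fin_cases i <;> simp [P3, PM3, Matrix.mulVec, dotProduct, Fin.sum_univ_succ] <;> ring

lemma M3_mv (t : F) (v : Fin 8 → F) : (M3 t).1 *ᵥ v = ![v 0, v 1, v 2, v 3 + t * v 0, v 4 - t * v 0, v 5 + t * v 1, v 6 - t * v 2, v 7 - t ^ 2 * v 0 - t * v 3 + t * v 4] := by
  funext i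
  fin_cases i <;> simp [M3, PM3, Matrix.mulVec, dotProduct, Fin.sum_univ_succ] <;> ring

lemma P3_mem (t : F) : P3 t ∈ G2 F := by
  intro v w
  rw [P3_mv, P3_mv, P3_mv]
  funext i
  fin_cases i <;> simp [zmul] <;> ring

lemma P3_add (s t : F) : P3 (s + t) = P3 s * P3 t := by
  refine ext_mv fun v => ?_
  rw [mul_mv, P3_mv, P3_mv, P3_mv]
  funext i
  fin_cases i <;> simp <;> ring

lemma M3_mem (t : F) : M3 t ∈ G2 F := by
  intro v w
  rw [M3_mv, M3_mv, M3_mv]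
  funext i
  fin_cases i <;> simp [zmul] <;> ring

lemma M3_add (s t : F) : M3 (s + t) = M3 s * M3 t := by
  refine ext_mv fun v => ?_
  rw [mul_mv, M3_mv, M3_mv, M3_mv]
  funext i
  fin_cases i <;> simp <;> ring

/-- the matrix of a root element -/
def PM4 (t : F) : Matrix (Fin 8) (Fin 8) F :=
  !![1, 0, 0, 0, 0, t, 0, 0;
     0, 1, 0, 0, 0, 0, 0, 0;
     0, 0, 1, 0, 0, 0, 0, -t;
     0, 0, 0, 1, 0, 0, 0, 0;
     0, 0, 0, 0, 1, 0, 0, 0;
     0, 0, 0, 0, 0, 1, 0, 0;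
     0, 0, 0, 0, 0, 0, 1, 0;
     0, 0, 0, 0, 0, 0, 0, 1]

lemma PM4_low (t : F) : ∀ i j : Fin 8, j < i → PM4 t i j = 0 := by
  intro i j h
  fin_cases i <;> fin_cases j <;> first | rfl | exact absurd h (by decide)

lemma PM4_diag (t : F) : ∀ i : Fin 8, PM4 t i i = 1 := by
  intro i
  fin_cases i <;> rfl

lemma PM4_det (t : F) : (PM4 t).det = 1 := by
  rw [Matrix.det_of_isUpperTriangular (M := PM4 t) fun i j hij => PM4_low t i j hij]
  simp only [PM4_diag, Finset.prod_const_one]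

/-- a positive root element -/
def P4 (t : F) : SLm 7 F := ⟨PM4 t, PM4_det t⟩

/-- a negative root element -/
def M4 (t : F) : SLm 7 F := ⟨(PM4 t)ᵀ, by rw [Matrix.det_transpose]; exact PM4_det _⟩

lemma P4_mv (t : F) (v : Fin 8 → F) : (P4 t).1 *ᵥ v = ![v 0 + t * v 5, v 1, v 2 - t * v 7, v 3, v 4, v 5, v 6, v 7] := by
  funext i
  fin_cases i <;> simp [P4, PM4, Matrix.mulVec, dotProduct, Fin.sum_univ_succ] <;> ring

lemma M4_mv (t : F) (v : Fin 8 → F) : (M4 t).1 *ᵥ v = ![v 0, v 1, v 2, v 3, v 4, v 5 + t * v 0, v 6, v 7 - t * v 2] := by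
  funext i
  fin_cases i <;> simp [M4, PM4, Matrix.mulVec, dotProduct, Fin.sum_univ_succ] <;> ring

lemma P4_mem (t : F) : P4 t ∈ G2 F := by
  intro v w
  rw [P4_mv, P4_mv, P4_mv]
  funext i
  fin_cases i <;> simp [zmul] <;> ring

lemma P4_add (s t : F) : P4 (s + t) = P4 s * P4 t := by
  refine ext_mv fun v => ?_
  rw [mul_mv, P4_mv, P4_mv, P4_mv]
  funext i
  fin_cases i <;> simp <;> ring

lemma M4_mem (t : F) : M4 t ∈ G2 F := by
  intro v w
  rw [M4_mv, M4_mv, M4_mv]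
  funext i
  fin_cases i <;> simp [zmul] <;> ring

lemma M4_add (s t : F) : M4 (s + t) = M4 s * M4 t := by
  refine ext_mv fun v => ?_
  rw [mul_mv, M4_mv, M4_mv, M4_mv]
  funext i
  fin_cases i <;> simp <;> ring

/-- the matrix of a root element -/
def PM5 (t : F) : Matrix (Fin 8) (Fin 8) F :=
  !![1, 0, 0, 0, 0, 0, -t, 0;
     0, 1, 0, 0, 0, 0, 0, t;
     0, 0, 1, 0, 0, 0, 0, 0;
     0, 0, 0, 1, 0, 0, 0, 0;
     0, 0, 0, 0, 1, 0, 0, 0;
     0, 0, 0, 0, 0, 1, 0, 0;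
     0, 0, 0, 0, 0, 0, 1, 0;
     0, 0, 0, 0, 0, 0, 0, 1]

lemma PM5_low (t : F) : ∀ i j : Fin 8, j < i → PM5 t i j = 0 := by
  intro i j h
  fin_cases i <;> fin_cases j <;> first | rfl | exact absurd h (by decide)

lemma PM5_diag (t : F) : ∀ i : Fin 8, PM5 t i i = 1 := by
  intro i
  fin_cases i <;> rfl

lemma PM5_det (t : F) : (PM5 t).det = 1 := by
  rw [Matrix.det_of_isUpperTriangular (M := PM5 t) fun i j hij => PM5_low t i j hij]
  simp only [PM5_diag, Finset.prod_const_one]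

/-- a positive root element -/
def P5 (t : F) : SLm 7 F := ⟨PM5 t, PM5_det t⟩

/-- a negative root element -/
def M5 (t : F) : SLm 7 F := ⟨(PM5 t)ᵀ, by rw [Matrix.det_transpose]; exact PM5_det _⟩

lemma P5_mv (t : F) (v : Fin 8 → F) : (P5 t).1 *ᵥ v = ![v 0 - t * v 6, v 1 + t * v 7, v 2, v 3, v 4, v 5, v 6, v 7] := by
  funext i
  fin_cases i <;> simp [P5, PM5, Matrix.mulVec, dotProduct, Fin.sum_univ_succ] <;> ring

lemma M5_mv (t : F) (v : Fin 8 → F) : (M5 t).1 *ᵥ v = ![v 0, v 1, v 2, v 3, v 4, v 5, v 6 - t * v 0, v 7 + t * v 1] := by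
  funext i
  fin_cases i <;> simp [M5, PM5, Matrix.mulVec, dotProduct, Fin.sum_univ_succ] <;> ring

lemma P5_mem (t : F) : P5 t ∈ G2 F := by
  intro v w
  rw [P5_mv, P5_mv, P5_mv]
  funext i
  fin_cases i <;> simp [zmul] <;> ring

lemma P5_add (s t : F) : P5 (s + t) = P5 s * P5 t := by
  refine ext_mv fun v => ?_
  rw [mul_mv, P5_mv, P5_mv, P5_mv]
  funext i
  fin_cases i <;> simp <;> ring

lemma M5_mem (t : F) : M5 t ∈ G2 F := by
  intro v w
  rw [M5_mv, M5_mv, M5_mv]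
  funext i
  fin_cases i <;> simp [zmul] <;> ring

lemma M5_add (s t : F) : M5 (s + t) = M5 s * M5 t := by
  refine ext_mv fun v => ?_
  rw [mul_mv, M5_mv, M5_mv, M5_mv]
  funext i
  fin_cases i <;> simp <;> ring

/-- the root elements -/
def X : Fin 12 → F → SLm 7 F := ![P0, P1, P2, P3, P4, P5, M0, M1, M2, M3, M4, M5]

lemma P0_eq (t : F) : P0 t = xa t := by
  refine ext_mv fun v => ?_
  rw [P0_mv, xa_mv]

lemma P1_eq (t : F) : P1 t = xb t := by
  refine ext_mv fun v => ?_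
  rw [P1_mv, xb_mv]

lemma X_mem (i : Fin 12) (t : F) : X i t ∈ G2 F := by
  fin_cases i
  · exact P0_mem t
  · exact P1_mem t
  · exact P2_mem t
  · exact P3_mem t
  · exact P4_mem t
  · exact P5_mem t
  · exact M0_mem t
  · exact M1_mem t
  · exact M2_mem t
  · exact M3_mem t
  · exact M4_mem t
  · exact M5_mem t

lemma X_add (i : Fin 12) (s t : F) : X i (s + t) = X i s * X i t := by
  fin_cases i
  · exact P0_add s t
  · exact P1_add s t
  · exact P2_add s t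
  · exact P3_add s t
  · exact P4_add s t
  · exact P5_add s t
  · exact M0_add s t
  · exact M1_add s t
  · exact M2_add s t
  · exact M3_add s t
  · exact M4_add s t
  · exact M5_add s t

lemma X_inj (i : Fin 12) (t : F) (h : X i t = 1) : t = 0 := by
  have h0 : ∀ a b : Fin 8, a ≠ b → (X i t).1 a b = 0 := by
    intro a b hab
    rw [h]
    exact Matrix.one_apply_ne hab
  fin_cases i
  · exact h0 0 1 (by decide)
  · exact h0 5 6 (by decide)
  · exact h0 0 2 (by decide)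
  · exact h0 0 3 (by decide)
  · exact h0 0 5 (by decide)
  · exact h0 1 7 (by decide)
  · exact h0 1 0 (by decide)
  · exact h0 6 5 (by decide)
  · exact h0 2 0 (by decide)
  · exact h0 3 0 (by decide)
  · exact h0 5 0 (by decide)
  · exact h0 7 1 (by decide)

lemma X_low (i : Fin 12) (t : F) (hi : 0 < tht i) :
    (∀ a b : Fin 8, b < a → (X i t).1 a b = 0) ∧ ∀ a, (X i t).1 a a = 1 := by
  have h : i = 0 ∨ i = 1 ∨ i = 2 ∨ i = 3 ∨ i = 4 ∨ i = 5 := by
    revert i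
    decide
  rcases h with rfl | rfl | rfl | rfl | rfl | rfl
  · exact ⟨fun a b hab => PM0_low t a b hab, fun a => PM0_diag t a⟩
  · exact ⟨fun a b hab => PM1_low t a b hab, fun a => PM1_diag t a⟩
  · exact ⟨fun a b hab => PM2_low t a b hab, fun a => PM2_diag t a⟩
  · exact ⟨fun a b hab => PM3_low t a b hab, fun a => PM3_diag t a⟩
  · exact ⟨fun a b hab => PM4_low t a b hab, fun a => PM4_diag t a⟩
  · exact ⟨fun a b hab => PM5_low t a b hab, fun a => PM5_diag t a⟩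

lemma X_up (i : Fin 12) (t : F) (hi : tht i < 0) :
    (∀ a b : Fin 8, a < b → (X i t).1 a b = 0) ∧ ∀ a, (X i t).1 a a = 1 := by
  have h : i = 6 ∨ i = 7 ∨ i = 8 ∨ i = 9 ∨ i = 10 ∨ i = 11 := by
    revert i
    decide
  rcases h with rfl | rfl | rfl | rfl | rfl | rfl
  · exact ⟨fun a b hab => PM0_low t b a hab, fun a => PM0_diag t a⟩
  · exact ⟨fun a b hab => PM1_low t b a hab, fun a => PM1_diag t a⟩
  · exact ⟨fun a b hab => PM2_low t b a hab, fun a => PM2_diag t a⟩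
  · exact ⟨fun a b hab => PM3_low t b a hab, fun a => PM3_diag t a⟩
  · exact ⟨fun a b hab => PM4_low t b a hab, fun a => PM4_diag t a⟩
  · exact ⟨fun a b hab => PM5_low t b a hab, fun a => PM5_diag t a⟩

end

end Vale.Agent.P240.R2.H613.G2
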