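import Vale.Agent.P240.R2.H613.GT2

/-!
The reflections of the root elements of `G_2(F)`.
-/

set_option autoImplicit false
set_option linter.all false

namespace Vale.Agent.P240.R2.H613.G2

open Subgroup Matrix Vale.Agent.P240.H195 Vale.Agent.P240.R2.H38.Oct

section
variable {F : Type*} [Field F]

lemma z0 (t : F) : t ^ (0 : ℤ) = 1 := zpow_zero t
lemma z1 (t : F) : t ^ (1 : ℤ) = t := zpow_one t
lemma z2 (t : F) : t ^ (2 : ℤ) = t ^ 2 := zpow_ofNat t 2
lemma z3 (t : F) : t ^ (3 : ℤ) = t ^ 3 := zpow_ofNat t 3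
lemma zm1 (t : F) : t ^ (-1 : ℤ) = t⁻¹ := zpow_neg_one t
lemma zm2 (t : F) : t ^ (-2 : ℤ) = (t⁻¹) ^ 2 := by rw [_root_.zpow_neg, z2, inv_pow]
lemma zm3 (t : F) : t ^ (-3 : ℤ) = (t⁻¹) ^ 3 := by rw [_root_.zpow_neg, z3, inv_pow]

lemma na_eq {t : F} (ht : t ≠ 0) : X 0 t * X 6 (-t⁻¹) * X 0 t = wa t := by
  change P0 t * M0 (-t⁻¹) * P0 t = wa t
  refine ext_mv fun v => ?_
  rw [mul_mv, mul_mv, P0_mv, M0_mv, P0_mv, wa_mv ht]
  funext i
  fin_cases i <;> simp <;> (try field_simp) <;> (try ring)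

lemma ra0 {t u : F} (ht : t ≠ 0) : wa t * P0 u = M0 ((-1 : F) * (t⁻¹) ^ 2 * u) * wa t := by
  refine ext_mv fun v => ?_
  rw [mul_mv, mul_mv, P0_mv, wa_mv ht, wa_mv ht, M0_mv]
  funext i
  fin_cases i <;> simp <;> (try field_simp) <;> (try ring)

lemma ra1 {t u : F} (ht : t ≠ 0) : wa t * P1 u = P4 ((1 : F) * t ^ 3 * u) * wa t := by
  refine ext_mv fun v => ?_
  rw [mul_mv, mul_mv, P1_mv, wa_mv ht, wa_mv ht, P4_mv]
  funext i
  fin_cases i <;> simp <;> (try field_simp) <;> (try ring)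

lemma ra2 {t u : F} (ht : t ≠ 0) : wa t * P2 u = P3 ((1 : F) * t * u) * wa t := by
  refine ext_mv fun v => ?_
  rw [mul_mv, mul_mv, P2_mv, wa_mv ht, wa_mv ht, P3_mv]
  funext i
  fin_cases i <;> simp <;> (try field_simp) <;> (try ring)

lemma ra3 {t u : F} (ht : t ≠ 0) : wa t * P3 u = P2 ((-1 : F) * t⁻¹ * u) * wa t := by
  refine ext_mv fun v => ?_
  rw [mul_mv, mul_mv, P3_mv, wa_mv ht, wa_mv ht, P2_mv]
  funext i
  fin_cases i <;> simp <;> (try field_simp) <;> (try ring)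

lemma ra4 {t u : F} (ht : t ≠ 0) : wa t * P4 u = P1 ((-1 : F) * (t⁻¹) ^ 3 * u) * wa t := by
  refine ext_mv fun v => ?_
  rw [mul_mv, mul_mv, P4_mv, wa_mv ht, wa_mv ht, P1_mv]
  funext i
  fin_cases i <;> simp <;> (try field_simp) <;> (try ring)

lemma ra5 {t u : F} (ht : t ≠ 0) : wa t * P5 u = P5 ((1 : F) * 1 * u) * wa t := by
  refine ext_mv fun v => ?_
  rw [mul_mv, mul_mv, P5_mv, wa_mv ht, wa_mv ht, P5_mv]
  funext i
  fin_cases i <;> simp <;> (try field_simp) <;> (try ring)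

lemma ra6 {t u : F} (ht : t ≠ 0) : wa t * M0 u = P0 ((-1 : F) * t ^ 2 * u) * wa t := by
  refine ext_mv fun v => ?_
  rw [mul_mv, mul_mv, M0_mv, wa_mv ht, wa_mv ht, P0_mv]
  funext i
  fin_cases i <;> simp <;> (try field_simp) <;> (try ring)

lemma ra7 {t u : F} (ht : t ≠ 0) : wa t * M1 u = M4 ((1 : F) * (t⁻¹) ^ 3 * u) * wa t := by
  refine ext_mv fun v => ?_
  rw [mul_mv, mul_mv, M1_mv, wa_mv ht, wa_mv ht, M4_mv]
  funext i
  fin_cases i <;> simp <;> (try field_simp) <;> (try ring)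

lemma ra8 {t u : F} (ht : t ≠ 0) : wa t * M2 u = M3 ((1 : F) * t⁻¹ * u) * wa t := by
  refine ext_mv fun v => ?_
  rw [mul_mv, mul_mv, M2_mv, wa_mv ht, wa_mv ht, M3_mv]
  funext i
  fin_cases i <;> simp <;> (try field_simp) <;> (try ring)

lemma ra9 {t u : F} (ht : t ≠ 0) : wa t * M3 u = M2 ((-1 : F) * t * u) * wa t := by
  refine ext_mv fun v => ?_
  rw [mul_mv, mul_mv, M3_mv, wa_mv ht, wa_mv ht, M2_mv]
  funext i
  fin_cases i <;> simp <;> (try field_simp) <;> (try ring)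

lemma ra10 {t u : F} (ht : t ≠ 0) : wa t * M4 u = M1 ((-1 : F) * t ^ 3 * u) * wa t := by
  refine ext_mv fun v => ?_
  rw [mul_mv, mul_mv, M4_mv, wa_mv ht, wa_mv ht, M1_mv]
  funext i
  fin_cases i <;> simp <;> (try field_simp) <;> (try ring)

lemma ra11 {t u : F} (ht : t ≠ 0) : wa t * M5 u = M5 ((1 : F) * 1 * u) * wa t := by
  refine ext_mv fun v => ?_
  rw [mul_mv, mul_mv, M5_mv, wa_mv ht, wa_mv ht, M5_mv]
  funext i
  fin_cases i <;> simp <;> (try field_simp) <;> (try ring)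

/-- the relations for a simple reflection -/
theorem refla : ∀ j : Fin 12, ∃ c : F, c * c = 1 ∧ ∀ t u : F, t ≠ 0 →
    wa t * X j u = X (ts 0 j) (c * t ^ (-tpr j 0) * u) * wa t ∧
    wa t * X (tneg j) u = X (tneg (ts 0 j)) (c * t ^ (tpr j 0) * u) * wa t := by
  intro j
  fin_cases j
  · refine ⟨(-1 : F), by ring, fun t u ht => ?_⟩
    have e1 : ts 0 0 = 6 := by decide +kernel
    have e2 : tpr 0 0 = 2 := by decide +kernel
    have e3 : tneg 0 = 6 := by decide +kernel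
    have e4 : tneg 6 = 0 := by decide +kernel
    change wa t * X 0 u = X (ts 0 0) ((-1 : F) * t ^ (-tpr 0 0) * u) * wa t ∧
      wa t * X (tneg 0) u = X (tneg (ts 0 0)) ((-1 : F) * t ^ (tpr 0 0) * u) * wa t
    simp only [e1, e2, e3, e4, neg_neg, neg_zero, z0, z1, z2, z3, zm1, zm2, zm3]
    exact ⟨ra0 ht, ra6 ht⟩
  · refine ⟨(1 : F), by ring, fun t u ht => ?_⟩
    have e1 : ts 0 1 = 4 := by decide +kernel
    have e2 : tpr 1 0 = -3 := by decide +kernel
    have e3 : tneg 1 = 7 := by decide +kernel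
    have e4 : tneg 4 = 10 := by decide +kernel
    change wa t * X 1 u = X (ts 0 1) ((1 : F) * t ^ (-tpr 1 0) * u) * wa t ∧
      wa t * X (tneg 1) u = X (tneg (ts 0 1)) ((1 : F) * t ^ (tpr 1 0) * u) * wa t
    simp only [e1, e2, e3, e4, neg_neg, neg_zero, z0, z1, z2, z3, zm1, zm2, zm3]
    exact ⟨ra1 ht, ra7 ht⟩
  · refine ⟨(1 : F), by ring, fun t u ht => ?_⟩
    have e1 : ts 0 2 = 3 := by decide +kernel
    have e2 : tpr 2 0 = -1 := by decide +kernel
    have e3 : tneg 2 = 8 := by decide +kernel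
    have e4 : tneg 3 = 9 := by decide +kernel
    change wa t * X 2 u = X (ts 0 2) ((1 : F) * t ^ (-tpr 2 0) * u) * wa t ∧
      wa t * X (tneg 2) u = X (tneg (ts 0 2)) ((1 : F) * t ^ (tpr 2 0) * u) * wa t
    simp only [e1, e2, e3, e4, neg_neg, neg_zero, z0, z1, z2, z3, zm1, zm2, zm3]
    exact ⟨ra2 ht, ra8 ht⟩
  · refine ⟨(-1 : F), by ring, fun t u ht => ?_⟩
    have e1 : ts 0 3 = 2 := by decide +kernel
    have e2 : tpr 3 0 = 1 := by decide +kernel
    have e3 : tneg 3 = 9 := by decide +kernel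
    have e4 : tneg 2 = 8 := by decide +kernel
    change wa t * X 3 u = X (ts 0 3) ((-1 : F) * t ^ (-tpr 3 0) * u) * wa t ∧
      wa t * X (tneg 3) u = X (tneg (ts 0 3)) ((-1 : F) * t ^ (tpr 3 0) * u) * wa t
    simp only [e1, e2, e3, e4, neg_neg, neg_zero, z0, z1, z2, z3, zm1, zm2, zm3]
    exact ⟨ra3 ht, ra9 ht⟩
  · refine ⟨(-1 : F), by ring, fun t u ht => ?_⟩
    have e1 : ts 0 4 = 1 := by decide +kernel
    have e2 : tpr 4 0 = 3 := by decide +kernel
    have e3 : tneg 4 = 10 := by decide +kernel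
    have e4 : tneg 1 = 7 := by decide +kernel
    change wa t * X 4 u = X (ts 0 4) ((-1 : F) * t ^ (-tpr 4 0) * u) * wa t ∧
      wa t * X (tneg 4) u = X (tneg (ts 0 4)) ((-1 : F) * t ^ (tpr 4 0) * u) * wa t
    simp only [e1, e2, e3, e4, neg_neg, neg_zero, z0, z1, z2, z3, zm1, zm2, zm3]
    exact ⟨ra4 ht, ra10 ht⟩
  · refine ⟨(1 : F), by ring, fun t u ht => ?_⟩
    have e1 : ts 0 5 = 5 := by decide +kernel
    have e2 : tpr 5 0 = 0 := by decide +kernel
    have e3 : tneg 5 = 11 := by decide +kernel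
    have e4 : tneg 5 = 11 := by decide +kernel
    change wa t * X 5 u = X (ts 0 5) ((1 : F) * t ^ (-tpr 5 0) * u) * wa t ∧
      wa t * X (tneg 5) u = X (tneg (ts 0 5)) ((1 : F) * t ^ (tpr 5 0) * u) * wa t
    simp only [e1, e2, e3, e4, neg_neg, neg_zero, z0, z1, z2, z3, zm1, zm2, zm3]
    exact ⟨ra5 ht, ra11 ht⟩
  · refine ⟨(-1 : F), by ring, fun t u ht => ?_⟩
    have e1 : ts 0 6 = 0 := by decide +kernel
    have e2 : tpr 6 0 = -2 := by decide +kernel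
    have e3 : tneg 6 = 0 := by decide +kernel
    have e4 : tneg 0 = 6 := by decide +kernel
    change wa t * X 6 u = X (ts 0 6) ((-1 : F) * t ^ (-tpr 6 0) * u) * wa t ∧
      wa t * X (tneg 6) u = X (tneg (ts 0 6)) ((-1 : F) * t ^ (tpr 6 0) * u) * wa t
    simp only [e1, e2, e3, e4, neg_neg, neg_zero, z0, z1, z2, z3, zm1, zm2, zm3]
    exact ⟨ra6 ht, ra0 ht⟩
  · refine ⟨(1 : F), by ring, fun t u ht => ?_⟩
    have e1 : ts 0 7 = 10 := by decide +kernel
    have e2 : tpr 7 0 = 3 := by decide +kernel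
    have e3 : tneg 7 = 1 := by decide +kernel
    have e4 : tneg 10 = 4 := by decide +kernel
    change wa t * X 7 u = X (ts 0 7) ((1 : F) * t ^ (-tpr 7 0) * u) * wa t ∧
      wa t * X (tneg 7) u = X (tneg (ts 0 7)) ((1 : F) * t ^ (tpr 7 0) * u) * wa t
    simp only [e1, e2, e3, e4, neg_neg, neg_zero, z0, z1, z2, z3, zm1, zm2, zm3]
    exact ⟨ra7 ht, ra1 ht⟩
  · refine ⟨(1 : F), by ring, fun t u ht => ?_⟩
    have e1 : ts 0 8 = 9 := by decide +kernel
    have e2 : tpr 8 0 = 1 := by decide +kernel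
    have e3 : tneg 8 = 2 := by decide +kernel
    have e4 : tneg 9 = 3 := by decide +kernel
    change wa t * X 8 u = X (ts 0 8) ((1 : F) * t ^ (-tpr 8 0) * u) * wa t ∧
      wa t * X (tneg 8) u = X (tneg (ts 0 8)) ((1 : F) * t ^ (tpr 8 0) * u) * wa t
    simp only [e1, e2, e3, e4, neg_neg, neg_zero, z0, z1, z2, z3, zm1, zm2, zm3]
    exact ⟨ra8 ht, ra2 ht⟩
  · refine ⟨(-1 : F), by ring, fun t u ht => ?_⟩
    have e1 : ts 0 9 = 8 := by decide +kernel
    have e2 : tpr 9 0 = -1 := by decide +kernel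
    have e3 : tneg 9 = 3 := by decide +kernel
    have e4 : tneg 8 = 2 := by decide +kernel
    change wa t * X 9 u = X (ts 0 9) ((-1 : F) * t ^ (-tpr 9 0) * u) * wa t ∧
      wa t * X (tneg 9) u = X (tneg (ts 0 9)) ((-1 : F) * t ^ (tpr 9 0) * u) * wa t
    simp only [e1, e2, e3, e4, neg_neg, neg_zero, z0, z1, z2, z3, zm1, zm2, zm3]
    exact ⟨ra9 ht, ra3 ht⟩
  · refine ⟨(-1 : F), by ring, fun t u ht => ?_⟩
    have e1 : ts 0 10 = 7 := by decide +kernel
    have e2 : tpr 10 0 = -3 := by decide +kernel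
    have e3 : tneg 10 = 4 := by decide +kernel
    have e4 : tneg 7 = 1 := by decide +kernel
    change wa t * X 10 u = X (ts 0 10) ((-1 : F) * t ^ (-tpr 10 0) * u) * wa t ∧
      wa t * X (tneg 10) u = X (tneg (ts 0 10)) ((-1 : F) * t ^ (tpr 10 0) * u) * wa t
    simp only [e1, e2, e3, e4, neg_neg, neg_zero, z0, z1, z2, z3, zm1, zm2, zm3]
    exact ⟨ra10 ht, ra4 ht⟩
  · refine ⟨(1 : F), by ring, fun t u ht => ?_⟩
    have e1 : ts 0 11 = 11 := by decide +kernel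
    have e2 : tpr 11 0 = 0 := by decide +kernel
    have e3 : tneg 11 = 5 := by decide +kernel
    have e4 : tneg 11 = 5 := by decide +kernel
    change wa t * X 11 u = X (ts 0 11) ((1 : F) * t ^ (-tpr 11 0) * u) * wa t ∧
      wa t * X (tneg 11) u = X (tneg (ts 0 11)) ((1 : F) * t ^ (tpr 11 0) * u) * wa t
    simp only [e1, e2, e3, e4, neg_neg, neg_zero, z0, z1, z2, z3, zm1, zm2, zm3]
    exact ⟨ra11 ht, ra5 ht⟩

end

end Vale.Agent.P240.R2.H613.G2
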