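import Vale.Agent.P240.R2.H613.GT3

/-!
The reflections of the root elements of `G_2(F)`.
-/

set_option autoImplicit false
set_option linter.all false

namespace Vale.Agent.P240.R2.H613.G2

open Subgroup Matrix Vale.Agent.P240.H195 Vale.Agent.P240.R2.H38.Oct

section
variable {F : Type*} [Field F]

lemma nb_eq {t : F} (ht : t ≠ 0) : X 1 t * X 7 (-t⁻¹) * X 1 t = wb t := by
  change P1 t * M1 (-t⁻¹) * P1 t = wb t
  refine ext_mv fun v => ?_
  rw [mul_mv, mul_mv, P1_mv, M1_mv, P1_mv, wb_mv ht]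
  funext i
  fin_cases i <;> simp <;> (try field_simp) <;> (try ring)

lemma rb0 {t u : F} (ht : t ≠ 0) : wb t * P0 u = P2 ((1 : F) * t * u) * wb t := by
  refine ext_mv fun v => ?_
  rw [mul_mv, mul_mv, P0_mv, wb_mv ht, wb_mv ht, P2_mv]
  funext i
  fin_cases i <;> simp <;> (try field_simp) <;> (try ring)

lemma rb1 {t u : F} (ht : t ≠ 0) : wb t * P1 u = M1 ((-1 : F) * (t⁻¹) ^ 2 * u) * wb t := by
  refine ext_mv fun v => ?_
  rw [mul_mv, mul_mv, P1_mv, wb_mv ht, wb_mv ht, M1_mv]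
  funext i
  fin_cases i <;> simp <;> (try field_simp) <;> (try ring)

lemma rb2 {t u : F} (ht : t ≠ 0) : wb t * P2 u = P0 ((-1 : F) * t⁻¹ * u) * wb t := by
  refine ext_mv fun v => ?_
  rw [mul_mv, mul_mv, P2_mv, wb_mv ht, wb_mv ht, P0_mv]
  funext i
  fin_cases i <;> simp <;> (try field_simp) <;> (try ring)

lemma rb3 {t u : F} (ht : t ≠ 0) : wb t * P3 u = P3 ((1 : F) * 1 * u) * wb t := by
  refine ext_mv fun v => ?_
  rw [mul_mv, mul_mv, P3_mv, wb_mv ht, wb_mv ht, P3_mv]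
  funext i
  fin_cases i <;> simp <;> (try field_simp) <;> (try ring)

lemma rb4 {t u : F} (ht : t ≠ 0) : wb t * P4 u = P5 ((1 : F) * t * u) * wb t := by
  refine ext_mv fun v => ?_
  rw [mul_mv, mul_mv, P4_mv, wb_mv ht, wb_mv ht, P5_mv]
  funext i
  fin_cases i <;> simp <;> (try field_simp) <;> (try ring)

lemma rb5 {t u : F} (ht : t ≠ 0) : wb t * P5 u = P4 ((-1 : F) * t⁻¹ * u) * wb t := by
  refine ext_mv fun v => ?_
  rw [mul_mv, mul_mv, P5_mv, wb_mv ht, wb_mv ht, P4_mv]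
  funext i
  fin_cases i <;> simp <;> (try field_simp) <;> (try ring)

lemma rb6 {t u : F} (ht : t ≠ 0) : wb t * M0 u = M2 ((1 : F) * t⁻¹ * u) * wb t := by
  refine ext_mv fun v => ?_
  rw [mul_mv, mul_mv, M0_mv, wb_mv ht, wb_mv ht, M2_mv]
  funext i
  fin_cases i <;> simp <;> (try field_simp) <;> (try ring)

lemma rb7 {t u : F} (ht : t ≠ 0) : wb t * M1 u = P1 ((-1 : F) * t ^ 2 * u) * wb t := by
  refine ext_mv fun v => ?_
  rw [mul_mv, mul_mv, M1_mv, wb_mv ht, wb_mv ht, P1_mv]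
  funext i
  fin_cases i <;> simp <;> (try field_simp) <;> (try ring)

lemma rb8 {t u : F} (ht : t ≠ 0) : wb t * M2 u = M0 ((-1 : F) * t * u) * wb t := by
  refine ext_mv fun v => ?_
  rw [mul_mv, mul_mv, M2_mv, wb_mv ht, wb_mv ht, M0_mv]
  funext i
  fin_cases i <;> simp <;> (try field_simp) <;> (try ring)

lemma rb9 {t u : F} (ht : t ≠ 0) : wb t * M3 u = M3 ((1 : F) * 1 * u) * wb t := by
  refine ext_mv fun v => ?_
  rw [mul_mv, mul_mv, M3_mv, wb_mv ht, wb_mv ht, M3_mv]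
  funext i
  fin_cases i <;> simp <;> (try field_simp) <;> (try ring)

lemma rb10 {t u : F} (ht : t ≠ 0) : wb t * M4 u = M5 ((1 : F) * t⁻¹ * u) * wb t := by
  refine ext_mv fun v => ?_
  rw [mul_mv, mul_mv, M4_mv, wb_mv ht, wb_mv ht, M5_mv]
  funext i
  fin_cases i <;> simp <;> (try field_simp) <;> (try ring)

lemma rb11 {t u : F} (ht : t ≠ 0) : wb t * M5 u = M4 ((-1 : F) * t * u) * wb t := by
  refine ext_mv fun v => ?_
  rw [mul_mv, mul_mv, M5_mv, wb_mv ht, wb_mv ht, M4_mv]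
  funext i
  fin_cases i <;> simp <;> (try field_simp) <;> (try ring)

/-- the relations for a simple reflection -/
theorem reflb : ∀ j : Fin 12, ∃ c : F, c * c = 1 ∧ ∀ t u : F, t ≠ 0 →
    wb t * X j u = X (ts 1 j) (c * t ^ (-tpr j 1) * u) * wb t ∧
    wb t * X (tneg j) u = X (tneg (ts 1 j)) (c * t ^ (tpr j 1) * u) * wb t := by
  intro j
  fin_cases j
  · refine ⟨(1 : F), by ring, fun t u ht => ?_⟩
    have e1 : ts 1 0 = 2 := by decide +kernel
    have e2 : tpr 0 1 = -1 := by decide +kernel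
    have e3 : tneg 0 = 6 := by decide +kernel
    have e4 : tneg 2 = 8 := by decide +kernel
    change wb t * X 0 u = X (ts 1 0) ((1 : F) * t ^ (-tpr 0 1) * u) * wb t ∧
      wb t * X (tneg 0) u = X (tneg (ts 1 0)) ((1 : F) * t ^ (tpr 0 1) * u) * wb t
    simp only [e1, e2, e3, e4, neg_neg, neg_zero, z0, z1, z2, z3, zm1, zm2, zm3]
    exact ⟨rb0 ht, rb6 ht⟩
  · refine ⟨(-1 : F), by ring, fun t u ht => ?_⟩
    have e1 : ts 1 1 = 7 := by decide +kernel
    have e2 : tpr 1 1 = 2 := by decide +kernel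
    have e3 : tneg 1 = 7 := by decide +kernel
    have e4 : tneg 7 = 1 := by decide +kernel
    change wb t * X 1 u = X (ts 1 1) ((-1 : F) * t ^ (-tpr 1 1) * u) * wb t ∧
      wb t * X (tneg 1) u = X (tneg (ts 1 1)) ((-1 : F) * t ^ (tpr 1 1) * u) * wb t
    simp only [e1, e2, e3, e4, neg_neg, neg_zero, z0, z1, z2, z3, zm1, zm2, zm3]
    exact ⟨rb1 ht, rb7 ht⟩
  · refine ⟨(-1 : F), by ring, fun t u ht => ?_⟩
    have e1 : ts 1 2 = 0 := by decide +kernel
    have e2 : tpr 2 1 = 1 := by decide +kernel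
    have e3 : tneg 2 = 8 := by decide +kernel
    have e4 : tneg 0 = 6 := by decide +kernel
    change wb t * X 2 u = X (ts 1 2) ((-1 : F) * t ^ (-tpr 2 1) * u) * wb t ∧
      wb t * X (tneg 2) u = X (tneg (ts 1 2)) ((-1 : F) * t ^ (tpr 2 1) * u) * wb t
    simp only [e1, e2, e3, e4, neg_neg, neg_zero, z0, z1, z2, z3, zm1, zm2, zm3]
    exact ⟨rb2 ht, rb8 ht⟩
  · refine ⟨(1 : F), by ring, fun t u ht => ?_⟩
    have e1 : ts 1 3 = 3 := by decide +kernel
    have e2 : tpr 3 1 = 0 := by decide +kernel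
    have e3 : tneg 3 = 9 := by decide +kernel
    have e4 : tneg 3 = 9 := by decide +kernel
    change wb t * X 3 u = X (ts 1 3) ((1 : F) * t ^ (-tpr 3 1) * u) * wb t ∧
      wb t * X (tneg 3) u = X (tneg (ts 1 3)) ((1 : F) * t ^ (tpr 3 1) * u) * wb t
    simp only [e1, e2, e3, e4, neg_neg, neg_zero, z0, z1, z2, z3, zm1, zm2, zm3]
    exact ⟨rb3 ht, rb9 ht⟩
  · refine ⟨(1 : F), by ring, fun t u ht => ?_⟩
    have e1 : ts 1 4 = 5 := by decide +kernel
    have e2 : tpr 4 1 = -1 := by decide +kernel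
    have e3 : tneg 4 = 10 := by decide +kernel
    have e4 : tneg 5 = 11 := by decide +kernel
    change wb t * X 4 u = X (ts 1 4) ((1 : F) * t ^ (-tpr 4 1) * u) * wb t ∧
      wb t * X (tneg 4) u = X (tneg (ts 1 4)) ((1 : F) * t ^ (tpr 4 1) * u) * wb t
    simp only [e1, e2, e3, e4, neg_neg, neg_zero, z0, z1, z2, z3, zm1, zm2, zm3]
    exact ⟨rb4 ht, rb10 ht⟩
  · refine ⟨(-1 : F), by ring, fun t u ht => ?_⟩
    have e1 : ts 1 5 = 4 := by decide +kernel
    have e2 : tpr 5 1 = 1 := by decide +kernel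
    have e3 : tneg 5 = 11 := by decide +kernel
    have e4 : tneg 4 = 10 := by decide +kernel
    change wb t * X 5 u = X (ts 1 5) ((-1 : F) * t ^ (-tpr 5 1) * u) * wb t ∧
      wb t * X (tneg 5) u = X (tneg (ts 1 5)) ((-1 : F) * t ^ (tpr 5 1) * u) * wb t
    simp only [e1, e2, e3, e4, neg_neg, neg_zero, z0, z1, z2, z3, zm1, zm2, zm3]
    exact ⟨rb5 ht, rb11 ht⟩
  · refine ⟨(1 : F), by ring, fun t u ht => ?_⟩
    have e1 : ts 1 6 = 8 := by decide +kernel
    have e2 : tpr 6 1 = 1 := by decide +kernel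
    have e3 : tneg 6 = 0 := by decide +kernel
    have e4 : tneg 8 = 2 := by decide +kernel
    change wb t * X 6 u = X (ts 1 6) ((1 : F) * t ^ (-tpr 6 1) * u) * wb t ∧
      wb t * X (tneg 6) u = X (tneg (ts 1 6)) ((1 : F) * t ^ (tpr 6 1) * u) * wb t
    simp only [e1, e2, e3, e4, neg_neg, neg_zero, z0, z1, z2, z3, zm1, zm2, zm3]
    exact ⟨rb6 ht, rb0 ht⟩
  · refine ⟨(-1 : F), by ring, fun t u ht => ?_⟩
    have e1 : ts 1 7 = 1 := by decide +kernel
    have e2 : tpr 7 1 = -2 := by decide +kernel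
    have e3 : tneg 7 = 1 := by decide +kernel
    have e4 : tneg 1 = 7 := by decide +kernel
    change wb t * X 7 u = X (ts 1 7) ((-1 : F) * t ^ (-tpr 7 1) * u) * wb t ∧
      wb t * X (tneg 7) u = X (tneg (ts 1 7)) ((-1 : F) * t ^ (tpr 7 1) * u) * wb t
    simp only [e1, e2, e3, e4, neg_neg, neg_zero, z0, z1, z2, z3, zm1, zm2, zm3]
    exact ⟨rb7 ht, rb1 ht⟩
  · refine ⟨(-1 : F), by ring, fun t u ht => ?_⟩
    have e1 : ts 1 8 = 6 := by decide +kernel
    have e2 : tpr 8 1 = -1 := by decide +kernel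
    have e3 : tneg 8 = 2 := by decide +kernel
    have e4 : tneg 6 = 0 := by decide +kernel
    change wb t * X 8 u = X (ts 1 8) ((-1 : F) * t ^ (-tpr 8 1) * u) * wb t ∧
      wb t * X (tneg 8) u = X (tneg (ts 1 8)) ((-1 : F) * t ^ (tpr 8 1) * u) * wb t
    simp only [e1, e2, e3, e4, neg_neg, neg_zero, z0, z1, z2, z3, zm1, zm2, zm3]
    exact ⟨rb8 ht, rb2 ht⟩
  · refine ⟨(1 : F), by ring, fun t u ht => ?_⟩
    have e1 : ts 1 9 = 9 := by decide +kernel
    have e2 : tpr 9 1 = 0 := by decide +kernel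
    have e3 : tneg 9 = 3 := by decide +kernel
    have e4 : tneg 9 = 3 := by decide +kernel
    change wb t * X 9 u = X (ts 1 9) ((1 : F) * t ^ (-tpr 9 1) * u) * wb t ∧
      wb t * X (tneg 9) u = X (tneg (ts 1 9)) ((1 : F) * t ^ (tpr 9 1) * u) * wb t
    simp only [e1, e2, e3, e4, neg_neg, neg_zero, z0, z1, z2, z3, zm1, zm2, zm3]
    exact ⟨rb9 ht, rb3 ht⟩
  · refine ⟨(1 : F), by ring, fun t u ht => ?_⟩
    have e1 : ts 1 10 = 11 := by decide +kernel
    have e2 : tpr 10 1 = 1 := by decide +kernel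
    have e3 : tneg 10 = 4 := by decide +kernel
    have e4 : tneg 11 = 5 := by decide +kernel
    change wb t * X 10 u = X (ts 1 10) ((1 : F) * t ^ (-tpr 10 1) * u) * wb t ∧
      wb t * X (tneg 10) u = X (tneg (ts 1 10)) ((1 : F) * t ^ (tpr 10 1) * u) * wb t
    simp only [e1, e2, e3, e4, neg_neg, neg_zero, z0, z1, z2, z3, zm1, zm2, zm3]
    exact ⟨rb10 ht, rb4 ht⟩
  · refine ⟨(-1 : F), by ring, fun t u ht => ?_⟩
    have e1 : ts 1 11 = 10 := by decide +kernel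
    have e2 : tpr 11 1 = -1 := by decide +kernel
    have e3 : tneg 11 = 5 := by decide +kernel
    have e4 : tneg 10 = 4 := by decide +kernel
    change wb t * X 11 u = X (ts 1 11) ((-1 : F) * t ^ (-tpr 11 1) * u) * wb t ∧
      wb t * X (tneg 11) u = X (tneg (ts 1 11)) ((-1 : F) * t ^ (tpr 11 1) * u) * wb t
    simp only [e1, e2, e3, e4, neg_neg, neg_zero, z0, z1, z2, z3, zm1, zm2, zm3]
    exact ⟨rb11 ht, rb5 ht⟩

end

end Vale.Agent.P240.R2.H613.G2
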