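import Vale.Agent.P240.R2.H613.GT4

/-!
Commutators of the root elements of `G_2(F)`; generation.
-/

set_option autoImplicit false
set_option linter.all false

namespace Vale.Agent.P240.R2.H613.G2

open Subgroup Matrix Vale.Agent.P240.H195 Vale.Agent.P240.R2.H38.Oct

section
variable {F : Type*} [Field F]

lemma c01 (t u : F) : P0 t * P1 u = P2 (-(t * u)) * (P3 (t ^ 2 * u) * (P4 (t ^ 3 * u) *
    (P5 (2 * t ^ 3 * u ^ 2) * (P1 u * P0 t)))) := by
  refine ext_mv fun v => ?_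
  simp only [mul_mv, P0_mv, P1_mv, P2_mv, P3_mv, P4_mv, P5_mv]
  funext i
  fin_cases i <;> simp <;> (try ring)

lemma c02 (t u : F) : P0 t * P2 u = P3 (-2 * (t * u)) * (P4 (-3 * (t ^ 2 * u)) *
    (P5 (-3 * (t * u ^ 2)) * (P2 u * P0 t))) := by
  refine ext_mv fun v => ?_
  simp only [mul_mv, P0_mv, P1_mv, P2_mv, P3_mv, P4_mv, P5_mv]
  funext i
  fin_cases i <;> simp <;> (try ring)

lemma c14 (t u : F) : P1 t * P4 u = P5 (t * u) * (P4 u * P1 t) := by
  refine ext_mv fun v => ?_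
  simp only [mul_mv, P0_mv, P1_mv, P2_mv, P3_mv, P4_mv, P5_mv]
  funext i
  fin_cases i <;> simp <;> (try ring)

lemma c05 (t u : F) : P0 t * P5 u = P5 u * P0 t := by
  refine ext_mv fun v => ?_
  simp only [mul_mv, P0_mv, P1_mv, P2_mv, P3_mv, P4_mv, P5_mv]
  funext i
  fin_cases i <;> simp <;> (try ring)

lemma c03 (t u : F) : P0 t * P3 u = P4 (3 * (t * u)) * (P3 u * P0 t) := by
  refine ext_mv fun v => ?_
  simp only [mul_mv, P0_mv, P1_mv, P2_mv, P3_mv, P4_mv, P5_mv]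
  funext i
  fin_cases i <;> simp <;> (try ring)

lemma c15 (t u : F) : P1 t * P5 u = P5 u * P1 t := by
  refine ext_mv fun v => ?_
  simp only [mul_mv, P0_mv, P1_mv, P2_mv, P3_mv, P4_mv, P5_mv]
  funext i
  fin_cases i <;> simp <;> (try ring)

lemma c04 (t u : F) : P0 t * P4 u = P4 u * P0 t := by
  refine ext_mv fun v => ?_
  simp only [mul_mv, P0_mv, P1_mv, P2_mv, P3_mv, P4_mv, P5_mv]
  funext i
  fin_cases i <;> simp <;> (try ring)

lemma dg_fac {p q : F} (hp : p ≠ 0) (hq : q ≠ 0) :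
    dg hp hq = wa (p * q) * wa (-1) * (wb (p ^ 2 * q) * wb (-1)) := by
  refine ext_mv fun v => ?_
  rw [mul_mv, mul_mv, mul_mv, wa_mv (mul_ne_zero hp hq), wa_mv (neg_ne_zero.2 one_ne_zero),
    wb_mv (mul_ne_zero (pow_ne_zero 2 hp) hq), wb_mv (neg_ne_zero.2 one_ne_zero), dg_mv]
  funext i
  fin_cases i <;> simp [dv] <;> (try field_simp) <;> (try ring)

end

section
variable {F : Type*} [Field F]

/-- an upper unitriangular element of `G_2(F)` with six entries `0` is trivial -/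
lemma eq_one {A : SLm 7 F} (hA : A ∈ G2 F) (hU : IsUp A) (hd : ∀ i, A.1 i i = 1)
    (h01 : A.1 0 1 = 0) (h12 : A.1 1 2 = 0) (h46 : A.1 4 6 = 0) (h15 : A.1 1 5 = 0)
    (h05 : A.1 0 5 = 0) (h06 : A.1 0 6 = 0) : A = 1 := by
  have u : ∀ i j : Fin 8, j < i → A.1 i j = 0 := hU
  obtain ⟨e34, e23, e24, e45, e35, e25, e67, e56⟩ := uu_rel hA hU hd
  rw [h01] at e23 e24 e45 e35 e25 e67
  rw [h12] at e56
  simp only [neg_zero, ne_eq, OfNat.ofNat_ne_zero, not_false_eq_true, zero_pow] at e24 e35 e25 e67 e56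
  have h66 : zmul (cl A 6) (cl A 6) = 0 := by
    rw [zc hA]
    have : zmul (bs 6) (bs 6) = (0 : Fin 8 → F) := by
      funext k; fin_cases k <;> simp [zmul, bs, Pi.single_apply]
    rw [this, mulVec_zero]
  have e16 : A.1 1 6 = 0 := by
    have h := congrFun h66 4
    simp [zmul, cl, u, hd, h46, e56] at h
    exact h
  have e36 : A.1 3 6 = 0 := by
    have h := congrFun h66 3
    simp [zmul, cl, u, hd, e56, e16] at h
    exact h
  have c5 : cl A 5 = bs 5 := by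
    funext k
    fin_cases k <;> simp [cl, bs, Pi.single_apply, h05, h15, e25, e35, e45, hd, u]
  have e26 : A.1 2 6 = 0 := by
    have h1 := congrFun (zc hA 5 6) 3
    have h2 := congrFun (zc hA 6 5) 3
    have z56 : zmul (bs 5) (bs 6) = (bs 7 : Fin 8 → F) := by
      funext k; fin_cases k <;> simp [zmul, bs, Pi.single_apply]
    have z65 : zmul (bs 6) (bs 5) = (-bs 7 : Fin 8 → F) := by
      funext k; fin_cases k <;> simp [zmul, bs, Pi.single_apply]
    rw [z56, mv_bs, c5] at h1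
    rw [z65, mv_neg_bs, c5] at h2
    simp [zmul, cl, bs, Pi.single_apply, u, hd] at h1 h2
    rw [h1]
    simpa using h2
  have c6 : cl A 6 = bs 6 := by
    funext k
    fin_cases k <;> simp [cl, bs, Pi.single_apply, h06, e16, e26, e36, h46, e56, hd, u]
  have c0 : cl A 0 = bs 0 := by
    funext k
    fin_cases k <;> simp [cl, bs, Pi.single_apply, hd, u]
  have c7 : cl A 7 = bs 7 := by
    have h := zc hA 5 6
    have z56 : zmul (bs 5) (bs 6) = (bs 7 : Fin 8 → F) := by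
      funext k; fin_cases k <;> simp [zmul, bs, Pi.single_apply]
    rw [c5, c6, z56, mv_bs] at h
    exact h.symm
  have c1 : cl A 1 = bs 1 := by
    have h := zc hA 0 5
    rw [c0, c5, z05, mv_bs] at h
    exact h.symm
  have c2 : cl A 2 = bs 2 := by
    have h := zc hA 0 6
    rw [c0, c6, z06, mv_neg_bs] at h
    exact (neg_injective h).symm
  have c3 : cl A 3 = bs 3 := by
    have h := zc hA 0 7
    rw [c0, c7, z07, mv_bs] at h
    exact h.symm
  have c4 : cl A 4 = bs 4 := by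
    have h := cl34 hA
    rw [c3, un_eq] at h
    exact add_left_cancel h
  have hall : ∀ j, cl A j = bs j := by
    intro j
    fin_cases j
    · exact c0
    · exact c1
    · exact c2
    · exact c3
    · exact c4
    · exact c5
    · exact c6
    · exact c7
  refine sl_ext fun i j => ?_
  have h := congrFun (hall j) i
  rw [show A.1 i j = cl A j i from rfl, h, bs, Pi.single_apply]
  rfl

end

section
variable {F : Type*} [Field F] [Finite F] {K : Subgroup (SLm 7 F)}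

/-- the unitriangular elements are products of root elements -/
lemma uni_gen (hK : ∀ i t, X i t ∈ K) {A : SLm 7 F} (hA : A ∈ G2 F) (hU : A ∈ UU 7 F) : A ∈ K := by
  have hX : ∀ i t, 0 < tht i → X i t ∈ UU 7 F := fun i t h => ⟨(X_low i t h).1, (X_low i t h).2⟩
  have red : ∀ (i : Fin 12) (t : F) (B : SLm 7 F), X i t * B ∈ K → B ∈ K := by
    intro i t B h
    exact (mul_mem_cancel_left (hK i t)).1 h
  have ent : ∀ (i : Fin 12) (t : F) (B : SLm 7 F) (a b : Fin 8),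
      (X i t * B).1 a b = ((X i t).1 *ᵥ cl B b) a := by
    intro i t B a b
    change (cl (X i t * B) b) a = _
    rw [cl_mul]
  -- `a`
  suffices h1 : ∀ B ∈ G2 F, B ∈ UU 7 F → B.1 0 1 = 0 → B ∈ K by
    refine red 0 (-A.1 0 1) A (h1 _ (mul_mem (X_mem _ _) hA) (mul_mem (hX 0 _ (by decide)) hU) ?_)
    rw [ent, show (X 0 (-A.1 0 1)) = P0 (-A.1 0 1) from rfl, P0_mv]
    have := hU.2 1
    simp [cl, this]
  clear hA hU A
  intro A hA hU h01
  suffices h1 : ∀ B ∈ G2 F, B ∈ UU 7 F → B.1 0 1 = 0 → B.1 1 2 = 0 → B ∈ K by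
    refine red 1 (A.1 1 2) A (h1 _ (mul_mem (X_mem _ _) hA) (mul_mem (hX 1 _ (by decide)) hU) ?_ ?_)
    · rw [ent, show (X 1 (A.1 1 2)) = P1 (A.1 1 2) from rfl, P1_mv]
      simp [cl, h01]
    · rw [ent, show (X 1 (A.1 1 2)) = P1 (A.1 1 2) from rfl, P1_mv]
      have := hU.2 2
      simp [cl, this]
  clear h01 hA hU A
  intro A hA hU h01 h12
  have u : ∀ i j : Fin 8, j < i → A.1 i j = 0 := hU.1
  suffices h1 : ∀ B ∈ G2 F, B ∈ UU 7 F → B.1 0 1 = 0 → B.1 1 2 = 0 → B.1 4 6 = 0 → B ∈ K by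
    refine red 2 (A.1 4 6) A (h1 _ (mul_mem (X_mem _ _) hA) (mul_mem (hX 2 _ (by decide)) hU)
      ?_ ?_ ?_)
    · rw [ent, show (X 2 (A.1 4 6)) = P2 (A.1 4 6) from rfl, P2_mv]
      simp [cl, h01, u]
    · rw [ent, show (X 2 (A.1 4 6)) = P2 (A.1 4 6) from rfl, P2_mv]
      simp [cl, h12, u]
    · rw [ent, show (X 2 (A.1 4 6)) = P2 (A.1 4 6) from rfl, P2_mv]
      have := hU.2 6
      simp [cl, this]
  clear u h12 h01 hA hU A
  intro A hA hU h01 h12 h46
  have u : ∀ i j : Fin 8, j < i → A.1 i j = 0 := hU.1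
  suffices h1 : ∀ B ∈ G2 F, B ∈ UU 7 F → B.1 0 1 = 0 → B.1 1 2 = 0 → B.1 4 6 = 0 → B.1 1 5 = 0 →
      B ∈ K by
    refine red 3 (-A.1 1 5) A (h1 _ (mul_mem (X_mem _ _) hA) (mul_mem (hX 3 _ (by decide)) hU)
      ?_ ?_ ?_ ?_)
    all_goals rw [ent, show (X 3 (-A.1 1 5)) = P3 (-A.1 1 5) from rfl, P3_mv]
    · simp [cl, h01, u]
    · simp [cl, h12, u]
    · simp [cl, h46, u]
    · have := hU.2 5
      simp [cl, this]
  clear u h12 h01 h46 hA hU A
  intro A hA hU h01 h12 h46 h15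
  have u : ∀ i j : Fin 8, j < i → A.1 i j = 0 := hU.1
  suffices h1 : ∀ B ∈ G2 F, B ∈ UU 7 F → B.1 0 1 = 0 → B.1 1 2 = 0 → B.1 4 6 = 0 → B.1 1 5 = 0 →
      B.1 0 5 = 0 → B ∈ K by
    refine red 4 (-A.1 0 5) A (h1 _ (mul_mem (X_mem _ _) hA) (mul_mem (hX 4 _ (by decide)) hU)
      ?_ ?_ ?_ ?_ ?_)
    all_goals rw [ent, show (X 4 (-A.1 0 5)) = P4 (-A.1 0 5) from rfl, P4_mv]
    · simp [cl, h01, u]
    · simp [cl, h12, u]
    · simp [cl, h46, u]
    · simp [cl, h15, u]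
    · have := hU.2 5
      simp [cl, this]
  clear u h12 h01 h46 h15 hA hU A
  intro A hA hU h01 h12 h46 h15 h05
  have u : ∀ i j : Fin 8, j < i → A.1 i j = 0 := hU.1
  refine red 5 (A.1 0 6) A ?_
  have h1 : X 5 (A.1 0 6) * A = 1 := by
    refine eq_one (mul_mem (X_mem _ _) hA) (mul_mem (hX 5 _ (by decide)) hU).1
      (mul_mem (hX 5 _ (by decide)) hU).2 ?_ ?_ ?_ ?_ ?_ ?_
    all_goals rw [ent, show (X 5 (A.1 0 6)) = P5 (A.1 0 6) from rfl, P5_mv]
    · simp [cl, h01, u]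
    · simp [cl, h12, u]
    · simp [cl, h46, u]
    · simp [cl, h15, u]
    · simp [cl, h05, u]
    · have := hU.2 6
      simp [cl, this]
  rw [h1]
  exact one_mem K

/-- generation -/
theorem gen_all (hK : K ≤ G2 F) (h : ∀ i t, X i t ∈ K) : G2 F ≤ K := by
  have hwa : ∀ t : F, t ≠ 0 → wa t ∈ K := by
    intro t ht
    rw [← na_eq ht]
    exact mul_mem (mul_mem (h _ _) (h _ _)) (h _ _)
  have hwb : ∀ t : F, t ≠ 0 → wb t ∈ K := by
    intro t ht
    rw [← nb_eq ht]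
    exact mul_mem (mul_mem (h _ _) (h _ _)) (h _ _)
  refine gen_main hK (fun t => by rw [← P0_eq]; exact h 0 t) (fun t => by rw [← P1_eq]; exact h 1 t)
    (hwa 1 one_ne_zero) (hwb 1 one_ne_zero) fun b hb hU => ?_
  obtain ⟨p, q, hp, hq, h1⟩ := exists_diag hb hU
  have hdg : dg hp hq ∈ K := by
    rw [dg_fac]
    exact mul_mem (mul_mem (hwa _ (mul_ne_zero hp hq)) (hwa _ (neg_ne_zero.2 one_ne_zero)))
      (mul_mem (hwb _ (mul_ne_zero (pow_ne_zero 2 hp) hq)) (hwb _ (neg_ne_zero.2 one_ne_zero)))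
  have h2 := uni_gen h (mul_mem hb (inv_mem (dg_mem hp hq))) h1
  have : b = b * (dg hp hq)⁻¹ * dg hp hq := by group
  rw [this]
  exact mul_mem h2 hdg

end

end Vale.Agent.P240.R2.H613.G2
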