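import Vale.Agent.P240.R2.H613.GT5

/-!
Chevalley's relations for `G_2(F)`.
-/

set_option autoImplicit false
set_option linter.all false

namespace Vale.Agent.P240.R2.H613.G2

open Subgroup Vale.Agent.P240.R2.H986.X

section
variable {ι F L : Type*} [Field F] [Group L] {C : RC ι} {x : ι → F → L}

/-- the relations for one reflection -/
def Rf (C : RC ι) (x : ι → F → L) (i : ι) : Prop := ∀ j, ∃ c : F, c * c = 1 ∧ ∀ t u : F, t ≠ 0 →
    nn C.neg x i t * x j u * (nn C.neg x i t)⁻¹ = x (C.s i j) (c * t ^ (-C.pr j i) * u) ∧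
    nn C.neg x i t * x (C.neg j) u * (nn C.neg x i t)⁻¹ = x (C.neg (C.s i j)) (c * t ^ C.pr j i * u)

lemma c_inv {c : F} (h : c * c = 1) : c⁻¹ = c := by
  have hc : c ≠ 0 := by
    rintro rfl
    simp at h
  field_simp
  rw [pow_two]
  exact h.symm

lemma c_zpow {c : F} (h : c * c = 1) (n : ℤ) : c ^ (-n) = c ^ n := by
  rw [zpow_neg, ← inv_zpow, c_inv h]

/-- transport of the relations along a reflection -/
lemma Rf.step (hinv : ∀ i a b, C.pr (C.s i a) (C.s i b) = C.pr a b) {i j : ι} (hi : Rf C x i)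
    (hj : Rf C x j) : Rf C x (C.s i j) := by
  intro l
  obtain ⟨c1, hc1, h1⟩ := hi j
  obtain ⟨c2, hc2, h2⟩ := hi (C.s i l)
  obtain ⟨c3, hc3, h3⟩ := hj (C.s i l)
  obtain ⟨c4, hc4, h4⟩ := hi (C.s j (C.s i l))
  set w := nn C.neg x i 1 with hw
  have h1a : ∀ u, w * x j u * w⁻¹ = x (C.s i j) (c1 * u) := by
    intro u
    have := (h1 1 u one_ne_zero).1
    rwa [one_zpow, mul_one] at this
  have h1b : ∀ u, w * x (C.neg j) u * w⁻¹ = x (C.neg (C.s i j)) (c1 * u) := by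
    intro u
    have := (h1 1 u one_ne_zero).2
    rwa [one_zpow, mul_one] at this
  have h2a : ∀ u, w * x (C.s i l) u * w⁻¹ = x l (c2 * u) := by
    intro u
    have := (h2 1 u one_ne_zero).1
    rwa [one_zpow, mul_one, C.s_s] at this
  have h2b : ∀ u, w * x (C.neg (C.s i l)) u * w⁻¹ = x (C.neg l) (c2 * u) := by
    intro u
    have := (h2 1 u one_ne_zero).2
    rwa [one_zpow, mul_one, C.s_s] at this
  have h4a : ∀ u, w * x (C.s j (C.s i l)) u * w⁻¹ = x (C.s (C.s i j) l) (c4 * u) := by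
    intro u
    have := (h4 1 u one_ne_zero).1
    rwa [one_zpow, mul_one, ← C.s_conj] at this
  have h4b : ∀ u, w * x (C.neg (C.s j (C.s i l))) u * w⁻¹ = x (C.neg (C.s (C.s i j) l)) (c4 * u) := by
    intro u
    have := (h4 1 u one_ne_zero).2
    rwa [one_zpow, mul_one, ← C.s_conj] at this
  have hc1' : c1 ≠ 0 := by
    rintro rfl
    simp at hc1
  have hn : ∀ t : F, t ≠ 0 → nn C.neg x (C.s i j) t = w * nn C.neg x j (c1 * t) * w⁻¹ := by
    intro t ht
    have e1 : x (C.s i j) t = w * x j (c1 * t) * w⁻¹ := by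
      rw [h1a, ← mul_assoc, hc1, one_mul]
    have e2 : x (C.neg (C.s i j)) (-t⁻¹) = w * x (C.neg j) (-(c1 * t)⁻¹) * w⁻¹ := by
      rw [h1b, mul_inv, c_inv hc1]
      congr 1
      linear_combination (-t⁻¹) * (-hc1)
    unfold nn
    rw [e1, e2]
    group
  have hpr : C.pr (C.s i l) j = C.pr l (C.s i j) := by
    rw [← hinv i (C.s i l) j, C.s_s]
  have hcs : ∀ m : ℤ, (c4 * c3 * c2 * c1 ^ m) * (c4 * c3 * c2 * c1 ^ m) = 1 := by
    intro m
    have hm : c1 ^ m * c1 ^ m = 1 := by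
      rw [← mul_zpow, hc1, one_zpow]
    calc (c4 * c3 * c2 * c1 ^ m) * (c4 * c3 * c2 * c1 ^ m) =
        (c4 * c4) * (c3 * c3) * (c2 * c2) * (c1 ^ m * c1 ^ m) := by ring
      _ = 1 := by rw [hc4, hc3, hc2, hm]; ring
  refine ⟨c4 * c3 * c2 * c1 ^ (C.pr l (C.s i j)), hcs _, fun t u ht => ?_⟩
  have key : ∀ a b : L, w * a * w⁻¹ * (w * b * w⁻¹) * (w * a * w⁻¹)⁻¹ = w * (a * b * a⁻¹) * w⁻¹ := by
    intro a b
    group
  rw [hn t ht]
  constructor
  · have e : x l u = w * x (C.s i l) (c2 * u) * w⁻¹ := by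
      rw [h2a, ← mul_assoc, hc2, one_mul]
    rw [e, key, (h3 (c1 * t) (c2 * u) (mul_ne_zero hc1' ht)).1, h4a, hpr, mul_zpow, c_zpow hc1]
    congr 1
    ring
  · have e : x (C.neg l) u = w * x (C.neg (C.s i l)) (c2 * u) * w⁻¹ := by
      rw [h2b, ← mul_assoc, hc2, one_mul]
    rw [e, key, (h3 (c1 * t) (c2 * u) (mul_ne_zero hc1' ht)).2, h4b, hpr, mul_zpow]
    congr 1
    ring

/-- the relations for the simple reflections imply the relations for all reflections -/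
lemma Rf.all (hinv : ∀ i a b, C.pr (C.s i a) (C.s i b) = C.pr a b) (h : ∀ i, C.simp i → Rf C x i)
    (i : ι) : Rf C x i :=
  C.gen (Rf C x) h (fun i _ hi hj => Rf.step hinv (h i hi) hj) i

/-- commutator relation -/
def Cm (C : RC ι) (x : ι → F → L) (i j : ι) : Prop :=
  ∀ t u, x i t * x j u * (x i t)⁻¹ * (x j u)⁻¹ ∈ gr x (C.cone i j)

lemma Cm.symm {i j : ι} (h : Cm C x i j) : Cm C x j i := by
  intro t u
  have h1 := inv_mem (h u t)
  have h2 : (x i u * x j t * (x i u)⁻¹ * (x j t)⁻¹)⁻¹ = x j t * x i u * (x j t)⁻¹ * (x i u)⁻¹ := by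
    group
  rw [h2] at h1
  refine closure_mono ?_ h1
  rintro _ ⟨k, v, hk, rfl⟩
  exact ⟨k, v, C.cone_symm _ _ _ hk, rfl⟩

lemma Cm.step {k i j : ι} (hk : Rf C x k)
    (hc : ∀ c, C.cone i j c → C.cone (C.s k i) (C.s k j) (C.s k c)) (h : Cm C x i j) :
    Cm C x (C.s k i) (C.s k j) := by
  intro t u
  obtain ⟨c1, hc1, h1⟩ := hk i
  obtain ⟨c2, hc2, h2⟩ := hk j
  set w := nn C.neg x k 1 with hw
  have h1a : x (C.s k i) t = w * x i (c1 * t) * w⁻¹ := by
    have := (h1 1 (c1 * t) one_ne_zero).1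
    rw [this, one_zpow, mul_one, ← mul_assoc, hc1, one_mul]
  have h2a : x (C.s k j) u = w * x j (c2 * u) * w⁻¹ := by
    have := (h2 1 (c2 * u) one_ne_zero).1
    rw [this, one_zpow, mul_one, ← mul_assoc, hc2, one_mul]
  have e : x (C.s k i) t * x (C.s k j) u * (x (C.s k i) t)⁻¹ * (x (C.s k j) u)⁻¹ =
      w * (x i (c1 * t) * x j (c2 * u) * (x i (c1 * t))⁻¹ * (x j (c2 * u))⁻¹) * w⁻¹ := by
    rw [h1a, h2a]
    group
  rw [e]
  have h3 : gr x (C.cone i j) ≤ (gr x (C.cone (C.s k i) (C.s k j))).comap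
      (MulAut.conj w).toMonoidHom := by
    unfold gr
    rw [closure_le]
    rintro _ ⟨l, v, hl, rfl⟩
    obtain ⟨c3, hc3, h3⟩ := hk l
    have h4 := (h3 1 v one_ne_zero).1
    rw [one_zpow, mul_one] at h4
    change w * x l v * w⁻¹ ∈ gr x (C.cone (C.s k i) (C.s k j))
    rw [h4]
    exact subset_closure ⟨C.s k l, _, hc l hl, rfl⟩
  exact h3 (h _ _)

end

section
variable {F L : Type*} [Field F] [Group L] {x : Fin 12 → F → L}

/-- Chevalley's relations of type `G_2` -/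
theorem cs_of (hadd : ∀ i t u, x i (t + u) = x i t * x i u) (hinj : ∀ i t, x i t = 1 → t = 0)
    (h0 : Rf g2rc x 0) (h1 : Rf g2rc x 1) (hb : ∀ b ∈ bps, Cm g2rc x b.1 b.2)
    (hgen : gr x (fun _ => True) = ⊤)
    (hopp : gr x (fun i => 0 < tht i) ⊓ gr x (fun i => tht i < 0) = ⊥) : CS g2rc x := by
  have hR : ∀ i, g2rc.simp i → Rf g2rc x i := by
    intro i hi
    rcases hi with rfl | rfl
    · exact h0
    · exact h1
  refine ⟨hadd, hinj, ?_, Rf.all t_pr_inv hR, hgen, hopp⟩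
  intro i j hij hij'
  have key : ∀ w : List (Fin 12), (∀ a ∈ w, tsimp a) → ∀ a b, Cm g2rc x a b →
      Cm g2rc x (tw w a) (tw w b) := by
    intro w
    induction w with
    | nil => intro _ a b h; exact h
    | cons k w ih =>
      intro hw a b h
      have hk := hw k (List.mem_cons_self ..)
      have h2 := ih (fun a ha => hw a (List.mem_cons_of_mem _ ha)) a b h
      exact Cm.step (hR k hk) (fun c hc => t_cone_s k _ _ c hk hc) h2
  obtain ⟨w, hw, b, hbb, ⟨rfl, rfl⟩ | ⟨rfl, rfl⟩⟩ := t_pairs i j hij hij'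
  · exact key w (t_wds w hw) _ _ (hb b hbb)
  · exact key w (t_wds w hw) _ _ (hb b hbb).symm

end

end Vale.Agent.P240.R2.H613.G2
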