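import Vale.Agent.P240.R2.H613.GT6

/-!
`G_2(F)` satisfies Chevalley's relations.
-/

set_option autoImplicit false
set_option linter.all false

namespace Vale.Agent.P240.R2.H613.G2

open Subgroup Matrix Vale.Agent.P240.H195 Vale.Agent.P240.R2.H38.Oct Vale.Agent.P240.R2.H986.X

section
variable {F : Type*} [Field F]

/-- the root elements as elements of the group `G_2(F)` -/
def g2x (i : Fin 12) (t : F) : ↥(G2 F) := ⟨X i t, X_mem i t⟩

lemma nn_val (i : Fin 12) (t : F) :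
    (nn tneg (g2x (F := F)) i t).1 = X i t * X (tneg i) (-t⁻¹) * X i t := rfl

lemma rf0 : Rf g2rc (g2x (F := F)) 0 := by
  intro j
  obtain ⟨c, hc, h⟩ := refla (F := F) j
  refine ⟨c, hc, fun t u ht => ?_⟩
  obtain ⟨h1, h2⟩ := h t u ht
  have hn : (nn tneg (g2x (F := F)) 0 t).1 = wa t := by
    rw [nn_val]
    exact na_eq ht
  constructor
  · apply Subtype.ext
    change (nn tneg (g2x (F := F)) 0 t).1 * X j u * ((nn tneg (g2x (F := F)) 0 t).1)⁻¹ =
      X (ts 0 j) (c * t ^ (-tpr j 0) * u)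
    rw [hn, h1, mul_inv_cancel_right]
  · apply Subtype.ext
    change (nn tneg (g2x (F := F)) 0 t).1 * X (tneg j) u * ((nn tneg (g2x (F := F)) 0 t).1)⁻¹ =
      X (tneg (ts 0 j)) (c * t ^ (tpr j 0) * u)
    rw [hn, h2, mul_inv_cancel_right]

lemma rf1 : Rf g2rc (g2x (F := F)) 1 := by
  intro j
  obtain ⟨c, hc, h⟩ := reflb (F := F) j
  refine ⟨c, hc, fun t u ht => ?_⟩
  obtain ⟨h1, h2⟩ := h t u ht
  have hn : (nn tneg (g2x (F := F)) 1 t).1 = wb t := by
    rw [nn_val]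
    exact nb_eq ht
  constructor
  · apply Subtype.ext
    change (nn tneg (g2x (F := F)) 1 t).1 * X j u * ((nn tneg (g2x (F := F)) 1 t).1)⁻¹ =
      X (ts 1 j) (c * t ^ (-tpr j 1) * u)
    rw [hn, h1, mul_inv_cancel_right]
  · apply Subtype.ext
    change (nn tneg (g2x (F := F)) 1 t).1 * X (tneg j) u * ((nn tneg (g2x (F := F)) 1 t).1)⁻¹ =
      X (tneg (ts 1 j)) (c * t ^ (tpr j 1) * u)
    rw [hn, h2, mul_inv_cancel_right]

lemma mem_gr {p : Fin 12 → Prop} (i : Fin 12) (t : F) (h : p i) : g2x i t ∈ gr (g2x (F := F)) p :=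
  subset_closure ⟨i, t, h, rfl⟩

lemma comm_of {L : Type*} [Group L] {a b w : L} (h : a * b = w * (b * a)) :
    a * b * a⁻¹ * b⁻¹ = w := by
  rw [h]
  group

lemma cm01 : Cm g2rc (g2x (F := F)) 0 1 := by
  intro t u
  have e : g2x 0 t * g2x 1 u * (g2x 0 t)⁻¹ * (g2x 1 u)⁻¹ = g2x 2 (-(t * u)) * (g2x 3 (t ^ 2 * u) *
      (g2x 4 (t ^ 3 * u) * g2x 5 (2 * t ^ 3 * u ^ 2))) := by
    refine comm_of (Subtype.ext ?_)
    change P0 t * P1 u = P2 (-(t * u)) * (P3 (t ^ 2 * u) * (P4 (t ^ 3 * u) *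
      P5 (2 * t ^ 3 * u ^ 2))) * (P1 u * P0 t)
    rw [c01]
    simp only [mul_assoc]
  rw [e]
  exact mul_mem (mem_gr (p := tcone 0 1) 2 _ (by decide +kernel))
    (mul_mem (mem_gr (p := tcone 0 1) 3 _ (by decide +kernel))
      (mul_mem (mem_gr (p := tcone 0 1) 4 _ (by decide +kernel))
        (mem_gr (p := tcone 0 1) 5 _ (by decide +kernel))))

lemma cm02 : Cm g2rc (g2x (F := F)) 0 2 := by
  intro t u
  have e : g2x 0 t * g2x 2 u * (g2x 0 t)⁻¹ * (g2x 2 u)⁻¹ = g2x 3 (-2 * (t * u)) *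
      (g2x 4 (-3 * (t ^ 2 * u)) * g2x 5 (-3 * (t * u ^ 2))) := by
    refine comm_of (Subtype.ext ?_)
    change P0 t * P2 u = P3 (-2 * (t * u)) * (P4 (-3 * (t ^ 2 * u)) *
      P5 (-3 * (t * u ^ 2))) * (P2 u * P0 t)
    rw [c02]
    simp only [mul_assoc]
  rw [e]
  exact mul_mem (mem_gr (p := tcone 0 2) 3 _ (by decide +kernel))
    (mul_mem (mem_gr (p := tcone 0 2) 4 _ (by decide +kernel))
      (mem_gr (p := tcone 0 2) 5 _ (by decide +kernel)))

lemma cm14 : Cm g2rc (g2x (F := F)) 1 4 := by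
  intro t u
  have e : g2x 1 t * g2x 4 u * (g2x 1 t)⁻¹ * (g2x 4 u)⁻¹ = g2x 5 (t * u) :=
    comm_of (Subtype.ext (c14 t u))
  rw [e]
  exact mem_gr (p := tcone 1 4) 5 _ (by decide +kernel)

lemma cm03 : Cm g2rc (g2x (F := F)) 0 3 := by
  intro t u
  have e : g2x 0 t * g2x 3 u * (g2x 0 t)⁻¹ * (g2x 3 u)⁻¹ = g2x 4 (3 * (t * u)) :=
    comm_of (Subtype.ext (c03 t u))
  rw [e]
  exact mem_gr (p := tcone 0 3) 4 _ (by decide +kernel)

lemma cm_of_comm {i j : Fin 12} (h : ∀ t u : F, X i t * X j u = X j u * X i t) :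
    Cm g2rc (g2x (F := F)) i j := by
  intro t u
  have e : g2x i t * g2x j u * (g2x i t)⁻¹ * (g2x j u)⁻¹ = 1 :=
    comm_of (Subtype.ext ((h t u).trans (one_mul _).symm))
  rw [e]
  exact one_mem _

lemma cm_base : ∀ b ∈ bps, Cm g2rc (g2x (F := F)) b.1 b.2 := by
  intro b hb
  simp only [bps, List.mem_cons, List.not_mem_nil, or_false] at hb
  rcases hb with rfl | rfl | rfl | rfl | rfl | rfl | rfl
  · exact cm01
  · exact cm02
  · exact cm14
  · exact cm_of_comm c05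
  · exact cm03
  · exact cm_of_comm c15
  · exact cm_of_comm c04

/-- inverse transpose -/
def tinv : SLm 7 F →* SLm 7 F where
  toFun A := ⟨(A⁻¹).1ᵀ, by rw [det_transpose]; exact (A⁻¹).2⟩
  map_one' := by
    apply Subtype.ext
    change ((1 : SLm 7 F)⁻¹).1ᵀ = 1
    rw [inv_one]
    exact transpose_one
  map_mul' A B := by
    apply Subtype.ext
    change ((A * B)⁻¹).1ᵀ = (A⁻¹).1ᵀ * (B⁻¹).1ᵀ
    rw [_root_.mul_inv_rev, ← transpose_mul]
    rfl

lemma tinv_apply (A : SLm 7 F) (i j : Fin 8) : (tinv A).1 i j = (A⁻¹).1 j i := rfl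

variable [Finite F]

lemma tinv_UU {i : Fin 12} {t : F} (hi : tht i < 0) : tinv (X i t) ∈ UU 7 F := by
  have h3 : (X i t)⁻¹ = X i (-t) := by
    rw [inv_eq_iff_mul_eq_one, ← X_add, add_neg_cancel]
    have h4 := X_add i (0 : F) 0
    rw [add_zero] at h4
    exact mul_eq_left.1 h4.symm
  have h4 := X_up i (-t) hi
  refine ⟨fun a b hab => ?_, fun a => ?_⟩
  · rw [tinv_apply, h3]
    exact h4.1 b a hab
  · rw [tinv_apply, h3]
    exact h4.2 a

lemma g2_opp : gr (g2x (F := F)) (fun i => 0 < tht i) ⊓ gr (g2x (F := F)) (fun i => tht i < 0) = ⊥ := by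
  rw [eq_bot_iff]
  rintro g ⟨h1, h2⟩
  have e1 : gr (g2x (F := F)) (fun i => 0 < tht i) ≤ (UU 7 F).comap (G2 F).subtype := by
    unfold gr
    rw [closure_le]
    rintro _ ⟨i, t, hi, rfl⟩
    exact ⟨(X_low i t hi).1, (X_low i t hi).2⟩
  have e2 : gr (g2x (F := F)) (fun i => tht i < 0) ≤
      (UU 7 F).comap ((tinv (F := F)).comp (G2 F).subtype) := by
    unfold gr
    rw [closure_le]
    rintro _ ⟨i, t, hi, rfl⟩
    exact tinv_UU hi
  have h3 : g.1 ∈ UU 7 F := e1 h1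
  have h4 : tinv g.1 ∈ UU 7 F := e2 h2
  have h5 : (g.1)⁻¹ ∈ UU 7 F := inv_mem h3
  have h6 : (g.1)⁻¹ = 1 := by
    refine sl_ext fun i j => ?_
    rcases lt_trichotomy i j with h | h | h
    · have h7 : ((g.1)⁻¹).1 i j = 0 := by
        rw [← tinv_apply]
        exact h4.1 j i h
      rw [h7]
      exact (Matrix.one_apply_ne h.ne).symm
    · subst h
      have h7 : ((g.1)⁻¹).1 i i = 1 := h5.2 i
      rw [h7]
      exact (Matrix.one_apply_eq i).symm
    · have h7 : ((g.1)⁻¹).1 i j = 0 := h5.1 i j h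
      rw [h7]
      exact (Matrix.one_apply_ne h.ne').symm
  rw [mem_bot]
  apply Subtype.ext
  exact inv_eq_one.1 h6

lemma g2_gen : gr (g2x (F := F)) (fun _ => True) = ⊤ := by
  rw [eq_top_iff]
  rintro g -
  have h1 : G2 F ≤ (gr (g2x (F := F)) (fun _ => True)).map (G2 F).subtype := by
    refine gen_all ?_ fun i t => ⟨g2x i t, mem_gr (p := fun _ => True) i t trivial, rfl⟩
    rintro _ ⟨a, -, rfl⟩
    exact a.2
  obtain ⟨a, ha, hag⟩ := h1 g.2
  have : a = g := Subtype.ext hag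
  rwa [this] at ha

/-- **Chevalley's relations for `G_2(F)`** -/
theorem g2_cs : CS g2rc (g2x (F := F)) :=
  cs_of (fun i t u => Subtype.ext (X_add i t u))
    (fun i t h => X_inj i t (congrArg Subtype.val h)) rf0 rf1 cm_base g2_gen g2_opp

end

end Vale.Agent.P240.R2.H613.G2
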