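import Vale.Agent.P240.R2.H613.GT7
import Vale.Agent.P240.R2.H165.XC
import Vale.Agent.P240.R2.H165.XA
import Vale.Agent.P240.R2.H164.EX3
import Vale.Agent.P240.H195.Few

/-!
`G_2(F)` has few automorphisms.
-/

set_option autoImplicit false
set_option linter.all false

namespace Vale.Agent.P240.R2.H613.G2

open Subgroup Matrix Vale.Agent.P240.H195 Vale.Agent.P240.R2.H38.Oct Vale.Agent.P240.R2.H986.X

universe u

lemma g2_nonabelian (F : Type*) [Field F] : ∃ x y : ↥(G2 F), x * y ≠ y * x := by
  refine ⟨g2x 1 1, g2x 4 1, fun h => ?_⟩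
  have h1 : P1 (1 : F) * P4 1 = P4 1 * P1 1 := congrArg Subtype.val h
  rw [c14, mul_one] at h1
  have h2 : X 5 (1 : F) = 1 := mul_eq_right.1 h1
  exact one_ne_zero (X_inj 5 _ h2)

/-- permutations of the diagram -/
lemma perm_aux {p r : ℕ} (hp : p.Prime) (hpr : p ≠ r) (h : p ≠ 2 ∨ r ≠ 3)
    (π : Equiv.Perm {i // g2rc.simp i}) (hk : ∃ k, π ^ p ^ k = 1)
    (hl : (r = 2 ∨ r = 3) ∨ ∀ i j, g2rc.pr i.1 j.1 = g2rc.pr (π i).1 (π j).1) : π = 1 := by
  let a : {i // g2rc.simp i} := ⟨0, Or.inl rfl⟩
  let b : {i // g2rc.simp i} := ⟨1, Or.inr rfl⟩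
  have hab : a ≠ b := by
    intro h1
    exact absurd (congrArg Subtype.val h1) (by decide)
  have hc : ∀ i, i = a ∨ i = b := by
    rintro ⟨i, rfl | rfl⟩
    · exact Or.inl rfl
    · exact Or.inr rfl
  rcases hc (π a) with ha | ha
  · have hb : π b = b := by
      rcases hc (π b) with hb | hb
      · exact absurd (π.injective (ha.trans hb.symm)) hab
      · exact hb
    ext1 i
    rcases hc i with rfl | rfl
    · exact ha
    · exact hb
  · exfalso
    have hb : π b = a := by
      rcases hc (π b) with hb | hb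
      · exact hb
      · exact absurd (π.injective (ha.trans hb.symm)) hab
    have h2 : π ^ 2 = 1 := by
      rw [pow_two]
      ext1 i
      rcases hc i with rfl | rfl
      · change π (π a) = a
        rw [ha, hb]
      · change π (π b) = b
        rw [hb, ha]
    obtain ⟨k, hk⟩ := hk
    by_cases hp2 : p = 2
    · have hr : ∀ i j, g2rc.pr i.1 j.1 = g2rc.pr (π i).1 (π j).1 := by
        rcases hl with (hl | hl) | hl
        · exact absurd (hp2.trans hl.symm) hpr
        · rcases h with h | h
          · exact absurd hp2 h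
          · exact absurd hl h
        · exact hl
      have h3 := hr a b
      rw [ha, hb] at h3
      have h4 : tpr 0 1 ≠ tpr 1 0 := by decide +kernel
      exact h4 h3
    · have hodd : Odd (p ^ k) := (hp.odd_of_ne_two hp2).pow
      obtain ⟨m, hm⟩ := hodd
      rw [hm, pow_succ, pow_mul, h2, one_pow, one_mul] at hk
      rw [hk] at ha
      exact hab ha

/-- **few automorphisms** -/
theorem g2_few {F : Type} [Field F] [Finite F] {p r : ℕ} [Fact r.Prime] [CharP F r] (hp : p.Prime)
    (hpr : p ≠ r) (h : p ≠ 2 ∨ r ≠ 3) (hs : IsSimpleGroup ↥(G2 F)) : FewAut p ↥(G2 F) := by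
  classical
  refine H164.EX.stmtX4 (Fin 12) F ↥(G2 F) r g2rc g2x g2_cs hs
    (H165.XC.centre_of_nonabelian hs (g2_nonabelian F)) ?_ p hp hpr
    (fun π hk _ hl => perm_aux hp hpr h π hk hl)
  refine ⟨fun i k => if i = 0 then (if k = 0 then 2 else 3) else (if k = 0 then 1 else 2),
    {0, 1}, fun i => ?_, ?_⟩
  · rw [Finset.mem_insert, Finset.mem_singleton]
    rfl
  · have e00 : g2rc.pr 0 0 = 2 := by decide +kernel
    have e01 : g2rc.pr 0 1 = -1 := by decide +kernel
    have e10 : g2rc.pr 1 0 = -3 := by decide +kernel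
    have e11 : g2rc.pr 1 1 = 2 := by decide +kernel
    rintro i j (rfl | rfl) (rfl | rfl)
    · rw [Finset.sum_pair (by decide), e00, e01, if_pos rfl]
      decide
    · rw [Finset.sum_pair (by decide), e10, e11, if_neg (by decide)]
      decide
    · rw [Finset.sum_pair (by decide), e00, e01, if_neg (by decide)]
      decide
    · rw [Finset.sum_pair (by decide), e10, e11, if_pos rfl]
      decide

/-- **few automorphisms** of all groups isomorphic to `G_2(F)` -/
theorem IsG2.few {F : Type} [Field F] [Finite F] {L : Type u} [Group L] (h : IsG2 F L)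
    (hs : IsSimpleGroup L) {p r : ℕ} [Fact r.Prime] [CharP F r] (hp : p.Prime) (hpr : p ≠ r)
    (h23 : p ≠ 2 ∨ r ≠ 3) : FewAut p L := by
  obtain ⟨e⟩ := h
  have e' : ↥(G2 F) ≃* L := (MulEquiv.subgroupCongr (closure_eq_G2 F)).symm.trans e.symm
  have hs' : IsSimpleGroup ↥(G2 F) := by
    have := hs
    exact e'.isSimpleGroup
  exact FewAut.congr e' (g2_few hp hpr h23 hs')

end Vale.Agent.P240.R2.H613.G2
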