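import Vale.Agent.P240.R2.H613.GT8
import Vale.Agent.P240.R2.H986.X.P4

/-!
`G_2(F)` has few automorphisms, all characteristics.
-/

set_option autoImplicit false
set_option linter.all false

namespace Vale.Agent.P240.R2.H613.G2

open Subgroup Matrix Vale.Agent.P240.H195 Vale.Agent.P240.R2.H38.Oct Vale.Agent.P240.R2.H986.X

universe u

/-- characteristic `3`, the prime `2` -/
theorem g2_few_three {F : Type} [Field F] [Finite F] [CharP F 3] (hs : IsSimpleGroup ↥(G2 F)) :
    FewAut 2 ↥(G2 F) :=
  few_G2_char3 (a := 0) (b := 1) (g2_cs (F := F)) hs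
    (H165.XC.centre_of_nonabelian hs (g2_nonabelian F)) (fun _ => Iff.rfl)
    (by decide +kernel) (by decide +kernel)

/-- **few automorphisms** of all groups isomorphic to `G_2(F)` -/
theorem IsG2.few_all {F : Type} [Field F] [Finite F] {L : Type u} [Group L] (h : IsG2 F L)
    (hs : IsSimpleGroup L) {p r : ℕ} [Fact r.Prime] [CharP F r] (hp : p.Prime) (hpr : p ≠ r) :
    FewAut p L := by
  by_cases h23 : p ≠ 2 ∨ r ≠ 3
  · exact IsG2.few h hs hp hpr h23
  push Not at h23
  obtain ⟨h2, h3⟩ := h23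
  subst h2
  subst h3
  obtain ⟨e⟩ := h
  have e' : ↥(G2 F) ≃* L := (MulEquiv.subgroupCongr (closure_eq_G2 F)).symm.trans e.symm
  have hs' : IsSimpleGroup ↥(G2 F) := by
    have := hs
    exact e'.isSimpleGroup
  exact FewAut.congr e' (g2_few_three hs')

end Vale.Agent.P240.R2.H613.G2
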