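import Vale.Agent.P240.R2.H487.CG.Defs
import Vale.Agent.P240.R2.AS.Defs2
import Mathlib.LinearAlgebra.Matrix.SchurComplement

/-!
The centre of the special unitary group in the antidiagonal form `JJ` consists of scalars
(P240, module I1).
-/

set_option autoImplicit false

namespace Vale.Agent.P240.R2.H613.I1

open Matrix Finset
open Vale.Agent.P240.R2.H487.CG

universe u

section

variable {K : Type u} [Field K] [StarRing K] {n : ℕ}

/-- the sign `(-1)^(n-1)` -/
def ep (n : ℕ) (K : Type u) [Field K] : K := (-1) ^ (n - 1)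

omit [StarRing K] in
lemma ep_sq : ep n K * ep n K = 1 := by
  unfold ep
  rw [← pow_add, ← two_mul, pow_mul]
  simp

omit [StarRing K] in
lemma sg_rev (i : Fin n) : (-1 : K) ^ (Fin.rev i).val = ep n K * (-1) ^ i.val := by
  unfold ep
  have h1 : (Fin.rev i).val + i.val = n - 1 := by
    rw [Fin.val_rev]
    omega
  have h2 : (-1 : K) ^ i.val * (-1) ^ i.val = 1 := by
    rw [← pow_add, ← two_mul, pow_mul]
    simp
  rw [← h1, pow_add, mul_assoc, h2, mul_one]

lemma star_sg (k : ℕ) : star ((-1 : K) ^ k) = (-1) ^ k := by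
  rw [star_pow, star_neg, star_one]

lemma star_ep : star (ep n K) = ep n K := star_sg _

omit [StarRing K] in
lemma JJ_apply (i j : Fin n) : JJ n K i j = if j = Fin.rev i then (-1) ^ i.val else 0 := rfl

omit [StarRing K] in
lemma JJ_transpose : (JJ n K)ᵀ = ep n K • JJ n K := by
  ext i j
  rw [Matrix.transpose_apply, Matrix.smul_apply, JJ_apply, JJ_apply, smul_eq_mul]
  by_cases h : j = Fin.rev i
  · subst h
    rw [if_pos (Fin.rev_rev i).symm, if_pos rfl, sg_rev]
  · rw [if_neg h, if_neg (fun h1 => h (by rw [h1, Fin.rev_rev])), mul_zero]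

/-- the row `v* J` -/
def row (v : Fin n → K) : Fin n → K := fun j => star (v (Fin.rev j)) * (-1) ^ (Fin.rev j).val

lemma row_eq (v : Fin n → K) : row v = star v ᵥ* JJ n K := by
  funext j
  unfold row
  rw [vecMul, dotProduct, Finset.sum_eq_single (Fin.rev j)]
  · rw [JJ_apply, if_pos (Fin.rev_rev j).symm]
    rfl
  · intro i _ hi
    rw [JJ_apply, if_neg, mul_zero]
    intro h
    apply hi
    rw [h, Fin.rev_rev]
  · intro h; exact absurd (Finset.mem_univ _) h

lemma star_row (v : Fin n → K) : star (row v) = ep n K • (JJ n K *ᵥ v) := by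
  rw [← smul_mulVec, ← JJ_transpose]
  funext j
  rw [Pi.star_apply, mulVec, dotProduct, Finset.sum_eq_single (Fin.rev j)]
  · unfold row
    rw [Matrix.transpose_apply, JJ_apply, if_pos (Fin.rev_rev j).symm, star_mul', star_star, star_sg,
      mul_comm]
  · intro i _ hi
    rw [Matrix.transpose_apply, JJ_apply, if_neg, zero_mul]
    intro h
    apply hi
    rw [h, Fin.rev_rev]
  · intro h; exact absurd (Finset.mem_univ _) h

/-- the transvection -/
def tv (c : K) (v : Fin n → K) : Matrix (Fin n) (Fin n) K := 1 + c • vecMulVec v (row v)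

lemma tv_det (c : K) (v : Fin n → K) (hv : row v ⬝ᵥ v = 0) : (tv c v).det = 1 := by
  unfold tv
  have h1 : c • vecMulVec v (row v) = replicateCol Unit (c • v) * replicateRow Unit (row v) := by
    rw [← vecMulVec_eq, smul_vecMulVec]
  rw [h1, det_one_add_replicateCol_mul_replicateRow, dotProduct_smul, hv, smul_zero, add_zero]

lemma tv_form {σ : K ≃+* K} (hσ : ∀ x, σ x = star x) {c : K} (hc : c + ep n K * star c = 0)
    (v : Fin n → K) (hv : row v ⬝ᵥ v = 0) :
    ((tv c v).map σ)ᵀ * JJ n K * tv c v = JJ n K := by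
  have h0 : ((tv c v).map σ)ᵀ = (tv c v)ᴴ := by
    ext i j
    rw [Matrix.transpose_apply, Matrix.map_apply, hσ]
    rfl
  have h1 : (tv c v)ᴴ = 1 + (star c * ep n K) • vecMulVec (JJ n K *ᵥ v) (star v) := by
    unfold tv
    rw [conjTranspose_add, conjTranspose_one, conjTranspose_smul, conjTranspose_vecMulVec, star_row,
      smul_vecMulVec, smul_smul]
  rw [h0, h1]
  unfold tv
  rw [add_mul, one_mul, smul_mul_assoc, vecMulVec_mul, ← row_eq, mul_add, mul_one, add_mul,
    mul_smul_comm, mul_vecMulVec, smul_mul_assoc, mul_smul_comm, vecMulVec_mul_vecMulVec, hv]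
  have h5 : vecMulVec (JJ n K *ᵥ v) (0 : Fin n → K) = 0 := by
    ext i j
    rw [vecMulVec_apply, Pi.zero_apply, mul_zero, Matrix.zero_apply]
  rw [zero_smul, h5, smul_zero, smul_zero, add_zero]
  have h2 : star c * ep n K = -c := by linear_combination hc
  rw [h2, neg_smul]
  abel

/-- the transvection as an element of the group -/
def tvG {σ : K ≃+* K} (hσ : ∀ x, σ x = star x) {c : K} (hc : c + ep n K * star c = 0)
    (v : Fin n → K) (hv : row v ⬝ᵥ v = 0) : GJ n σ :=
  ⟨⟨tv c v, tv_det c v hv⟩, tv_form hσ hc v hv⟩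

lemma comm_iso {σ : K ≃+* K} (hσ : ∀ x, σ x = star x) {c : K} (hc : c + ep n K * star c = 0)
    (hc0 : c ≠ 0) {z : GJ n σ} (hz : z ∈ Subgroup.center (GJ n σ)) (v : Fin n → K)
    (hv : row v ⬝ᵥ v = 0) (i j : Fin n) :
    (z.1.1 *ᵥ v) i * row v j = v i * (row v ᵥ* z.1.1) j := by
  have h1 := Subgroup.mem_center_iff.1 hz (tvG hσ hc v hv)
  have h2 : tv c v * z.1.1 = z.1.1 * tv c v :=
    congrArg (fun x : GJ n σ => x.1.1) h1
  unfold tv at h2
  rw [add_mul, mul_add, one_mul, mul_one, add_right_inj, smul_mul_assoc, mul_smul_comm] at h2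
  have h3 := smul_right_injective _ hc0 h2
  rw [vecMulVec_mul, mul_vecMulVec] at h3
  have h4 := congrFun (congrFun h3 i) j
  rw [vecMulVec_apply, vecMulVec_apply] at h4
  exact h4.symm

lemma row_single {i j : Fin n} : row (Pi.single i (1 : K)) j =
    if j = Fin.rev i then (-1 : K) ^ i.val else 0 := by
  unfold row
  by_cases h : j = Fin.rev i
  · rw [if_pos h, h, Fin.rev_rev, Pi.single_eq_same, star_one, one_mul]
  · rw [if_neg h, Pi.single_eq_of_ne (fun h1 => h (by rw [← h1, Fin.rev_rev])), star_zero, zero_mul]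

lemma row_add (u v : Fin n → K) : row (u + v) = row u + row v := by
  funext j
  simp only [row, Pi.add_apply, star_add, add_mul]

lemma row_smul (b : K) (v : Fin n → K) : row (b • v) = star b • row v := by
  funext j
  simp only [row, Pi.smul_apply, smul_eq_mul, star_mul', mul_assoc]

lemma row_dot (i j : Fin n) : row (Pi.single i (1 : K)) ⬝ᵥ Pi.single j (1 : K) =
    if j = Fin.rev i then (-1 : K) ^ i.val else 0 := by
  rw [dotProduct_single_one, row_single]

omit [StarRing K] in
lemma sg_ne (i : ℕ) : (-1 : K) ^ i ≠ 0 := pow_ne_zero _ (neg_ne_zero.2 one_ne_zero)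

/-- the centre consists of scalars -/
theorem center_scalar {σ : K ≃+* K} (hσ : ∀ x, σ x = star x) {c : K}
    (hc : c + ep n K * star c = 0) (hc0 : c ≠ 0) (htr : ∃ b : K, b + star b = 1)
    {z : GJ n σ} (hz : z ∈ Subgroup.center (GJ n σ)) : ∃ a : K, z.1.1 = a • 1 := by
  set A : Matrix (Fin n) (Fin n) K := z.1.1 with hA
  -- the coordinate vectors outside the middle
  have key1 : ∀ i : Fin n, Fin.rev i ≠ i →
      (∀ k, k ≠ i → A k i = 0) ∧ (∀ k, k ≠ Fin.rev i → A (Fin.rev i) k = 0) := by
    intro i hi
    have hv : row (Pi.single i (1 : K)) ⬝ᵥ (Pi.single i (1 : K)) = 0 := by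
      rw [dotProduct_single_one, row_single, if_neg (Ne.symm hi)]
    have h1 := comm_iso hσ hc hc0 hz _ hv
    have h2 : ∀ k, (A *ᵥ Pi.single i (1 : K)) k = A k i := by
      intro k
      rw [mulVec_single_one]
      rfl
    have h3 : ∀ k, (row (Pi.single i (1 : K)) ᵥ* A) k = (-1 : K) ^ i.val * A (Fin.rev i) k := by
      intro k
      rw [vecMul, dotProduct, Finset.sum_eq_single (Fin.rev i)]
      · rw [row_single, if_pos rfl]
      · intro l _ hl
        rw [row_single, if_neg hl, zero_mul]
      · intro h; exact absurd (Finset.mem_univ _) h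
    constructor
    · intro k hk
      have h4 := h1 k (Fin.rev i)
      rw [h2, row_single, if_pos rfl, Pi.single_eq_of_ne hk, zero_mul] at h4
      exact (mul_eq_zero.1 h4).resolve_right (sg_ne _)
    · intro k hk
      have h4 := h1 i k
      rw [h3, row_single, if_neg hk, mul_zero, Pi.single_eq_same, one_mul] at h4
      exact (mul_eq_zero.1 h4.symm).resolve_left (sg_ne _)
  have hdiag : ∀ i j, i ≠ j → A i j = 0 := by
    intro i j hij
    by_cases hj : Fin.rev j = j
    · have hi : Fin.rev (Fin.rev i) ≠ Fin.rev i := by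
        rw [Fin.rev_rev]
        intro h
        apply hij
        have hi' : i.val = n - (i.val + 1) := by
          conv_lhs => rw [h]
          exact Fin.val_rev i
        have hj' : j.val = n - (j.val + 1) := by
          conv_lhs => rw [← hj]
          exact Fin.val_rev j
        apply Fin.ext
        omega
      have h1 := (key1 (Fin.rev i) hi).2 j (by rw [Fin.rev_rev]; exact Ne.symm hij)
      rwa [Fin.rev_rev] at h1
    · exact (key1 j hj).1 i hij
  have hmv : ∀ (v : Fin n → K) i, (A *ᵥ v) i = A i i * v i := by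
    intro v i
    rw [mulVec, dotProduct, Finset.sum_eq_single i]
    · intro k _ hk
      rw [hdiag i k (Ne.symm hk), zero_mul]
    · intro h; exact absurd (Finset.mem_univ _) h
  have hvm : ∀ (w : Fin n → K) j, (w ᵥ* A) j = w j * A j j := by
    intro w j
    rw [vecMul, dotProduct, Finset.sum_eq_single j]
    · intro k _ hk
      rw [hdiag k j hk, mul_zero]
    · intro h; exact absurd (Finset.mem_univ _) h
  have key2 : ∀ (v : Fin n → K), row v ⬝ᵥ v = 0 → ∀ i j, v i ≠ 0 → row v j ≠ 0 →
      A i i = A j j := by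
    intro v hv i j hi hj
    have h1 := comm_iso hσ hc hc0 hz v hv i j
    rw [hmv, hvm] at h1
    apply mul_right_cancel₀ (mul_ne_zero hi hj)
    linear_combination h1
  have e3 : ∀ i, A i i = A (Fin.rev i) (Fin.rev i) := by
    intro i
    by_cases hi : Fin.rev i = i
    · rw [hi]
    · apply key2 (Pi.single i 1)
      · rw [row_dot, if_neg (Ne.symm hi)]
      · rw [Pi.single_eq_same]; exact one_ne_zero
      · rw [row_single, if_pos rfl]; exact sg_ne _
  have e2 : ∀ i j, Fin.rev i ≠ i → Fin.rev j ≠ j → A i i = A j j := by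
    intro i j hi hj
    by_cases h1 : i = j
    · rw [h1]
    by_cases h2 : j = Fin.rev i
    · rw [h2]; exact e3 i
    have h2' : i ≠ Fin.rev j := fun h => h2 (by rw [h, Fin.rev_rev])
    rw [e3 j]
    apply key2 (Pi.single i 1 + Pi.single j 1)
    · rw [row_add, add_dotProduct, dotProduct_add, dotProduct_add, row_dot, row_dot, row_dot, row_dot,
        if_neg (Ne.symm hi), if_neg h2, if_neg h2', if_neg (Ne.symm hj)]
      ring
    · rw [Pi.add_apply, Pi.single_eq_same, Pi.single_eq_of_ne h1, add_zero]
      exact one_ne_zero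
    · rw [row_add, Pi.add_apply, row_single, row_single, if_pos rfl, if_neg, zero_add]
      · exact sg_ne _
      · intro h
        exact h1 (Fin.rev_injective h).symm
  have e4 : ∀ m i, Fin.rev m = m → Fin.rev i ≠ i → A m m = A i i := by
    intro m i hm hi
    have hep : ep n K = 1 := by
      have h1 := sg_rev (K := K) m
      rw [hm] at h1
      apply mul_right_cancel₀ (sg_ne (K := K) m.val)
      rw [← h1, one_mul]
    obtain ⟨b0, hb0⟩ := htr
    have hsq : ∀ k : ℕ, (-1 : K) ^ k * (-1) ^ k = 1 := by
      intro k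
      rw [← pow_add, ← two_mul, pow_mul]
      simp
    set b : K := -((-1) ^ m.val * (-1) ^ i.val * b0) with hb
    have hmi : m ≠ i := by rintro rfl; exact hi hm
    have hmi' : m ≠ Fin.rev i := by
      intro h
      have h1 : Fin.rev m = i := by rw [h, Fin.rev_rev]
      exact hmi (hm.symm.trans h1)
    have hirm : i ≠ Fin.rev m := by rw [hm]; exact Ne.symm hmi
    have hbs : b + star b = -((-1) ^ m.val * (-1) ^ i.val) := by
      rw [hb, star_neg, star_mul', star_mul', star_sg, star_sg]
      linear_combination (-((-1) ^ m.val * (-1) ^ i.val)) * hb0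
    set w : Fin n → K := Pi.single m 1 + (Pi.single i 1 + b • Pi.single (Fin.rev i) 1) with hw
    rw [e3 i]
    apply key2 w
    · rw [hw, row_add, row_add, row_smul, add_dotProduct, add_dotProduct, dotProduct_add,
        dotProduct_add, dotProduct_add, dotProduct_add, dotProduct_add, dotProduct_add,
        smul_dotProduct, smul_dotProduct, smul_dotProduct, dotProduct_smul, dotProduct_smul,
        dotProduct_smul]
      simp only [row_dot, Fin.rev_rev]
      have hA1 : ¬ (i = m.rev) := hirm
      have hA2 : ¬ (Fin.rev i = m.rev) := fun h => hmi (Fin.rev_injective h).symm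
      have hA3 : ¬ (i = Fin.rev i) := Ne.symm hi
      simp only [if_true, if_pos hm.symm, if_neg hA1, if_neg hA2, if_neg hA3, if_neg hmi, if_neg hmi', if_neg hi,
        sg_rev i, hep, smul_eq_mul]
      have h5 := hsq i.val
      linear_combination ((-1) ^ i.val) * hbs - ((-1) ^ m.val) * h5
    · rw [hw, Pi.add_apply, Pi.add_apply, Pi.smul_apply, Pi.single_eq_same, Pi.single_eq_of_ne hmi,
        Pi.single_eq_of_ne hmi', smul_zero, add_zero, add_zero]
      exact one_ne_zero
    · rw [hw, row_add, row_add, row_smul, Pi.add_apply, Pi.add_apply, Pi.smul_apply, row_single,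
        row_single, row_single, if_neg, if_pos rfl, if_neg, smul_zero, add_zero, zero_add]
      · exact sg_ne _
      · intro h
        exact hi (Fin.rev_injective h).symm
      · intro h
        exact hmi (Fin.rev_injective h).symm
  have hall : ∀ i j, A i i = A j j := by
    intro i j
    by_cases hi : Fin.rev i = i
    · by_cases hj : Fin.rev j = j
      · have hi' : i.val = n - (i.val + 1) := by
          conv_lhs => rw [← hi]
          exact Fin.val_rev i
        have hj' : j.val = n - (j.val + 1) := by
          conv_lhs => rw [← hj]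
          exact Fin.val_rev j
        have : i = j := Fin.ext (by omega)
        rw [this]
      · exact e4 i j hi hj
    · by_cases hj : Fin.rev j = j
      · exact (e4 j i hj hi).symm
      · exact e2 i j hi hj
  rcases isEmpty_or_nonempty (Fin n) with he | ⟨⟨i0⟩⟩
  · exact ⟨1, by ext j; exact (he.false j).elim⟩
  · refine ⟨A i0 i0, ?_⟩
    ext i j
    rw [Matrix.smul_apply, smul_eq_mul]
    by_cases h : i = j
    · subst h
      rw [one_apply_eq, mul_one]
      exact hall _ _
    · rw [hdiag i j h, one_apply_ne h, mul_zero]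

end

end Vale.Agent.P240.R2.H613.I1
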