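import Vale.Agent.P240.R2.H472.PH
import Vale.Agent.P240.R2.H63.Inj
import Vale.Agent.P240.R2.H401.NL5c

/-!
Automorphisms of `PSU_n(q)` of order two, `q > 3` odd, `n ≥ 3`: they are given by `y ↦ g y g⁻¹` or
`y ↦ g (star y) g⁻¹` (entrywise star) with a unitary matrix `g`.
-/

set_option autoImplicit false

namespace Vale.Agent.P240.R2.H613.PU

open Matrix Vale.Agent.P240.R2.AS
open scoped Classical

noncomputable section

variable {K : Type} [Field K] [Fintype K] [StarRing K] {n q : ℕ}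

/-- the element of `PΓU_n(q)` that gives an automorphism of order two has order two -/
theorem exists_inv (hq : 3 < q) (hqo : q % 2 = 1) (hK : Nat.card K = q ^ 2)
    (hs : ∀ x : K, star x = x ^ q) (h2 : (2 : K) ≠ 0) (hn : 3 ≤ n) (f : MulAut (PSU K n))
    (hf : f * f = 1) : ∃ x : PGamU K n, x * x = 1 ∧ ∀ y : PSU K n,
      (SemidirectProduct.inl ((f y : PSU K n) : PGU K n) : PGamU K n) =
        x * SemidirectProduct.inl (y : PGU K n) * x⁻¹ := by
  obtain ⟨x, hx⟩ := H472.aut_PSU hq hK hs h2 hn (MulEquiv.refl _) f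
  have hx' : ∀ y : PSU K n, (SemidirectProduct.inl ((f y : PSU K n) : PGU K n) : PGamU K n) =
      x * SemidirectProduct.inl (y : PGU K n) * x⁻¹ := hx
  refine ⟨x, ?_, hx'⟩
  refine H63.Inj.stmtINJ K q (by omega) hK hs hqo n hn (x * x) ?_
  rintro _ ⟨y, hy, rfl⟩
  have h1 := hx' (f ⟨y, hy⟩)
  rw [hx' ⟨y, hy⟩] at h1
  have h3 : f (f ⟨y, hy⟩) = ⟨y, hy⟩ := by
    have := congrArg (fun g : MulAut (PSU K n) => g ⟨y, hy⟩) hf
    exact this
  rw [h3] at h1
  have h4 : (SemidirectProduct.inl y : PGamU K n) =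
      x * (x * SemidirectProduct.inl y * x⁻¹) * x⁻¹ := h1
  have h5 : (SemidirectProduct.inl y : PGamU K n) * (x * x) = (x * x) * SemidirectProduct.inl y := by
    conv_lhs => rw [h4]
    group
  exact h5.symm

/-- entrywise `star` as an element of `SA K` -/
def stA (K : Type) [Field K] [StarRing K] : SA K := ⟨starRingAut, fun _ => rfl⟩

theorem sa_two (hK : Nat.card K = q ^ 2) (hs : ∀ x : K, star x = x ^ q) (s : SA K)
    (h : s * s = 1) : s = 1 ∨ s = stA K := by
  by_cases h1 : s.1 = 1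
  · exact Or.inl (Subtype.ext h1)
  · right
    apply Subtype.ext
    ext x
    refine H401.aut_eq_star hK hs s.1 ?_ ?_ x
    · have := congrArg Subtype.val h
      rw [pow_two]
      exact this
    · exact h1

/-- automorphisms of order two -/
theorem inv_form (hq : 3 < q) (hqo : q % 2 = 1) (hK : Nat.card K = q ^ 2)
    (hs : ∀ x : K, star x = x ^ q) (h2 : (2 : K) ≠ 0) (hn : 3 ≤ n) (f : MulAut (PSU K n))
    (hf : f * f = 1) : ∃ (g : GU K n) (s : SA K), (s = 1 ∨ s = stA K) ∧
      (QuotientGroup.mk g : PGU K n) * act n s (QuotientGroup.mk g) = 1 ∧ ∀ y : PSU K n,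
      ((f y : PSU K n) : PGU K n) =
        (QuotientGroup.mk g : PGU K n) * act n s (y : PGU K n) * (QuotientGroup.mk g : PGU K n)⁻¹ := by
  obtain ⟨x, hx1, hx⟩ := exists_inv hq hqo hK hs h2 hn f hf
  obtain ⟨g, hg⟩ := QuotientGroup.mk_surjective x.left
  refine ⟨g, x.right, sa_two hK hs _ ?_, ?_, fun y => ?_⟩
  · have := congrArg SemidirectProduct.right hx1
    exact this
  · have := congrArg SemidirectProduct.left hx1
    rw [SemidirectProduct.mul_left, ← hg] at this
    exact this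
  · have h1 := hx y
    rw [H472.conj_inl] at h1
    have h3 := SemidirectProduct.inl_injective h1
    rw [hg]
    exact h3

/-- automorphisms of order two, with matrices -/
theorem inv_mat (hq : 3 < q) (hqo : q % 2 = 1) (hK : Nat.card K = q ^ 2)
    (hs : ∀ x : K, star x = x ^ q) (h2 : (2 : K) ≠ 0) (hn : 3 ≤ n) (f : MulAut (PSU K n))
    (hf : f * f = 1) : ∃ g : GU K n,
      ((∃ c : K, g.1 * g.1 = c • 1) ∧ ∀ h h' : H38.SU K n,
        H38.mt h' = g.1 * H38.mt h * star g.1 → f (H472.prU K n h) = H472.prU K n h') ∨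
      ((∃ c : K, g.1 * g.1.map star = c • 1) ∧ ∀ h h' : H38.SU K n,
        H38.mt h' = g.1 * (H38.mt h).map star * star g.1 →
          f (H472.prU K n h) = H472.prU K n h') := by
  obtain ⟨g, s, h1, h3, h4⟩ := inv_form hq hqo hK hs h2 hn f hf
  have hz1 : (-1 : K) ≠ 1 := by
    intro h
    apply h2
    linear_combination -h
  have hz2 : (-1 : K) * star (-1) = 1 := by simp
  refine ⟨g, ?_⟩
  have h5 : ∃ c : K, g.1 * g.1.map s.1 = c • (1 : Matrix (Fin n) (Fin n) K) := by
    have h6 : (QuotientGroup.mk (g * mapGU s g) : PGU K n) = 1 := h3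
    rw [QuotientGroup.eq_one_iff] at h6
    exact (H296.mem_center_iff hz1 hz2 _).1 h6
  have h6 : ∀ h h' : H38.SU K n, H38.mt h' = g.1 * (H38.mt h).map s.1 * star g.1 →
      f (H472.prU K n h) = H472.prU K n h' := by
    intro h h' hh
    apply Subtype.ext
    rw [h4, H472.prU_val, H472.prU_val]
    have h7 : h'.1 = g * mapGU s h.1 * g⁻¹ := Subtype.ext hh
    rw [h7]
    rfl
  rcases h1 with rfl | rfl
  · left
    have e : ∀ A : Matrix (Fin n) (Fin n) K, A.map (1 : SA K).1 = A := by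
      intro A; ext i j; rfl
    rw [e] at h5
    refine ⟨h5, fun h h' hh => h6 h h' ?_⟩
    rw [e]; exact hh
  · right
    have e : ∀ A : Matrix (Fin n) (Fin n) K, A.map (stA K).1 = A.map star := by
      intro A; ext i j; rfl
    rw [e] at h5
    refine ⟨h5, fun h h' hh => h6 h h' ?_⟩
    rw [e]; exact hh

end

end Vale.Agent.P240.R2.H613.PU
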