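import Vale.Agent.P240.R2.H613.PUa
import Vale.Agent.P240.R2.H923.PUDefs

/-!
(ROW I of helper923): involutions of `Aut(PSU_n(q))`.
-/

set_option autoImplicit false

namespace Vale.Agent.P240.R2.H613.PU

open Matrix Vale.Agent.P240.R2.AS
open scoped Classical

/-- ROW I -/
theorem stmtI : H923.PU.StmtI.{0} := by
  intro K _ _ _ q hq hqo hK hs n hn f hf
  have hqo' : q % 2 = 1 := Nat.odd_iff.1 hqo
  have h2 : (2 : K) ≠ 0 := by
    intro h
    have h4 : ((Nat.card K : ℕ) : K) = 0 := by
      rw [Nat.card_eq_fintype_card]; exact Nat.cast_card_eq_zero K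
    rw [hK] at h4
    push_cast at h4
    have h5 : (q : K) = 0 := pow_eq_zero_iff (two_ne_zero) |>.1 h4
    obtain ⟨m, hm⟩ := hqo
    rw [hm] at h5
    push_cast at h5
    rw [h, zero_mul, zero_add] at h5
    exact one_ne_zero h5
  obtain ⟨g, s, h1, _, h4⟩ := inv_form (by omega) hqo' hK hs h2 hn f (by rw [← pow_two]; exact hf)
  refine ⟨g, ?_⟩
  rcases h1 with rfl | rfl
  · left
    intro y
    rw [h4 y, map_one]
    rfl
  · right
    intro X X' hX y hy
    rw [h4 y, hy]
    have h5 : act n (stA K) (QuotientGroup.mk X : PGU K n) = QuotientGroup.mk (mapGU (stA K) X) := rfl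
    have h6 : mapGU (stA K) X = X' := by
      apply Subtype.ext
      rw [hX]
      rfl
    rw [h5, h6]

end Vale.Agent.P240.R2.H613.PU
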