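import Vale.Agent.P240.R2.H715.SpStmts

/-!
StmtSQ: pairs of generators of the quaternion group in `SL_2(K)` (P240, symplectic groups).
-/

set_option autoImplicit false

namespace Vale.Agent.P240.R2.H613

open Matrix Vale.Agent.P240.R2.H715

universe u

section

variable {K : Type u} [Field K]

/-- Cayley-Hamilton in dimension two: an element of `SL_2` with square `-1` has trace zero -/
lemma tr_zero {a : S2 K} (h : a.1 * a.1 = -1) : a.1 1 1 = - a.1 0 0 := by
  have hd := a.2
  rw [det_fin_two] at hd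
  have h00 := congrFun (congrFun h 0) 0
  have h01 := congrFun (congrFun h 0) 1
  have h10 := congrFun (congrFun h 1) 0
  have h11 := congrFun (congrFun h 1) 1
  simp only [Matrix.mul_apply, Fin.sum_univ_two, Matrix.neg_apply, Matrix.one_apply_eq] at h00 h11
  simp only [Matrix.mul_apply, Fin.sum_univ_two, Matrix.neg_apply, ne_eq, zero_ne_one, one_ne_zero,
    not_false_eq_true, Matrix.one_apply_ne, neg_zero] at h01 h10
  by_contra hne
  have ht : a.1 0 0 + a.1 1 1 ≠ 0 := fun h0 => hne (by linear_combination h0)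
  have e1 : a.1 0 0 = 0 := by
    apply (mul_eq_zero.1 (show (a.1 0 0 + a.1 1 1) * a.1 0 0 = 0 by
      linear_combination h00 + hd)).resolve_left ht
  have e2 : a.1 1 1 = 0 := by
    apply (mul_eq_zero.1 (show (a.1 0 0 + a.1 1 1) * a.1 1 1 = 0 by
      linear_combination h11 + hd)).resolve_left ht
  exact ht (by rw [e1, e2, add_zero])

/-- a nonzero `2 × 2` matrix has a kernel of dimension at most one -/
lemma ker_line {k : Matrix (Fin 2) (Fin 2) K} (hk : k ≠ 0) {v w : Fin 2 → K} (hv : v ≠ 0)
    (h1 : k *ᵥ v = 0) (h2 : k *ᵥ w = 0) : ∃ c : K, w = c • v := by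
  have hex : ∃ i, k i 0 ≠ 0 ∨ k i 1 ≠ 0 := by
    by_contra hcon
    push Not at hcon
    apply hk
    ext i j
    fin_cases j
    · exact (hcon i).1
    · exact (hcon i).2
  obtain ⟨i, hi⟩ := hex
  have e1 := congrFun h1 i
  have e2 := congrFun h2 i
  simp only [mulVec, dotProduct, Fin.sum_univ_two, Pi.zero_apply] at e1 e2
  have hdet : v 0 * w 1 - v 1 * w 0 = 0 := by
    rcases hi with hi | hi
    · apply (mul_eq_zero.1 (show k i 0 * (v 0 * w 1 - v 1 * w 0) = 0 by
        linear_combination (w 1) * e1 - (v 1) * e2)).resolve_left hi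
    · apply (mul_eq_zero.1 (show k i 1 * (v 0 * w 1 - v 1 * w 0) = 0 by
        linear_combination (v 0) * e2 - (w 0) * e1)).resolve_left hi
  by_cases h0 : v 0 = 0
  · have hv1 : v 1 ≠ 0 := by
      intro h
      apply hv
      ext j
      fin_cases j
      · exact h0
      · exact h
    refine ⟨w 1 / v 1, ?_⟩
    ext j
    fin_cases j
    · simp only [Fin.zero_eta, Pi.smul_apply, smul_eq_mul, h0, mul_zero]
      rw [h0, zero_mul, zero_sub, neg_eq_zero] at hdet
      exact (mul_eq_zero.1 hdet).resolve_left hv1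
    · simp only [Fin.mk_one, Pi.smul_apply, smul_eq_mul]
      field_simp
  · refine ⟨w 0 / v 0, ?_⟩
    ext j
    fin_cases j
    · simp only [Fin.zero_eta, Pi.smul_apply, smul_eq_mul]
      field_simp
    · simp only [Fin.mk_one, Pi.smul_apply, smul_eq_mul]
      field_simp
      linear_combination hdet

/-- a nonzero intertwiner is invertible -/
lemma det_ne {a b a' b' k : Matrix (Fin 2) (Fin 2) K} (h2 : (2 : K) ≠ 0) (ha : a * a = -1)
    (hb : b * b = -1) (hab : a * b = -(b * a)) (hk : k ≠ 0) (h1 : k * a = a' * k)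
    (h3 : k * b = b' * k) : k.det ≠ 0 := by
  intro hdet
  obtain ⟨v, hv, hkv⟩ := Matrix.exists_mulVec_eq_zero_iff.2 hdet
  have e1 : k *ᵥ (a *ᵥ v) = 0 := by
    rw [mulVec_mulVec, h1, ← mulVec_mulVec, hkv, mulVec_zero]
  have e2 : k *ᵥ (b *ᵥ v) = 0 := by
    rw [mulVec_mulVec, h3, ← mulVec_mulVec, hkv, mulVec_zero]
  obtain ⟨c, hc⟩ := ker_line hk hv hkv e1
  obtain ⟨d, hd⟩ := ker_line hk hv hkv e2
  have hc2 : (c * c + 1) • v = 0 := by
    have h4 : (a * a) *ᵥ v = (c * c) • v := by
      rw [← mulVec_mulVec, hc, mulVec_smul, hc, smul_smul]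
    rw [ha, neg_mulVec, one_mulVec] at h4
    rw [add_smul, ← h4, one_smul, neg_add_cancel]
  have hd2 : (d * d + 1) • v = 0 := by
    have h4 : (b * b) *ᵥ v = (d * d) • v := by
      rw [← mulVec_mulVec, hd, mulVec_smul, hd, smul_smul]
    rw [hb, neg_mulVec, one_mulVec] at h4
    rw [add_smul, ← h4, one_smul, neg_add_cancel]
  have hcd : (2 * (c * d)) • v = 0 := by
    have h4 : (a * b) *ᵥ v = (d * c) • v := by
      rw [← mulVec_mulVec, hd, mulVec_smul, hc, smul_smul]
    have h5 : (b * a) *ᵥ v = (c * d) • v := by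
      rw [← mulVec_mulVec, hc, mulVec_smul, hd, smul_smul]
    rw [hab, neg_mulVec, h5] at h4
    rw [two_mul, add_smul]
    nth_rewrite 2 [mul_comm]
    rw [← h4, add_neg_cancel]
  have f1 := (smul_eq_zero.1 hc2).resolve_right hv
  have f2 := (smul_eq_zero.1 hd2).resolve_right hv
  have f3 := (smul_eq_zero.1 hcd).resolve_right hv
  have f4 := (mul_eq_zero.1 f3).resolve_left h2
  rcases mul_eq_zero.1 f4 with h | h
  · rw [h, mul_zero, zero_add] at f1
    exact one_ne_zero f1
  · rw [h, mul_zero, zero_add] at f2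
    exact one_ne_zero f2

/-- uniqueness of the pair up to conjugacy -/
lemma conj_pair (h2 : (2 : K) ≠ 0) {a b a' b' : S2 K} (h : QP a b) (h' : QP a' b') :
    ∃ k k' : Matrix (Fin 2) (Fin 2) K, k * k' = 1 ∧ k' * k = 1 ∧
      k * a.1 = a'.1 * k ∧ k * b.1 = b'.1 * k := by
  let T : Matrix (Fin 2) (Fin 2) K → Matrix (Fin 2) (Fin 2) K := fun X =>
    X - a'.1 * X * a.1 - b'.1 * X * b.1 - (a'.1 * b'.1) * X * (a.1 * b.1)
  have hTa : ∀ X, T X * a.1 = a'.1 * T X := by
    intro X
    have e1 : b.1 * a.1 = -(a.1 * b.1) := by rw [h.anti, neg_neg]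
    have e1' : b'.1 * a'.1 = -(a'.1 * b'.1) := by rw [h'.anti, neg_neg]
    have e2 : a.1 * b.1 * a.1 = b.1 := by
      rw [mul_assoc, e1, mul_neg, ← mul_assoc, h.sqa, neg_mul, one_mul, neg_neg]
    have e3 : a'.1 * (a'.1 * b'.1) = -b'.1 := by
      rw [← mul_assoc, h'.sqa, neg_mul, one_mul]
    simp only [T, sub_mul, mul_sub]
    have l1 : a'.1 * X * a.1 * a.1 = -(a'.1 * X) := by
      rw [mul_assoc (a'.1 * X), h.sqa, mul_neg, mul_one]
    have l2 : b'.1 * X * b.1 * a.1 = -(b'.1 * X * (a.1 * b.1)) := by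
      rw [mul_assoc (b'.1 * X), e1, mul_neg]
    have l3 : a'.1 * b'.1 * X * (a.1 * b.1) * a.1 = a'.1 * b'.1 * X * b.1 := by
      rw [mul_assoc (a'.1 * b'.1 * X), e2]
    have r1 : a'.1 * (a'.1 * X * a.1) = -(X * a.1) := by
      rw [← mul_assoc, ← mul_assoc, h'.sqa, neg_mul, neg_mul, one_mul]
    have r2 : a'.1 * (b'.1 * X * b.1) = a'.1 * b'.1 * X * b.1 := by
      simp only [mul_assoc]
    have r3 : a'.1 * (a'.1 * b'.1 * X * (a.1 * b.1)) = -(b'.1 * X * (a.1 * b.1)) := by
      rw [mul_assoc (a'.1 * b'.1) X, ← mul_assoc a'.1 (a'.1 * b'.1), e3, neg_mul,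
        ← mul_assoc b'.1 X]
    rw [l1, l2, l3, r1, r2, r3]
    abel
  have hTb : ∀ X, T X * b.1 = b'.1 * T X := by
    intro X
    have e1 : b.1 * a.1 = -(a.1 * b.1) := by rw [h.anti, neg_neg]
    have e1' : b'.1 * a'.1 = -(a'.1 * b'.1) := by rw [h'.anti, neg_neg]
    have e2 : a.1 * b.1 * b.1 = -a.1 := by
      rw [mul_assoc, h.sqb, mul_neg, mul_one]
    have e3 : b'.1 * (a'.1 * b'.1) = a'.1 := by
      rw [← mul_assoc, e1', neg_mul, mul_assoc, h'.sqb, mul_neg, mul_one, neg_neg]
    simp only [T, sub_mul, mul_sub]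
    have l1 : a'.1 * X * a.1 * b.1 = a'.1 * X * (a.1 * b.1) := by
      rw [mul_assoc (a'.1 * X)]
    have l2 : b'.1 * X * b.1 * b.1 = -(b'.1 * X) := by
      rw [mul_assoc (b'.1 * X), h.sqb, mul_neg, mul_one]
    have l3 : a'.1 * b'.1 * X * (a.1 * b.1) * b.1 = -(a'.1 * b'.1 * X * a.1) := by
      rw [mul_assoc (a'.1 * b'.1 * X), e2, mul_neg]
    have r1 : b'.1 * (a'.1 * X * a.1) = -(a'.1 * b'.1 * X * a.1) := by
      rw [← mul_assoc, ← mul_assoc, e1', neg_mul, neg_mul]
    have r2 : b'.1 * (b'.1 * X * b.1) = -(X * b.1) := by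
      rw [← mul_assoc, ← mul_assoc, h'.sqb, neg_mul, neg_mul, one_mul]
    have r3 : b'.1 * (a'.1 * b'.1 * X * (a.1 * b.1)) = a'.1 * X * (a.1 * b.1) := by
      rw [mul_assoc (a'.1 * b'.1) X, ← mul_assoc b'.1 (a'.1 * b'.1), e3, ← mul_assoc a'.1 X]
    rw [l1, l2, l3, r1, r2, r3]
    abel
  have hex : ∃ X, T X ≠ 0 := by
    by_contra hcon
    push Not at hcon
    have t1 := tr_zero h.sqa
    have t2 := tr_zero h.sqb
    have t3 : (a.1 * b.1) 1 1 = - (a.1 * b.1) 0 0 := by
      have e := congrArg Matrix.trace h.anti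
      rw [Matrix.trace_neg, Matrix.trace_mul_comm b.1 a.1] at e
      have e4 : (2 : K) * Matrix.trace (a.1 * b.1) = 0 := by linear_combination e
      have e5 := (mul_eq_zero.1 e4).resolve_left h2
      rw [Matrix.trace_fin_two] at e5
      linear_combination e5
    have e1 := congrFun (congrFun (hcon (Matrix.single 0 0 1)) 0) 0
    have e2 := congrFun (congrFun (hcon (Matrix.single 0 1 1)) 0) 1
    simp only [T, Matrix.sub_apply, Matrix.zero_apply] at e1 e2
    have key : ∀ (P Q : Matrix (Fin 2) (Fin 2) K) (j : Fin 2),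
        (P * Matrix.single 0 j 1 * Q : Matrix (Fin 2) (Fin 2) K) 0 j = P 0 0 * Q j j := by
      intro P Q j
      rw [Matrix.mul_apply]
      simp only [Matrix.mul_apply, Fin.sum_univ_two, Matrix.single_apply]
      fin_cases j <;> simp
    rw [key, key, key] at e1
    rw [key, key, key] at e2
    rw [t1, t2, t3] at e2
    have s1 : (Matrix.single 0 0 1 : Matrix (Fin 2) (Fin 2) K) 0 0 = 1 := by simp
    have s2 : (Matrix.single 0 1 1 : Matrix (Fin 2) (Fin 2) K) 0 1 = 1 := by simp
    rw [s1] at e1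
    rw [s2] at e2
    apply h2
    linear_combination e1 + e2
  obtain ⟨X, hX⟩ := hex
  have hdet := det_ne h2 h.sqa h.sqb h.anti hX (hTa X) (hTb X)
  have hu : IsUnit (T X).det := IsUnit.mk0 _ hdet
  exact ⟨T X, (T X)⁻¹, Matrix.mul_nonsing_inv _ hu, Matrix.nonsing_inv_mul _ hu, hTa X, hTb X⟩

end

theorem stmtSQ : StmtSQ.{u} := by
  intro K _ _ h2
  obtain ⟨p, hp⟩ := CharP.exists K
  have hpp : Fact p.Prime := ⟨CharP.char_is_prime K p⟩
  obtain ⟨x0, y0, hxy0⟩ := ZMod.sq_add_sq p (-1 : ZMod p)
  let f : ZMod p →+* K := ZMod.castHom (dvd_refl p) K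
  set x : K := f x0 with hx
  set y : K := f y0 with hy
  have hxy : x ^ 2 + y ^ 2 = -1 := by
    rw [hx, hy, ← map_pow, ← map_pow, ← map_add, hxy0, map_neg, map_one]
  have hσ : ∀ (σ : K ≃+* K) (z : ZMod p), σ (f z) = f z := by
    intro σ z
    have : (σ : K →+* K).comp f = f := RingHom.ext_zmod _ _
    exact DFunLike.congr_fun this z
  let a : S2 K := ⟨!![0, 1; -1, 0], by simp⟩
  let b : S2 K := ⟨!![x, y; y, -x], by rw [det_fin_two_of]; linear_combination -hxy⟩
  have ha1 : a.1 = !![0, 1; -1, 0] := rfl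
  have hb1 : b.1 = !![x, y; y, -x] := rfl
  have hab : a.1 * b.1 = !![y, -x; -x, -y] := by
    rw [ha1, hb1]
    ext i j
    fin_cases i <;> fin_cases j <;> simp
  have hQ : QP a b := by
    refine ⟨?_, ?_, ?_⟩
    · rw [ha1]
      ext i j
      fin_cases i <;> fin_cases j <;> simp
    · rw [hb1]
      ext i j
      fin_cases i <;> fin_cases j <;> simp <;>
        first | linear_combination hxy | linear_combination -hxy | ring
    · rw [hab, ha1, hb1]
      ext i j
      fin_cases i <;> fin_cases j <;> simp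
  refine ⟨a, b, hQ, ?_, fun a' b' h' => conj_pair h2 hQ h', ?_⟩
  · intro σ
    constructor
    · rw [ha1]
      ext i j
      fin_cases i <;> fin_cases j <;> simp
    · rw [hb1]
      ext i j
      fin_cases i <;> fin_cases j <;> simp [hx, hy, hσ]
  · intro T c d hc hd hTa hTb
    rw [ha1] at hTa
    rw [hb1] at hTb
    have a00 := congrFun (congrFun hTa 0) 0
    have a01 := congrFun (congrFun hTa 0) 1
    have a10 := congrFun (congrFun hTa 1) 0
    have a11 := congrFun (congrFun hTa 1) 1
    have b00 := congrFun (congrFun hTb 0) 0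
    have b01 := congrFun (congrFun hTb 0) 1
    have b10 := congrFun (congrFun hTb 1) 0
    have b11 := congrFun (congrFun hTb 1) 1
    simp only [Matrix.smul_apply, smul_eq_mul, Matrix.mul_apply, Fin.sum_univ_two, Matrix.of_apply,
      Matrix.cons_val', Matrix.cons_val_zero, Matrix.cons_val_one, Matrix.cons_val_fin_one,
      Matrix.empty_val'] at a00 a01 a10 a11 b00 b01 b10 b11
    have ext4 : ∀ (A B : Matrix (Fin 2) (Fin 2) K), A 0 0 = B 0 0 → A 0 1 = B 0 1 →
        A 1 0 = B 1 0 → A 1 1 = B 1 1 → A = B := by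
      intro A B h1 h3 h4 h5
      ext i j
      fin_cases i <;> fin_cases j
      · exact h1
      · exact h3
      · exact h4
      · exact h5
    have half : ∀ u : K, 2 * u = 0 → u = 0 := fun u hu => (mul_eq_zero.1 hu).resolve_left h2
    rcases sq_eq_one_iff.1 hc with rfl | rfl
    · have hR : T 1 0 = -T 0 1 := by linear_combination (-1 : K) * a00
      have hS : T 1 1 = T 0 0 := by linear_combination (-1 : K) * a01
      rcases sq_eq_one_iff.1 hd with rfl | rfl
      · have f1 : y * T 0 1 = 0 := half _ (by linear_combination b00 + y * hR)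
        have f2 : x * T 0 1 = 0 := half _ (by linear_combination (-1 : K) * b01 - y * hS)
        have hQ0 : T 0 1 = 0 := by linear_combination T 0 1 * hxy - x * f2 - y * f1
        refine ⟨T 0 0, Or.inl (ext4 _ _ ?_ ?_ ?_ ?_)⟩
        · simp
        · simp [hQ0]
        · simp [hR, hQ0]
        · simp [hS]
      · have f1 : x * T 0 0 = 0 := half _ (by linear_combination b00 - y * hR)
        have f2 : y * T 0 0 = 0 := half _ (by linear_combination b01 - y * hS)
        have hP0 : T 0 0 = 0 := by linear_combination T 0 0 * hxy - x * f1 - y * f2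
        refine ⟨T 0 1, Or.inr (Or.inl (ext4 _ _ ?_ ?_ ?_ ?_))⟩
        · simp [ha1, hP0]
        · simp [ha1]
        · simp [ha1, hR]
        · simp [ha1, hS, hP0]
    · have hR : T 1 0 = T 0 1 := by linear_combination a00
      have hS : T 1 1 = -T 0 0 := by linear_combination a01
      rcases sq_eq_one_iff.1 hd with rfl | rfl
      · have f : T 0 0 * y - T 0 1 * x = 0 := half _ (by linear_combination b01 + y * hS)
        refine ⟨-(T 0 0 * x + T 0 1 * y), Or.inr (Or.inr (Or.inl (ext4 _ _ ?_ ?_ ?_ ?_)))⟩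
        · rw [hb1]
          simp only [Matrix.smul_apply, smul_eq_mul, Matrix.of_apply, Matrix.cons_val', Matrix.cons_val_zero,
            Matrix.cons_val_one, Matrix.cons_val_fin_one]
          linear_combination T 0 0 * hxy - y * f
        · rw [hb1]
          simp only [Matrix.smul_apply, smul_eq_mul, Matrix.of_apply, Matrix.cons_val', Matrix.cons_val_zero,
            Matrix.cons_val_one, Matrix.cons_val_fin_one]
          linear_combination T 0 1 * hxy + x * f
        · rw [hb1]
          simp only [Matrix.smul_apply, smul_eq_mul, Matrix.of_apply, Matrix.cons_val', Matrix.cons_val_zero,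
            Matrix.cons_val_one, Matrix.cons_val_fin_one]
          linear_combination hR + T 0 1 * hxy + x * f
        · rw [hb1]
          simp only [Matrix.smul_apply, smul_eq_mul, Matrix.of_apply, Matrix.cons_val', Matrix.cons_val_zero,
            Matrix.cons_val_one, Matrix.cons_val_fin_one]
          linear_combination hS - (T 0 0 * hxy - y * f)
      · have f : x * T 0 0 + y * T 0 1 = 0 := half _ (by linear_combination b00 - y * hR)
        refine ⟨-(T 0 0 * y - T 0 1 * x), Or.inr (Or.inr (Or.inr (ext4 _ _ ?_ ?_ ?_ ?_)))⟩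
        · rw [hab]
          simp only [Matrix.smul_apply, smul_eq_mul, Matrix.of_apply, Matrix.cons_val', Matrix.cons_val_zero,
            Matrix.cons_val_one, Matrix.cons_val_fin_one]
          linear_combination T 0 0 * hxy - x * f
        · rw [hab]
          simp only [Matrix.smul_apply, smul_eq_mul, Matrix.of_apply, Matrix.cons_val', Matrix.cons_val_zero,
            Matrix.cons_val_one, Matrix.cons_val_fin_one]
          linear_combination T 0 1 * hxy - y * f
        · rw [hab]
          simp only [Matrix.smul_apply, smul_eq_mul, Matrix.of_apply, Matrix.cons_val', Matrix.cons_val_zero,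
            Matrix.cons_val_one, Matrix.cons_val_fin_one]
          linear_combination hR + T 0 1 * hxy - y * f
        · rw [hab]
          simp only [Matrix.smul_apply, smul_eq_mul, Matrix.of_apply, Matrix.cons_val', Matrix.cons_val_zero,
            Matrix.cons_val_one, Matrix.cons_val_fin_one]
          linear_combination hS - (T 0 0 * hxy - x * f)

end Vale.Agent.P240.R2.H613
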