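import Vale.Agent.P240.R2.H487.TF

/-!
Simple groups `L` such that `Out(L)` has order at most `2`, for instance the sporadic groups.
-/

set_option autoImplicit false
set_option linter.all false

namespace Vale.Agent.P240.R2.H613

open Subgroup Vale.Agent.P240.K Vale.Agent.P240.H195 Vale.Agent.P240.R2.H487

universe u v

section
variable {L : Type u} [Group L] {p : ℕ}

/-- few automorphisms, if `Out(L)` has order at most `2` -/
theorem few_of_index [Finite L] (h : (MulAut.conj (G := L)).range.index ≤ 2) : FewAut p L := by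
  have key : ∀ f g : MulAut L, OutAut p f → OutAut p g →
      g ∈ zpowers f ⊔ (MulAut.conj (G := L)).range := by
    intro f g hf hg
    have h0 : (MulAut.conj (G := L)).range.index ≠ 0 := Subgroup.index_ne_zero_of_finite
    have h1 : (MulAut.conj (G := L)).range.index ≠ 1 := by
      intro h1
      rw [Subgroup.index_eq_one] at h1
      exact hf.2 (by rw [h1]; trivial)
    have h2 : (MulAut.conj (G := L)).range.index = 2 := by omega
    have h3 : f⁻¹ * g ∈ (MulAut.conj (G := L)).range := by
      rw [Subgroup.mul_mem_iff_of_index_two h2, inv_mem_iff]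
      exact ⟨fun h => absurd h hf.2, fun h => absurd h hg.2⟩
    have h4 : g = f * (f⁻¹ * g) := by group
    rw [h4]
    exact mul_mem_sup (mem_zpowers f) h3
  exact ⟨fun f g _ hf hg _ => Or.inl (key f g hf hg), Or.inl fun f g hf hg => key f g hf hg⟩

/-- `Out(L)` has order at most `2`, and for some prime `r` some `r`-subgroup of `L` normalizes no
nontrivial elementary abelian `p`-subgroup of `Aut(L)`. -/
def Spo (p : ℕ) (L : Type u) [Group L] : Prop :=
  (MulAut.conj (G := L)).range.index ≤ 2 ∧ ∃ r : ℕ, r.Prime ∧ AutFree p r L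

lemma Spo.good [Finite L] (h : Spo p L) (𝕜 : Type v) [Field 𝕜] (l : ℕ) : GoodFactor 𝕜 p l L := by
  obtain ⟨h1, r, hr, h2⟩ := h
  exact Or.inr (Or.inr (Or.inr (Or.inl ⟨r, hr, h2, Or.inr (Or.inr (Or.inl (few_of_index h1)))⟩)))

/-- `AutFree` from one element: the element `u` has prime order `r`, no automorphism of order `p`
fixes `u`, the elementary abelian `p`-subgroups of `Aut(L)` have order at most `p ^ m`, and `r` does
not divide `p ^ i - 1` for `1 ≤ i ≤ m` -/
theorem autFree_of_elem [Finite L] (hZ : ∀ x : L, (∀ y, x * y = y * x) → x = 1)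
    [hp : Fact p.Prime] {r : ℕ} [hr : Fact r.Prime] {m : ℕ}
    (hm : ∀ E : Subgroup (MulAut L), ElemAb p E → Nat.card E ≤ p ^ m)
    (hord : ∀ i, 0 < i → i ≤ m → ¬ r ∣ p ^ i - 1) {u : L} (hu : orderOf u = r)
    (hc : ∀ f : MulAut L, f ^ p = 1 → f u = u → f = 1) : AutFree p r L := by
  classical
  refine ⟨zpowers u, ?_, ?_⟩
  · have h1 : Nat.card (zpowers u) = r ^ 1 := by rw [Nat.card_zpowers, hu, pow_one]
    exact IsPGroup.of_card h1
  intro E hE hn
  obtain ⟨h1, h2, h3⟩ := id hE
  set c : MulAut L := MulAut.conj u with hcdef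
  have hcu : c ∈ normalizer (E : Set (MulAut L)) := hn ⟨u, mem_zpowers u, rfl⟩
  have hcr : c ^ r = 1 := by
    rw [hcdef, ← map_pow, ← hu, pow_orderOf_eq_one, map_one]
  have hfix : ∀ f ∈ E, c * f * c⁻¹ = f → f = 1 := by
    intro f hf hfu
    refine hc f (h3 f hf) ?_
    have e1 : MulAut.conj (f u) = MulAut.conj u := by
      have e2 : MulAut.conj (f u) = f * MulAut.conj u * f⁻¹ := by
        ext x
        simp
      rw [e2, mul_inv_eq_iff_eq_mul]
      rw [mul_inv_eq_iff_eq_mul] at hfu
      exact hfu.symm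
    have e4 : MulAut.conj (u⁻¹ * f u) = 1 := by
      rw [map_mul, e1, ← map_mul, inv_mul_cancel, map_one]
    have hz : ∀ x, (u⁻¹ * f u) * x = x * (u⁻¹ * f u) := by
      intro x
      have h5 := congrArg (fun g : MulAut L => g x) e4
      have h6 : (u⁻¹ * f u) * x * (u⁻¹ * f u)⁻¹ = x := h5
      rwa [mul_inv_eq_iff_eq_mul] at h6
    exact (inv_mul_eq_one.1 (hZ _ hz)).symm
  have hmem : ∀ x : E, c * x.1 * c⁻¹ ∈ E := fun x => (mem_normalizer_iff.1 hcu x.1).1 x.2
  let f : Function.End E := fun x => ⟨c * x.1 * c⁻¹, hmem x⟩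
  have hpow : ∀ (n : ℕ) (x : E), ((f ^ n) x : E).1 = c ^ n * x.1 * (c ^ n)⁻¹ := by
    intro n
    induction n with
    | zero =>
      intro x
      rw [pow_zero, pow_zero, one_mul, inv_one, mul_one]
      rfl
    | succ n ih =>
      intro x
      rw [pow_succ']
      change c * ((f ^ n) x : E).1 * c⁻¹ = _
      rw [ih, pow_succ']
      group
  have hf : f ^ r ^ 1 = 1 := by
    rw [pow_one]
    funext x
    apply Subtype.ext
    rw [hpow, hcr, one_mul, inv_one, mul_one]
    rfl
  have : Fintype E := Fintype.ofFinite E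
  have hmod := Equiv.Perm.card_fixedPoints_modEq (f := f) hf
  have hone : Fintype.card (Function.fixedPoints f) = 1 := by
    rw [Fintype.card_eq_one_iff]
    refine ⟨⟨1, ?_⟩, ?_⟩
    · apply Subtype.ext
      change c * 1 * c⁻¹ = 1
      group
    · rintro ⟨x, hx⟩
      apply Subtype.ext
      apply Subtype.ext
      exact hfix x.1 x.2 (congrArg Subtype.val hx)
  rw [hone, ← Nat.card_eq_fintype_card] at hmod
  have hEp : IsPGroup p E := by
    rintro ⟨x, hx⟩
    exact ⟨1, Subtype.ext (by rw [pow_one]; exact h3 x hx)⟩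
  obtain ⟨k, hk⟩ := IsPGroup.iff_card.1 hEp
  have hkm : k ≤ m := by
    have h5 := hm E hE
    rw [hk] at h5
    exact (Nat.pow_le_pow_iff_right hp.out.one_lt).1 h5
  have hk0 : 0 < k := by
    rcases Nat.eq_zero_or_pos k with h5 | h5
    · exfalso
      apply h1
      rw [h5, pow_zero] at hk
      exact Subgroup.card_eq_one.1 hk
    · exact h5
  apply hord k hk0 hkm
  rw [hk] at hmod
  exact (Nat.modEq_iff_dvd' (Nat.one_le_pow _ _ hp.out.pos)).1 hmod.symm

end

end Vale.Agent.P240.R2.H613
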