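import Mathlib.GroupTheory.Index
import Mathlib.GroupTheory.PGroup
import Mathlib.Algebra.Group.End

/-!
Simple groups with few outer automorphisms (definition).
-/

set_option autoImplicit false

namespace Vale.Agent.P240.R2.H613

/-- `Out(L)` has order at most `2`, and `L` has a subgroup `U` of prime power order that normalizes no
nontrivial elementary abelian `p`-subgroup `E` of `Aut(L)`. -/
def FewOut (p : ℕ) (L : Type*) [Group L] : Prop :=
  (MulAut.conj (G := L)).range.index ≤ 2 ∧ ∃ (r : ℕ) (U : Subgroup L), r.Prime ∧ IsPGroup r U ∧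
    ∀ E : Subgroup (MulAut L), (∀ f ∈ E, ∀ g ∈ E, f * g = g * f) → (∀ f ∈ E, f ^ p = 1) →
      (∀ u ∈ U, ∀ f ∈ E, MulAut.conj u * f * (MulAut.conj u)⁻¹ ∈ E) → E = ⊥

end Vale.Agent.P240.R2.H613
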