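import Vale.Agent.P240.R2.H613.Spo
import Vale.Agent.P240.R2.H613.SpoDefs
import Vale.Agent.P240.R2.H487.AM3

/-!
Simple groups with few outer automorphisms.
-/

set_option autoImplicit false
set_option linter.all false

namespace Vale.Agent.P240.R2.H613

open Subgroup Vale.Agent.P240.K Vale.Agent.P240.H195 Vale.Agent.P240.R2.H487

universe u v

section
variable {L : Type u} [Group L] {p : ℕ}

lemma FewOut.spo (h : FewOut p L) : Spo p L := by
  obtain ⟨h1, r, U, hr, hU, h2⟩ := h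
  refine ⟨h1, r, hr, U, hU, fun E hE hn => hE.1 (h2 E hE.2.1 hE.2.2 fun u hu f hf => ?_)⟩
  have h3 : MulAut.conj u ∈ normalizer (E : Set (MulAut L)) := hn ⟨u, hu, rfl⟩
  exact (mem_normalizer_iff.1 h3 f).1 hf

lemma FewOut.autFree (h : FewOut p L) : ∃ r : ℕ, r.Prime ∧ AutFree p r L := h.spo.2

lemma FewOut.fewAut [Finite L] (h : FewOut p L) : FewAut p L := few_of_index h.1

/-- good factors, for all `𝕜` and `l` -/
theorem FewOut.good [Finite L] (h : FewOut p L) (𝕜 : Type v) [Field 𝕜] (l : ℕ) :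
    GoodFactor 𝕜 p l L := h.spo.good 𝕜 l

/-- elimination -/
theorem FewOut.topR [Finite L] (h : FewOut p L) (𝕜 : Type v) [Field 𝕜] : TopR 𝕜 p L :=
  Or.inr (Or.inr ⟨h.fewAut, h.autFree⟩)

end

end Vale.Agent.P240.R2.H613
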